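import Crest.Agent.R89.Hull

/-! Row 89: the jumps of a chain with non-zero coefficient are short. -/

set_option autoImplicit false

namespace Crest.Agent.R89

open Classical in
/-- The number of entries with property `R`. -/
noncomputable def lenCnt {β : Type} (l : List β) (R : β → Prop) : ℕ :=
  (l.map fun j => if R j then 1 else 0).sum

lemma len_countP {β : Type} (l : List β) (R : β → Prop) {d : DecidablePred R} :
    l.countP (fun j => @decide (R j) (d j)) = lenCnt l R := by
  unfold lenCnt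
  induction l with
  | nil => rfl
  | cons a l ih =>
    rw [List.countP_cons, List.map_cons, List.sum_cons, ih, add_comm]
    by_cases h : R a <;> simp [h]

lemma len_swap {β γ : Type} (l : List β) (S : Finset γ) (R : γ → β → Prop)
    [∀ b j, Decidable (R b j)] :
    ∑ b ∈ S, lenCnt l (R b) = (l.map fun j => (S.filter fun b => R b j).card).sum := by
  unfold lenCnt
  induction l with
  | nil => simp
  | cons a l ih =>
    simp only [List.map_cons, List.sum_cons, Finset.sum_add_distrib, ih, Finset.card_filter]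
    congr 1
    exact Finset.sum_congr rfl fun b _ => by congr

lemma len_or {β : Type} (l : List β) (R R₁ R₂ : β → Prop) (h : ∀ j ∈ l, R j → R₁ j ∨ R₂ j) :
    lenCnt l R ≤ lenCnt l R₁ + lenCnt l R₂ := by
  unfold lenCnt
  rw [← List.sum_map_add]
  refine List.sum_le_sum fun j hj => ?_
  have := h j hj
  split_ifs <;> first | omega | tauto

lemma len_last {P L : Type} (lab : P → L) (l : List (P × P)) :
    ∀ (p : P) (b : L), Ch lab (lab p) l b → lab (lastT p l) = b := by
  induction l with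
  | nil => exact fun p b h => h
  | cons e l ih => exact fun p b h => ih e.2 b h.2

lemma len_jmp {P L : Type} (lab : P → L) (l : List (P × P)) :
    ∀ (p : P) (b : L), Ch lab (lab p) l b → ∀ j ∈ jmp p l, lab j.1 = lab j.2 := by
  induction l with
  | nil => intro p b _ j hj; simp [jmp] at hj
  | cons e l ih =>
    intro p b h j hj
    rcases List.mem_cons.1 hj with rfl | hj
    · exact h.1.symm
    · exact ih e.2 b h.2 j hj

lemma len_jmp_length {P : Type} (l : List (P × P)) : ∀ p : P, (jmp p l).length = l.length := by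
  induction l with
  | nil => exact fun _ => rfl
  | cons e l ih => exact fun p => by simp [jmp, ih]

lemma len_K3 {P L : Type} {lab : P → L} {κ : List (P × P) → ℤ} (h : K3 lab κ) (sd : P → Prop)
    (K : L) (K' : L → Prop)
    (hK : ∀ p p', lab p = lab p' → lab p ≠ K → ¬ (sd p ↔ sd p') → K' (lab p)) (e : P × P)
    (l : List (P × P)) (hc : Ch lab (lab e.1) (e :: l) (lab e.1)) (h0 : κ (e :: l) ≠ 0) :
    lenCnt (jmp (lastT e.2 l) (e :: l)) (fun j => lab j.1 = K ∧ ¬ (sd j.1 ↔ sd j.2)) ≤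
      lenCnt (jmp (lastT e.2 l) (e :: l)) (fun j => K' (lab j.1)) +
        lenCnt (e :: l) fun s => ¬ (sd s.1 ↔ sd s.2) :=
  (len_countP _ _).symm.trans_le ((h sd K K' hK e l hc h0).trans_eq
    (congrArg₂ _ (len_countP _ _) (len_countP _ _)))

theorem jump_len : ∃ C : ℕ, ∀ κ : List (Γ × Γ) → ℤ, K3 (fun γ : Γ => (γ : Γ ⧸ H)) κ →
    ∀ (e : Γ × Γ) (l : List (Γ × Γ)),
      Ch (fun γ : Γ => (γ : Γ ⧸ H)) (e.1 : Γ ⧸ H) (e :: l) (e.1 : Γ ⧸ H) → κ (e :: l) ≠ 0 →
      ((jmp (lastT e.2 l) (e :: l)).map fun j => (j.1⁻¹ * j.2).norm).sum ≤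
        C * (l.length + 1) + ((e :: l).map fun s => (s.1⁻¹ * s.2).norm).sum := by
  classical
  obtain ⟨m₀, hm₀⟩ := minor_card
  refine ⟨2 * m₀, fun κ hκ e l hc h0 => ?_⟩
  choose sp hsp hcard using fun j : Γ × Γ => sep_card j.1 j.2
  have hlast : ((lastT e.2 l : Γ) : Γ ⧸ H) = (e.1 : Γ ⧸ H) :=
    len_last (fun γ : Γ => (γ : Γ ⧸ H)) l e.2 _ hc.2
  have hj := len_jmp (fun γ : Γ => (γ : Γ ⧸ H)) (e :: l) (lastT e.2 l) (e.1 : Γ ⧸ H)
    (by rw [hlast]; exact hc)
  have hlen : (jmp (lastT e.2 l) (e :: l)).length = l.length + 1 := len_jmp_length _ _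
  have hK : ∀ b : Γ, lenCnt (jmp (lastT e.2 l) (e :: l)) (fun j => ¬ (side b j.1 ↔ side b j.2)) ≤
      2 * lenCnt (jmp (lastT e.2 l) (e :: l)) (fun j => minor b (j.1 : Γ ⧸ H)) +
        lenCnt (e :: l) fun s => ¬ (side b s.1 ↔ side b s.2) := by
    intro b
    obtain ⟨K, hK⟩ := major_unique b
    have h1 := len_K3 hκ (side b) K (minor b) hK e l hc h0
    beta_reduce at h1
    have h2 := len_or (jmp (lastT e.2 l) (e :: l)) (fun j => ¬ (side b j.1 ↔ side b j.2))
      (fun j => (j.1 : Γ ⧸ H) = K ∧ ¬ (side b j.1 ↔ side b j.2))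
      (fun j => minor b (j.1 : Γ ⧸ H)) fun j hj' hs => by
        by_cases h : (j.1 : Γ ⧸ H) = K
        · exact Or.inl ⟨h, hs⟩
        · exact Or.inr (hK _ _ (hj j hj') h hs)
    omega
  generalize jmp (lastT e.2 l) (e :: l) = Jm at hlen hK ⊢
  generalize e :: l = St at hK ⊢
  have h1 := Finset.sum_le_sum (s := Jm.toFinset.biUnion sp) fun b _ => hK b
  rw [Finset.sum_add_distrib, ← Finset.mul_sum, len_swap, len_swap, len_swap] at h1
  refine le_trans (List.sum_le_sum fun j hj => ?_) (h1.trans (add_le_add ?_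
    (List.sum_le_sum fun s _ => ?_)))
  · rw [← hcard j]
    refine Finset.card_le_card fun b hb => Finset.mem_filter.2 ⟨?_, (hsp j b).1 hb⟩
    exact Finset.mem_biUnion.2 ⟨j, List.mem_toFinset.2 hj, hb⟩
  · rw [mul_assoc, ← hlen]
    refine Nat.mul_le_mul_left 2 ?_
    refine (List.sum_le_card_nsmul _ m₀ fun a ha => ?_).trans_eq (by simp [mul_comm])
    obtain ⟨j, -, rfl⟩ := List.mem_map.1 ha
    obtain ⟨s, hs, hs'⟩ := hm₀ (j.1 : Γ ⧸ H)
    exact (Finset.card_le_card fun b hb => hs' b (Finset.mem_filter.1 hb).2).trans hs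
  · rw [← hcard s]
    exact Finset.card_le_card fun b hb => (hsp s b).2 (Finset.mem_filter.1 hb).2

end Crest.Agent.R89
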