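import Crest.Agent.R89.Defs

/-! Row 89: counting words with short group letters. -/

set_option autoImplicit false

namespace Crest.Agent.R89

/-- All finite partial sums of `w` are at most `M`. -/
def SumB {X : Type} (w : X → ℝ) (M : ℝ) : Prop := ∀ S : Finset X, ∑ x ∈ S, w x ≤ M

lemma sum_inj {X Y : Type} {w : X → ℝ} {w' : Y → ℝ} {M : ℝ} (f : X → Y)
    (hf : Function.Injective f) (hw : ∀ x, w x ≤ w' (f x)) (h : SumB w' M) : SumB w M := by
  intro S
  refine (Finset.sum_le_sum fun x _ => hw x).trans ?_
  have := h (S.map ⟨f, hf⟩)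
  rwa [Finset.sum_map] at this

lemma sum_prod {X Y : Type} {w : X → ℝ} {w' : Y → ℝ} {M M' : ℝ} (hw : ∀ x, 0 ≤ w x)
    (hw' : ∀ y, 0 ≤ w' y) (h : SumB w M) (h' : SumB w' M') :
    SumB (fun p : X × Y => w p.1 * w' p.2) (M * M') := by
  classical
  intro S
  calc ∑ p ∈ S, w p.1 * w' p.2 ≤ ∑ p ∈ S.image Prod.fst ×ˢ S.image Prod.snd, w p.1 * w' p.2 :=
        Finset.sum_le_sum_of_subset_of_nonneg Finset.subset_product
          fun p _ _ => mul_nonneg (hw _) (hw' _)
    _ = (∑ x ∈ S.image Prod.fst, w x) * ∑ y ∈ S.image Prod.snd, w' y := by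
        rw [Finset.sum_product, Finset.sum_mul_sum]
    _ ≤ M * M' := by
        have h0 : 0 ≤ M := by simpa using h ∅
        exact mul_le_mul (h _) (h' _) (Finset.sum_nonneg fun y _ => hw' y) h0

lemma sum_option {X : Type} {w : Option X → ℝ} {M : ℝ} (hw : ∀ x, 0 ≤ w x)
    (h : SumB (fun x => w (some x)) M) : SumB w (w none + M) := by
  intro S
  calc ∑ x ∈ S, w x ≤ ∑ x ∈ Finset.insertNone (Finset.eraseNone S), w x := by
        refine Finset.sum_le_sum_of_subset_of_nonneg (fun x hx => ?_) fun x _ _ => hw x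
        cases x <;> simp [hx]
    _ = w none + ∑ x ∈ Finset.eraseNone S, w (some x) := Finset.sum_insertNone _ _
    _ ≤ w none + M := by linarith [h (Finset.eraseNone S)]

lemma sum_list {X : Type} {w : X → ℝ} (hw : ∀ x, 0 ≤ w x) (h : SumB w (1 / 2)) :
    SumB (fun l : List X => (l.map w).prod) 2 := by
  have hp : ∀ l : List X, 0 ≤ (l.map w).prod := fun l =>
    List.prod_nonneg fun a ha => by
      obtain ⟨x, -, rfl⟩ := List.mem_map.1 ha
      exact hw x
  have key : ∀ N : ℕ, SumB (fun l : List X => if l.length < N then (l.map w).prod else 0) 2 := by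
    intro N
    induction N with
    | zero => intro S; simp
    | succ N ih =>
      have h0 : ∀ l : List X, 0 ≤ if l.length < N then (l.map w).prod else 0 := fun l => by
        split_ifs
        exacts [hp l, le_rfl]
      have h1 := sum_prod hw h0 h ih
      have h2 := sum_option (w := fun o : Option (X × List X) => o.elim 1 fun p =>
        w p.1 * if p.2.length < N then (p.2.map w).prod else 0) (fun o => by
          cases o with
          | none => exact zero_le_one
          | some p => exact mul_nonneg (hw _) (h0 _)) h1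
      rw [show (Option.elim (none : Option (X × List X)) (1 : ℝ) fun p =>
        w p.1 * if p.2.length < N then (p.2.map w).prod else 0) + 1 / 2 * 2 = 2 by
          simp only [Option.elim]; norm_num] at h2
      refine sum_inj (fun l : List X => match l with
        | [] => none
        | x :: l => some (x, l)) ?_ ?_ h2
      · intro a b hab
        cases a <;> cases b <;> simp_all
      · intro l
        cases l with
        | nil => simp
        | cons x l => by_cases hl : l.length < N <;> simp [hl]
  intro S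
  refine le_trans (Finset.sum_le_sum fun l hl => ?_) (key (S.sup List.length + 1) S)
  rw [if_pos (Nat.lt_succ_of_le (Finset.le_sup (f := List.length) hl))]

lemma sum_const {X : Type} [Fintype X] {y : ℝ} (hy : 0 ≤ y) :
    SumB (fun _ : X => y) (Fintype.card X * y) := by
  intro S
  rw [Finset.sum_const, nsmul_eq_mul]
  exact mul_le_mul_of_nonneg_right (by exact_mod_cast S.card_le_univ) hy

lemma SumB.mono {X : Type} {w : X → ℝ} {M M' : ℝ} (h : SumB w M) (hM : M ≤ M') : SumB w M' :=
  fun S => (h S).trans hM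

/-- A word as a list of pairs and a last letter. -/
def sumCode {G T : Type} : W G T → List (G × T) × G
  | .nil g => ([], g)
  | .cons g t w => ((g, t) :: (sumCode w).1, (sumCode w).2)

lemma sumCode_inj {G T : Type} : Function.Injective (sumCode (G := G) (T := T)) := by
  intro a
  induction a with
  | nil g => intro b hb; cases b <;> simp_all [sumCode]
  | cons g t w ih =>
    intro b hb
    cases b with
    | nil g' => simp [sumCode] at hb
    | cons g' t' w' =>
      simp only [sumCode, Prod.mk.injEq, List.cons.injEq] at hb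
      obtain ⟨⟨⟨rfl, rfl⟩, h1⟩, h2⟩ := hb
      rw [ih (Prod.ext h1 h2)]

lemma sumCode_weight {G T : Type} (ν : G → ℕ) (y z : ℝ) (ω : W G T) :
    y ^ ω.len * z ^ (ω.jumps.map ν).sum =
      ((sumCode ω).1.map fun p => z ^ ν p.1 * y).prod * z ^ ν (sumCode ω).2 := by
  induction ω with
  | nil g => simp [sumCode, W.len, W.jumps]
  | cons g t w ih =>
    simp only [sumCode, W.len, W.jumps, List.map_cons, List.sum_cons, List.prod_cons, pow_succ,
      pow_add, mul_assoc, ← ih]
    ring

theorem sum_bound {α T : Type} [Fintype α] [DecidableEq α] [Fintype T] (C : ℕ) :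
    ∃ θ : ℝ, 0 < θ ∧ ∃ M : ℝ, ∀ F : Finset (W (FreeGroup α) T),
      (∀ ω ∈ F, (ω.jumps.map FreeGroup.norm).sum ≤ C * (ω.len + 1)) →
      ∑ ω ∈ F, θ ^ ω.len ≤ M := by
  have small : ∀ n : ℕ, ∃ z : ℝ, 0 < z ∧ z ≤ 1 ∧ n * z ≤ 1 / 4 := fun n => by
    have h0 : (0 : ℝ) ≤ n := Nat.cast_nonneg n
    refine ⟨1 / (4 * (n + 1)), by positivity, ?_, ?_⟩
    · rw [div_le_one (by positivity)]; linarith
    · rw [mul_one_div, div_le_div_iff₀ (by positivity) (by positivity)]; linarith
  obtain ⟨z, hz0, hz1, hz⟩ := small (Fintype.card (α × Bool))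
  obtain ⟨y, hy0, -, hy⟩ := small (Fintype.card T)
  have h1 : SumB (fun g : FreeGroup α => z ^ g.norm) 2 :=
    sum_inj FreeGroup.toWord FreeGroup.toWord_injective (fun g => by simp [FreeGroup.norm])
      (sum_list (fun _ => hz0.le) ((sum_const (X := α × Bool) hz0.le).mono (by linarith)))
  have h2 : SumB (fun p : FreeGroup α × T => z ^ p.1.norm * y) (1 / 2) :=
    (sum_prod (fun _ => by positivity) (fun _ => hy0.le) h1 (sum_const (X := T) hy0.le)).mono
      (by linarith)
  have hw : ∀ p : FreeGroup α × T, 0 ≤ z ^ p.1.norm * y := fun p => by positivity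
  have h3 := sum_prod (fun l : List (FreeGroup α × T) => List.prod_nonneg fun a ha => by
      obtain ⟨x, -, rfl⟩ := List.mem_map.1 ha
      exact hw x) (fun _ => by positivity) (sum_list hw h2) h1
  have h4 : SumB (fun ω : W (FreeGroup α) T => y ^ ω.len * z ^ (ω.jumps.map FreeGroup.norm).sum)
      (2 * 2) := sum_inj sumCode sumCode_inj (fun ω => (sumCode_weight _ y z ω).le) h3
  refine ⟨y * z ^ C, by positivity, 2 * 2 / z ^ C, fun F hF => ?_⟩
  rw [le_div_iff₀ (by positivity), Finset.sum_mul]
  refine le_trans (Finset.sum_le_sum fun ω hω => ?_) (h4 F)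
  rw [mul_pow, mul_assoc, ← pow_succ, ← pow_mul]
  exact mul_le_mul_of_nonneg_left (pow_le_pow_of_le_one hz0.le hz1 (hF ω hω)) (by positivity)

end Crest.Agent.R89
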