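import Crest.Agent.R89.Kappa
import Crest.Agent.R89.Len
import Crest.Agent.R89.Sum

/-! Row 89: the summable coefficients. -/

set_option autoImplicit false

namespace Crest.Agent.R89

section
variable {G T : Type} [Group G] (x : T → G)

lemma comb_prod_mulL (h : G) (v : W G T) : (W.mulL h v).prod x = h * v.prod x := by
  cases v <;> simp [W.mulL, W.prod, mul_assoc]

lemma comb_steps_mulL (a h : G) (v : W G T) :
    W.steps x a (W.mulL h v) = W.steps x (a * h) v := by
  cases v <;> simp [W.mulL, W.steps, mul_assoc]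

lemma comb_sub [DecidableEq G] (ω : W G T) : ∀ (Φ : List (G × G) → ℤ) (a : G),
    W.sub x (fun v => if a * v.prod x = 1 then Φ (W.steps x a v) else 0) ω =
      if a * ω.prod x = 1 then ((W.steps x a ω).sublists'.map Φ).sum else 0 := by
  induction ω with
  | nil g => intro Φ a; simp [W.sub, W.steps]
  | cons g t w ih =>
    intro Φ a
    have h1 := ih Φ (a * g * x t)
    have h2 := ih (fun V => Φ ((a * g, a * g * x t) :: V)) (a * g * x t)
    simp only [W.sub, W.steps, W.prod, comb_prod_mulL, comb_steps_mulL, ← mul_assoc, h1, h2,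
      List.sublists'_cons, List.map_append, List.sum_append, List.map_map, Function.comp_def]
    split_ifs <;> simp

lemma comb_steps_length (ω : W G T) : ∀ a : G, (W.steps x a ω).length = ω.len := by
  induction ω with
  | nil g => exact fun _ => rfl
  | cons g t w ih => exact fun a => by simp [W.steps, W.len, ih]

lemma comb_steps_norm (ν : G → ℕ) (B : ℕ) (hB : ∀ t, ν (x t) ≤ B) (ω : W G T) : ∀ a : G,
    ((W.steps x a ω).map fun s => ν (s.1⁻¹ * s.2)).sum ≤ B * ω.len := by
  induction ω with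
  | nil g => exact fun _ => by simp [W.steps]
  | cons g t w ih =>
    intro a
    have h1 := ih (a * g * x t)
    have h2 := hB t
    simp only [W.steps, W.len, List.map_cons, List.sum_cons, inv_mul_cancel_left, mul_add]
    omega

lemma comb_jumps (ν : G → ℕ) (ω : W G T) : ∀ a : G, (ω.jumps.map ν).sum =
    ((jmp a (W.steps x a ω)).map fun j => ν (j.1⁻¹ * j.2)).sum +
      ν ((lastT a (W.steps x a ω))⁻¹ * (a * ω.prod x)) := by
  induction ω with
  | nil g => exact fun _ => by simp [W.steps, W.jumps, jmp, lastT, W.prod]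
  | cons g t w ih =>
    intro a
    simp only [W.steps, W.jumps, jmp, lastT, W.prod, List.map_cons, List.sum_cons,
      inv_mul_cancel_left, ih (a * g * x t), mul_assoc, add_assoc]

lemma comb_ch (K : Subgroup G) (ω : W G T) : ∀ a : G, (∀ γ ∈ ω.jumps, γ ∈ K) →
    Ch (fun γ : G => (γ : G ⧸ K)) (a : G ⧸ K) (W.steps x a ω) ((a * ω.prod x : G) : G ⧸ K) := by
  induction ω with
  | nil g =>
    intro a h
    exact (QuotientGroup.mk_mul_of_mem a (h g (by simp [W.jumps]))).symm
  | cons g t w ih =>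
    intro a h
    refine ⟨QuotientGroup.mk_mul_of_mem a (h g (by simp [W.jumps])), ?_⟩
    have := ih (a * g * x t) fun γ hγ => h γ (by simp [W.jumps, hγ])
    simpa only [W.prod, mul_assoc] using this

end

lemma comb_fj_mem {j : I} {γ : Γ} (h : fj j γ ≠ 0) : γ ∈ H := by
  unfold fj at h
  by_contra hc
  exact h (if_neg fun h' => hc h'.1)

lemma comb_fj_abs (j : I) (γ γ' : Γ) : |fj j γ - fj j γ'| ≤ 1 := by
  unfold fj
  split_ifs <;> simp

lemma comb_mem {γ : Γ} (h : (γ : Γ ⧸ H) = ((1 : Γ) : Γ ⧸ H)) : γ ∈ H := by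
  simpa using QuotientGroup.eq.1 h.symm

open Classical in
theorem comb {T : Type} [Fintype T] (x : T → Γ) : ∃ θ : ℝ, 0 < θ ∧ ∃ M : ℝ, ∀ j : I,
    ∃ c : W Γ T → ℤ, (∀ F : Finset (W Γ T), ∑ ω ∈ F, θ ^ ω.len * |(c ω : ℝ)| ≤ M) ∧
      ∀ ω : W Γ T, (∀ γ ∈ ω.jumps, γ ∈ H) → W.sub x c ω =
        if ω.prod x = 1 then ((W.steps x 1 ω).map fun e => fj j e.1 - fj j e.2).sum else 0 := by
  obtain ⟨κ, hκ1, hκ2, hκ3⟩ := kappa (fun γ : Γ => (γ : Γ ⧸ H))
  obtain ⟨C, hC⟩ := jump_len
  obtain ⟨B, hB⟩ : ∃ B : ℕ, ∀ t, (x t).norm ≤ B :=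
    ⟨Finset.univ.sup fun t => (x t).norm, fun t =>
      Finset.le_sup (f := fun t => (x t).norm) (Finset.mem_univ t)⟩
  obtain ⟨θ, hθ, M, hM⟩ := sum_bound (α := J) (T := T) (C + B + 4)
  refine ⟨θ / 8, by positivity, M, fun j => ⟨fun v => if 1 * v.prod x = 1 then
    ct (fun γ : Γ => (γ : Γ ⧸ H)) κ ((1 : Γ) : Γ ⧸ H) (fj j) (W.steps x 1 v) else 0,
    fun F => ?_, fun ω hω => ?_⟩⟩
  · refine le_trans ?_ (hM (F.filter fun ω => (ω.jumps.map FreeGroup.norm).sum ≤
      (C + B + 4) * (ω.len + 1)) fun ω hω => (Finset.mem_filter.1 hω).2)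
    rw [Finset.sum_filter]
    refine Finset.sum_le_sum fun ω _ => ?_
    beta_reduce
    have hpos : 0 ≤ if (ω.jumps.map FreeGroup.norm).sum ≤ (C + B + 4) * (ω.len + 1) then
        θ ^ ω.len else 0 := by split_ifs <;> positivity
    by_cases hp : 1 * ω.prod x = 1
    swap
    · simpa only [if_neg hp, Int.cast_zero, abs_zero, mul_zero] using hpos
    rw [if_pos hp]
    have hlen := comb_steps_length x ω 1
    have hst := comb_steps_norm x FreeGroup.norm B hB ω 1
    have hj := comb_jumps x FreeGroup.norm ω 1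
    rw [hp, mul_one, FreeGroup.norm_inv_eq] at hj
    generalize W.steps x 1 ω = St at hlen hst hj
    cases St with
    | nil => simpa only [ct, Int.cast_zero, abs_zero, mul_zero] using hpos
    | cons e V =>
      rw [ct]
      by_cases hch : Ch (fun γ : Γ => (γ : Γ ⧸ H)) ((1 : Γ) : Γ ⧸ H) (e :: V) ((1 : Γ) : Γ ⧸ H)
      swap
      · simpa only [if_neg hch, Int.cast_zero, abs_zero, mul_zero] using hpos
      rw [if_pos hch]
      by_cases hz : κ (e :: V) * (fj j e.1 - fj j (lastT e.2 V)) = 0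
      · simpa only [hz, Int.cast_zero, abs_zero, mul_zero] using hpos
      obtain ⟨hz1, hz2⟩ := mul_ne_zero_iff.1 hz
      have he : (e.1 : Γ ⧸ H) = ((1 : Γ) : Γ ⧸ H) := hch.1
      have hl : ((lastT e.2 V : Γ) : Γ ⧸ H) = ((1 : Γ) : Γ ⧸ H) :=
        len_last (fun γ : Γ => (γ : Γ ⧸ H)) V e.2 _ hch.2
      have h1 := hC κ hκ3 e V (by rw [he]; exact hch) hz1
      have h2 := fj_norm j (comb_mem hl) (comb_mem he) (sub_ne_zero.1 hz2).symm
      simp only [jmp, lastT, List.map_cons, List.sum_cons, inv_one, one_mul, List.length_cons]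
        at h1 hj hst hlen
      rw [if_pos (by rw [hj, ← hlen]; rw [← hlen] at hst; nlinarith)]
      have h3 : |((κ (e :: V) * (fj j e.1 - fj j (lastT e.2 V)) : ℤ) : ℝ)| ≤ 8 ^ ω.len := by
        have h4 := hκ1 (e :: V)
        have h5 := comb_fj_abs j e.1 (lastT e.2 V)
        rw [List.length_cons, hlen] at h4
        have h6 : |κ (e :: V) * (fj j e.1 - fj j (lastT e.2 V))| ≤ 8 ^ ω.len := by
          rw [abs_mul]
          exact (mul_le_mul h4 h5 (abs_nonneg _) (by positivity)).trans_eq (mul_one _)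
        exact_mod_cast h6
      refine (mul_le_mul_of_nonneg_left h3 (by positivity)).trans_eq ?_
      rw [← mul_pow, div_mul_cancel₀ _ (by norm_num)]
  · rw [comb_sub, one_mul]
    split_ifs with hp
    · have hch := comb_ch x H ω 1 hω
      rw [hp, mul_one] at hch
      refine hκ2 _ (fj j) (fun p h => ?_) _ hch
      exact QuotientGroup.eq.2 (by simpa using comb_fj_mem h)
    · rfl

end Crest.Agent.R89
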