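import Mathlib
import Crest.Prelude.Def_FreeEntropy
import Crest.Agent.R95.Basic

/-! Row 89: shared definitions.

* `W G T`: words `g₀ t₁ g₁ … t_k g_k` (basis of the Fock space over a group `G`);
* `ev`, `spl`, `SD`, `Bd`: words in a tuple, split sums, Schwinger–Dyson equations, bounds on the
  conjugate variables;
* the free group `Γ`, the elements `gI`, the subgroup `H`;
* chains of steps, used for the cumulant-like coefficients. -/

set_option autoImplicit false

namespace Crest.Agent.R89

open Crest.OpAlg Crest.Agent.R95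

/-- Words `g₀ t₁ g₁ t₂ … t_k g_k`. -/
inductive W (G T : Type) : Type
  | nil (g : G) : W G T
  | cons (g : G) (t : T) (w : W G T) : W G T

namespace W
variable {G T : Type}

/-- Multiply the first group letter on the left. -/
def mulL [Mul G] (a : G) : W G T → W G T
  | nil g => nil (a * g)
  | cons g t w => cons (a * g) t w

/-- Number of `T`-letters. -/
def len : W G T → ℕ
  | nil _ => 0
  | cons _ _ w => len w + 1

/-- The group letters. -/
def jumps : W G T → List G
  | nil g => [g]
  | cons g _ w => g :: jumps w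

/-- The product in `G` when `t` is read as `x t`. -/
def prod [Mul G] (x : T → G) : W G T → G
  | nil g => g
  | cons g t w => g * x t * prod x w

/-- The steps `(p, p * x t)` of the path that starts at `a` and reads the word. -/
def steps [Mul G] (x : T → G) : G → W G T → List (G × G)
  | _, nil _ => []
  | a, cons g t w => (a * g, a * g * x t) :: steps x (a * g * x t) w

/-- Sum of `c` over the subwords: each letter `t` is kept, or merged as `x t` in the group
letters. -/
def sub [Mul G] {R : Type} [Add R] (x : T → G) : (W G T → R) → W G T → R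
  | c, nil g => c (nil g)
  | c, cons g t w =>
      sub x (fun v => c (mulL (g * x t) v)) w + sub x (fun v => c (cons g t v)) w

end W

section Words
variable {A : Type*} {ι : Type*}

/-- The product `Y_{l₀} Y_{l₁} ⋯`. -/
def ev [Monoid A] (Y : ι → A) (l : List ι) : A := (l.map Y).prod

@[simp] lemma ev_nil [Monoid A] (Y : ι → A) : ev Y [] = 1 := rfl

@[simp] lemma ev_cons [Monoid A] (Y : ι → A) (i : ι) (l : List ι) :
    ev Y (i :: l) = Y i * ev Y l := by simp [ev]

lemma ev_append [Monoid A] (Y : ι → A) (l l' : List ι) : ev Y (l ++ l') = ev Y l * ev Y l' := by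
  simp [ev]

lemma ev_map [Monoid A] {κ : Type*} (Y : ι → A) (f : κ → ι) (l : List κ) :
    ev Y (l.map f) = ev (fun k => Y (f k)) l := by simp [ev, Function.comp_def]

lemma map_ev [Monoid A] {B F : Type*} [Monoid B] [FunLike F A B] [MonoidHomClass F A B] (φ : F)
    (Y : ι → A) (l : List ι) : φ (ev Y l) = ev (fun i => φ (Y i)) l := by
  simp [ev, map_list_prod, Function.comp_def]

lemma wordEval_eq [Ring A] {n : ℕ} (X : Fin n → A) (w : FreeMonoid (Fin n)) :
    wordEval X w = ev X (FreeMonoid.toList w) := FreeMonoid.lift_apply _ _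

/-- `∑ₖ c(l_k) φ(l_{<k}) ψ(l_{>k})`. -/
noncomputable def spl (c : ι → ℂ) (φ ψ : List ι → ℂ) (l : List ι) : ℂ :=
  ∑ k ∈ Finset.range l.length, (l[k]?.elim 0 c) * (φ (l.take k) * ψ (l.drop (k + 1)))

@[simp] lemma spl_nil (c : ι → ℂ) (φ ψ : List ι → ℂ) : spl c φ ψ [] = 0 := by simp [spl]

lemma spl_cons (c : ι → ℂ) (φ ψ : List ι → ℂ) (i : ι) (l : List ι) :
    spl c φ ψ (i :: l) = c i * (φ [] * ψ l) + spl c (fun a => φ (i :: a)) ψ l := by
  simp [spl, Finset.sum_range_succ', add_comm]

/-- Schwinger–Dyson equation: `τ(N · Y_l) = ∑ₖ c(l_k) τ(Y_{l<k}) τ(Y_{l>k})` for every word. -/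
def SD [Ring A] [Algebra ℂ A] (τ : A →ₗ[ℂ] ℂ) (Y : ι → A) (N : A) (c : ι → ℂ) : Prop :=
  ∀ l : List ι, τ (N * ev Y l) = spl c (fun a => τ (ev Y a)) (fun a => τ (ev Y a)) l

/-- The trace as a linear map. -/
noncomputable abbrev trL (A : Type*) [CStarAlgebra A] [Tr A] : A →ₗ[ℂ] ℂ :=
  (τ : A →L[ℂ] ℂ).toLinearMap

/-- `(τ ⊗ τ) ∘ ∂ᵢ` is bounded by `√B` for the 2-norm. -/
def Bd [CStarAlgebra A] [Tr A] [DecidableEq ι] (Y : ι → A) (i : ι) (B : ℝ) : Prop :=
  ∃ Λ : A →ₗ[ℂ] ℂ, (∀ x, ‖Λ x‖ ^ 2 ≤ B * n2 x ^ 2) ∧ ∀ l : List ι,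
    spl (fun k => if k = i then 1 else 0) (fun a => τ (ev Y a)) (fun a => τ (ev Y a)) l =
      Λ (ev Y l)

end Words

section Chains
variable {P L : Type}

/-- `l` is a chain of steps from label `a` to label `b`: consecutive steps are joined by jumps
inside one label class. -/
def Ch (lab : P → L) : L → List (P × P) → L → Prop
  | a, [], b => a = b
  | a, e :: l, b => lab e.1 = a ∧ Ch lab (lab e.2) l b

/-- The end point of a list of steps (`p` for the empty list). -/
def lastT : P → List (P × P) → P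
  | p, [] => p
  | _, e :: l => lastT e.2 l

/-- The jumps `(p, e₁.1), (e₁.2, e₂.1), …` that precede the steps. -/
def jmp : P → List (P × P) → List (P × P)
  | _, [] => []
  | p, e :: l => (p, e.1) :: jmp e.2 l

open Classical in
/-- The coefficient of a list of steps. -/
noncomputable def ct (lab : P → L) (κ : List (P × P) → ℤ) (a : L) (F : P → ℤ) :
    List (P × P) → ℤ
  | [] => 0
  | e :: V => if Ch lab a (e :: V) a then κ (e :: V) * (F e.1 - F (lastT e.2 V)) else 0

open Classical in
/-- If `κ` does not vanish on a closed chain, the cyclic jumps of label `K` that change side are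
at most the jumps with label in `K'` plus the steps that change side. -/
def K3 (lab : P → L) (κ : List (P × P) → ℤ) : Prop :=
  ∀ (sd : P → Prop) (K : L) (K' : L → Prop),
    (∀ p p', lab p = lab p' → lab p ≠ K → ¬ (sd p ↔ sd p') → K' (lab p)) →
    ∀ e l, Ch lab (lab e.1) (e :: l) (lab e.1) → κ (e :: l) ≠ 0 →
      (jmp (lastT e.2 l) (e :: l)).countP (fun j => lab j.1 = K ∧ ¬ (sd j.1 ↔ sd j.2)) ≤
        (jmp (lastT e.2 l) (e :: l)).countP (fun j => K' (lab j.1)) +
          (e :: l).countP fun s => ¬ (sd s.1 ↔ sd s.2)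

end Chains

section Group

/-- The field with 29 elements. -/
abbrev F29 : Type := ZMod 29

/-- Lines `y = a x + b` (as pairs `(a, b)`) and points of the plane. -/
abbrev Ln : Type := F29 × F29

/-- The point of abscissa `x` on a line. -/
def pt (l : Ln) (x : F29) : Ln := (x, l.1 * x + l.2)

/-- Generators: `y_ℓ`, `x_q`, `z_ℓ`. -/
abbrev J : Type := Ln ⊕ Ln ⊕ Ln

/-- The free group. -/
abbrev Γ : Type := FreeGroup J

/-- Flags (line, abscissa of a point on it). -/
abbrev I : Type := Ln × F29

/-- `g = y_ℓ x_q z_ℓ`. -/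
def gI (k : I) : Γ :=
  FreeGroup.of (.inl k.1) * FreeGroup.of (.inr (.inl (pt k.1 k.2))) * FreeGroup.of (.inr (.inr k.1))

/-- The subgroup generated by the `gI k`. -/
def H : Subgroup Γ := Subgroup.closure (Set.range gI)

/-- The side of the edge of the Cayley tree that ends at `b`. -/
def side (b γ : Γ) : Prop := b.toWord <+: γ.toWord

/-- The coset `K` crosses the edge that ends at `b`, and this edge starts at the root of `K`. -/
def minor (b : Γ) (K : Γ ⧸ H) : Prop :=
  (∃ p p' : Γ, (p : Γ ⧸ H) = K ∧ (p' : Γ ⧸ H) = K ∧ side b p ∧ ¬ side b p') ∧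
    ∀ p : Γ, (p : Γ ⧸ H) = K → b.toWord.dropLast <+: p.toWord

open Classical in
/-- The cut function of the flag `j`. -/
noncomputable def fj (j : I) (γ : Γ) : ℤ :=
  if γ ∈ H ∧ side (FreeGroup.of (.inl j.1) * FreeGroup.of (.inr (.inl (pt j.1 j.2)))) γ then 1
  else 0

end Group

section Gauss
open MeasureTheory ProbabilityTheory

/-- The standard Gaussian measure on `σ → ℝ`. -/
noncomputable def gam (σ : Type) [Fintype σ] : Measure (σ → ℝ) :=
  Measure.pi fun _ => gaussianReal 0 1

instance (σ : Type) [Fintype σ] : IsProbabilityMeasure (gam σ) := by unfold gam; infer_instance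

/-- The Hermitian matrix number `i` of the coordinates `ξ`. -/
noncomputable def Gm {n d : ℕ} (ξ : Fin n × (Fin d × Fin d) → ℝ) (i : Fin n) :
    Matrix (Fin d) (Fin d) ℂ :=
  hermitianOfCoords (WithLp.toLp 2 fun p => ξ (i, p))

/-- The matrix model `bᵢ + αᵢ Gᵢ / √d`. -/
noncomputable def Zm {n d : ℕ} (α : Fin n → ℝ) (b : Fin n → Matrix (Fin d) (Fin d) ℂ)
    (ξ : Fin n × (Fin d × Fin d) → ℝ) (i : Fin n) : Matrix (Fin d) (Fin d) ℂ :=
  b i + ((α i / Real.sqrt d : ℝ) : ℂ) • Gm ξ i

end Gauss

end Crest.Agent.R89
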