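import Crest.Agent.R89.Defs

/-! Row 89: lower bound for the non-microstates entropy. -/

set_option autoImplicit false

namespace Crest.Agent.R89

open Crest.OpAlg Crest.Agent.R95 MeasureTheory

variable {A : Type*} [CStarAlgebra A] [Tr A] {n : ℕ}

omit [Tr A] in
lemma fi_split (σ : A →ₗ[ℂ] ℂ) (Y : Fin n → A) (i : Fin n) (P : NCPoly n) :
    splitPairing σ Y i P = ∑ w ∈ P.coeff.support, P.coeff w *
      spl (fun k => if k = i then 1 else 0) (fun a => σ (ev Y a)) (fun a => σ (ev Y a))
        (FreeMonoid.toList w) := by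
  unfold splitPairing spl
  rw [Finsupp.sum]
  refine Finset.sum_congr rfl fun w _ => congrArg _ (Finset.sum_congr rfl fun k _ => ?_)
  simp only [wordEval_eq, Equiv.apply_symm_apply]
  cases (FreeMonoid.toList w)[k]? with
  | none => simp
  | some j => by_cases h : j = i <;> simp [h]

omit [Tr A] in
lemma fi_poly (Y : Fin n → A) (P : NCPoly n) :
    polyEval Y P = ∑ w ∈ P.coeff.support, P.coeff w • ev Y (FreeMonoid.toList w) := by
  unfold polyEval
  rw [MonoidAlgebra.lift_apply]
  exact Finset.sum_congr rfl fun w _ => by rw [← wordEval_eq]; rfl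

omit [Tr A] in
lemma fi_star_ev {ι : Type*} (Y : ι → A) (hY : ∀ i, IsSelfAdjoint (Y i)) (l : List ι) :
    star (ev Y l) = ev Y l.reverse := by
  induction l with
  | nil => simp
  | cons i l ih => rw [ev_cons, star_mul, ih, (hY i).star_eq, List.reverse_cons, ev_append]; simp

omit [Tr A] in
lemma fi_star (Y : Fin n → A) (hY : ∀ i, IsSelfAdjoint (Y i)) (P : NCPoly n) :
    polyEval Y (polyStar P) = star (polyEval Y P) := by
  rw [fi_poly Y P, star_sum]
  unfold polyStar polyEval
  rw [Finsupp.sum, map_sum]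
  refine Finset.sum_congr rfl fun w _ => ?_
  rw [MonoidAlgebra.lift_single, star_smul, fi_star_ev Y hY]
  congr 1
  exact (wordEval_eq Y _).trans (by rw [Equiv.apply_symm_apply])

lemma fisher_le (Y : Fin n → A) (hY : ∀ i, IsSelfAdjoint (Y i)) (b : Fin n → ℝ)
    (hb0 : ∀ i, 0 ≤ b i) (hb : ∀ i, Bd Y i (b i)) :
    freeFisher (trL A) Y ≤ ENNReal.ofReal (∑ i, b i) := by
  refine iSup₂_le fun P hP => ENNReal.ofReal_le_ofReal ?_
  rw [Complex.re_sum]
  refine Finset.sum_le_sum fun i _ => ?_
  obtain ⟨Λ, h1, h2⟩ := hb i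
  have e1 : splitPairing (trL A) Y i (P i) = Λ (polyEval Y (P i)) := by
    rw [fi_split, fi_poly, map_sum]
    refine Finset.sum_congr rfl fun w _ => ?_
    rw [map_smul, smul_eq_mul, ← h2]
    rfl
  have e2 : (trL A (polyEval Y (P i) * polyEval Y (P i))).re = n2 (polyEval Y (P i)) ^ 2 := by
    rw [n2_sq, ← fi_star Y hY, hP i]
    rfl
  rw [Complex.sub_re, e1, e2]
  have h3 := h1 (polyEval Y (P i))
  have h4 := Complex.re_le_norm (Λ (polyEval Y (P i)))
  have h5 : 2 * ‖Λ (polyEval Y (P i))‖ ≤ b i + n2 (polyEval Y (P i)) ^ 2 := by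
    refine abs_le_of_sq_le_sq' ?_ (add_nonneg (hb0 i) (sq_nonneg _)) |>.2
    nlinarith [sq_nonneg (b i - n2 (polyEval Y (P i)) ^ 2)]
  simp only [Complex.mul_re, Complex.re_ofNat, Complex.im_ofNat, zero_mul, sub_zero]
  linarith

lemma fi_ge (Y : Fin n → A) (lam : ℝ) :
    ENNReal.ofReal (∑ i, (2 * lam - lam ^ 2 * (τ (Y i * Y i)).re)) ≤ freeFisher (trL A) Y := by
  refine le_iSup₂_of_le (fun i => MonoidAlgebra.single (FreeMonoid.of i) (lam : ℂ))
    (fun i => ?_) (le_of_eq ?_)
  · unfold polyStar
    rw [MonoidAlgebra.coeff_single, Finsupp.sum_single_index (by simp)]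
    simp only [Complex.conj_ofReal]
    rfl
  · congr 1
    rw [Complex.re_sum]
    refine Finset.sum_congr rfl fun i _ => ?_
    have e1 : splitPairing (trL A) Y i (MonoidAlgebra.single (FreeMonoid.of i) (lam : ℂ)) =
        lam := by
      unfold splitPairing
      rw [MonoidAlgebra.coeff_single, Finsupp.sum_single_index (by simp)]
      simp [wordEval_eq, τ_one]
    have e2 : polyEval Y (MonoidAlgebra.single (FreeMonoid.of i) (lam : ℂ)) = (lam : ℂ) • Y i := by
      simp [polyEval]
    rw [e1, e2]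
    simp [sq, mul_assoc]

lemma fi_measurable (X S : Fin n → A) :
    Measurable fun s : ℝ => freeFisher (trL A) (heatTuple X S s) := by
  have c1 : ∀ l, Continuous fun s : ℝ => ev (heatTuple X S s) l := fun l =>
    continuous_list_prod _ fun i _ => by unfold heatTuple; fun_prop
  have c2 : ∀ P : NCPoly n, Continuous fun s : ℝ => polyEval (heatTuple X S s) P := fun P => by
    simp only [fi_poly]
    exact continuous_finsetSum _ fun w _ => (c1 _).const_smul _
  have c0 : Continuous (trL A) := (τ : A →L[ℂ] ℂ).continuous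
  have c3 : ∀ i (P : NCPoly n),
      Continuous fun s : ℝ => splitPairing (trL A) (heatTuple X S s) i P := fun i P => by
    simp only [fi_split, spl]
    exact continuous_finsetSum _ fun w _ => continuous_const.mul
      (continuous_finsetSum _ fun k _ => continuous_const.mul
        ((c0.comp (c1 _)).mul (c0.comp (c1 _))))
  refine LowerSemicontinuous.measurable (lowerSemicontinuous_biSup fun P _ =>
    Continuous.lowerSemicontinuous (ENNReal.continuous_ofReal.comp
      (Complex.continuous_re.comp (continuous_finsetSum _ fun i _ => ?_))))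
  exact (continuous_const.mul (c3 i _)).sub (c0.comp ((c2 _).mul (c2 _)))

open Filter Topology in
lemma fi_int_log {a : ℝ} (ha : 0 < a) :
    IntegrableOn (fun s : ℝ => 1 / (1 + s) - 1 / (a + s)) (Set.Ioi 0) ∧
      ∫ s in Set.Ioi (0 : ℝ), (1 / (1 + s) - 1 / (a + s)) = Real.log a := by
  have hd : ∀ s ∈ Set.Ici (0 : ℝ), HasDerivAt (fun s => Real.log (1 + s) - Real.log (a + s))
      (1 / (1 + s) - 1 / (a + s)) s := fun s hs => by
    have hs' : 0 ≤ s := hs
    exact (((hasDerivAt_id s).const_add 1).log (by simp only [id]; linarith)).sub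
      (((hasDerivAt_id s).const_add a).log (by simp only [id]; linarith))
  have ht : Tendsto (fun s => Real.log (1 + s) - Real.log (a + s)) atTop (𝓝 0) := by
    have := (Real.tendsto_log_comp_add_sub_log 1).sub (Real.tendsto_log_comp_add_sub_log a)
    simpa [add_comm] using this
  have hi : IntegrableOn (fun s : ℝ => 1 / (1 + s) - 1 / (a + s)) (Set.Ioi 0) := by
    rcases le_total 1 a with h | h
    · refine integrableOn_Ioi_deriv_of_nonneg' hd (fun s hs => sub_nonneg.2 ?_) ht
      have hs' : 0 < s := hs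
      exact one_div_le_one_div_of_le (by linarith) (by linarith)
    · refine integrableOn_Ioi_deriv_of_nonpos' hd (fun s hs => sub_nonpos.2 ?_) ht
      have hs' : 0 < s := hs
      exact one_div_le_one_div_of_le (by linarith) (by linarith)
  refine ⟨hi, ?_⟩
  rw [integral_Ioi_of_hasDerivAt_of_tendsto' hd hi ht]
  simp

open Filter Topology in
lemma fi_int_sq : IntegrableOn (fun s : ℝ => (1 / (1 + s)) ^ 2) (Set.Ioi 0) := by
  have hd : ∀ s ∈ Set.Ici (0 : ℝ), HasDerivAt (fun s : ℝ => -(1 + s)⁻¹) ((1 / (1 + s)) ^ 2) s :=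
    fun s hs => by
      have hs' : 0 ≤ s := hs
      have := (((hasDerivAt_id s).const_add 1).inv (by simp only [id]; linarith)).neg
      refine HasDerivAt.congr_deriv this ?_
      simp only [id]
      field_simp
  have ht : Tendsto (fun s : ℝ => -(1 + s)⁻¹) atTop (𝓝 (-0)) :=
    (tendsto_atTop_add_const_left _ 1 tendsto_id).inv_tendsto_atTop.neg
  exact integrableOn_Ioi_deriv_of_nonneg' hd (fun s _ => sq_nonneg _) ht

lemma fi_int_ind {t C : ℝ} (ht : 0 < t) (ht1 : t ≤ 1) (hC : 0 ≤ C) :
    IntegrableOn ((Set.Icc t 1).indicator fun s : ℝ => 1 / (4 * (t + s)) - C) (Set.Ioi 0) ∧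
      1 / 4 * Real.log (1 / (2 * t)) - C ≤
        ∫ s in Set.Ioi (0 : ℝ), (Set.Icc t 1).indicator (fun s : ℝ => 1 / (4 * (t + s)) - C) s := by
  have hc : ContinuousOn (fun s : ℝ => 1 / (4 * (t + s)) - C) (Set.Icc t 1) := by
    refine ContinuousOn.sub (ContinuousOn.div (by fun_prop) (by fun_prop) fun s hs => ?_)
      (by fun_prop)
    have := hs.1
    have : 0 < t + s := by linarith
    positivity
  refine ⟨((integrable_indicator_iff measurableSet_Icc).2 hc.integrableOn_Icc).integrableOn, ?_⟩
  rw [setIntegral_indicator measurableSet_Icc,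
    Set.inter_eq_right.2 (show Set.Icc t 1 ⊆ Set.Ioi 0 from fun s hs => lt_of_lt_of_le ht hs.1), integral_Icc_eq_integral_Ioc,
    ← intervalIntegral.integral_of_le ht1,
    intervalIntegral.integral_eq_sub_of_hasDerivAt (f := fun s => 1 / 4 * Real.log (t + s) - C * s)
      ?_ (by rw [← Set.uIcc_of_le ht1] at hc; exact hc.intervalIntegrable)]
  · have h1 : 0 ≤ Real.log (t + 1) := Real.log_nonneg (by linarith)
    have h2 := mul_nonneg hC ht.le
    rw [one_div (2 * t), Real.log_inv, two_mul]
    linarith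
  · intro s hs
    rw [Set.uIcc_of_le ht1] at hs
    have h1 : 0 < t + s := by linarith [hs.1]
    have := ((((hasDerivAt_id s).const_add t).log (by simp only [id]; linarith)).const_mul
      (1 / 4)).sub ((hasDerivAt_id s).const_mul C)
    refine HasDerivAt.congr_deriv this ?_
    simp only [id]
    field_simp

theorem fisher_main (X S : Fin n → A) (hX : ∀ i, IsSelfAdjoint (X i))
    (hS : ∀ i, IsSelfAdjoint (S i)) (hXS : ∀ i, τ (S i * X i) = 0) (hSS : ∀ i, τ (S i * S i) = 1)
    (a : Fin n → ℝ) (ha : ∀ i, 0 < a i) (vis : Finset (Fin n)) (t C : ℝ) (ht : 0 < t)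
    (ht1 : t ≤ 1) (hC : 0 ≤ C) (hav : ∀ i ∈ vis, a i = t)
    (h1 : ∀ s, 0 < s → ∀ i, Bd (heatTuple X S s) i (1 / (a i + s)))
    (h2 : ∀ s, t ≤ s → s ≤ 1 → ∀ i ∈ vis, Bd (heatTuple X S s) i (C + 3 / (4 * (t + s)))) :
    (∀ s : ℝ, 0 < s → freeFisher (trL A) (heatTuple X S s) < ⊤) ∧
    IntegrableOn
      (fun s : ℝ => (n : ℝ) / (1 + s) - (freeFisher (trL A) (heatTuple X S s)).toReal)
      (Set.Ioi 0) ∧
    (n : ℝ) / 2 * Real.log (2 * Real.pi * Real.exp 1) +
      1 / 2 * (∑ i, Real.log (a i) + vis.card * (1 / 4 * Real.log (1 / (2 * t)) - C)) ≤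
      chiStar (trL A) X S := by
  have hsa : ∀ s i, IsSelfAdjoint (heatTuple X S s i) := fun s i => by
    unfold heatTuple
    simp [IsSelfAdjoint, (hX i).star_eq, (hS i).star_eq]
  have hfin : ∀ s : ℝ, 0 < s → freeFisher (trL A) (heatTuple X S s) < ⊤ := fun s hs =>
    (fisher_le _ (hsa s) _ (fun i => by have := ha i; positivity) (h1 s hs)).trans_lt
      ENNReal.ofReal_lt_top
  obtain ⟨k1, k2⟩ := fi_int_ind ht ht1 hC
  set k := (Set.Icc t 1).indicator fun s : ℝ => 1 / (4 * (t + s)) - C with hk
  set f : ℝ → ℝ := fun s => (n : ℝ) / (1 + s) - (freeFisher (trL A) (heatTuple X S s)).toReal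
    with hf
  set g : ℝ → ℝ := fun s => ∑ i, (1 / (1 + s) - 1 / (a i + s)) + vis.card * k s with hg
  have gi1 : IntegrableOn (fun s : ℝ => ∑ i, (1 / (1 + s) - 1 / (a i + s))) (Set.Ioi 0) :=
    integrable_finsetSum _ fun i _ => (fi_int_log (ha i)).1
  have gi : IntegrableOn g (Set.Ioi 0) := gi1.add (k1.const_mul _)
  have hlow : ∀ s ∈ Set.Ioi (0 : ℝ), g s ≤ f s := by
    intro s hs
    have hs' : 0 < s := hs
    have b0 : ∀ i, 0 ≤ 1 / (a i + s) - if i ∈ vis then k s else 0 := by
      intro i
      have := ha i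
      split_ifs with hi
      · by_cases h : s ∈ Set.Icc t 1
        · rw [hk, Set.indicator_of_mem h, hav i hi]
          have : 1 / (4 * (t + s)) ≤ 1 / (t + s) :=
            one_div_le_one_div_of_le (by linarith) (by linarith)
          linarith
        · rw [hk, Set.indicator_of_notMem h, sub_zero]; positivity
      · rw [sub_zero]; positivity
    have b1 : ∀ i, Bd (heatTuple X S s) i (1 / (a i + s) - if i ∈ vis then k s else 0) := by
      intro i
      split_ifs with hi
      · by_cases h : s ∈ Set.Icc t 1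
        · rw [hk, Set.indicator_of_mem h, hav i hi]
          convert h2 s h.1 h.2 i hi using 1
          have : t + s ≠ 0 := by linarith
          field_simp
          ring
        · rw [hk, Set.indicator_of_notMem h, sub_zero]; exact h1 s hs' i
      · rw [sub_zero]; exact h1 s hs' i
    have b2 := ENNReal.toReal_le_of_le_ofReal (Finset.sum_nonneg fun i _ => b0 i)
      (fisher_le _ (hsa s) _ b0 b1)
    simp only [Finset.sum_sub_distrib, Finset.sum_ite_mem, Finset.univ_inter, Finset.sum_const,
      nsmul_eq_mul] at b2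
    simp only [hf, hg, Finset.sum_sub_distrib, Finset.sum_const, Finset.card_univ,
      Fintype.card_fin, nsmul_eq_mul, mul_one_div]
    linarith
  have hup : ∀ s ∈ Set.Ioi (0 : ℝ), f s ≤ (∑ i, (τ (X i * X i)).re) * (1 / (1 + s)) ^ 2 := by
    intro s hs
    have hs' : 0 < s := hs
    have b1 := (ENNReal.ofReal_le_iff_le_toReal (hfin s hs').ne).1
      (fi_ge (heatTuple X S s) (1 / (1 + s)))
    have e : ∀ i, (τ (heatTuple X S s i * heatTuple X S s i)).re = (τ (X i * X i)).re + s := by
      intro i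
      have e1 : (Real.sqrt s : ℂ) * Real.sqrt s = s := by
        rw [← Complex.ofReal_mul, Real.mul_self_sqrt hs'.le]
      unfold heatTuple
      simp only [add_mul, mul_add, smul_mul_assoc, mul_smul_comm, map_add, map_smul, smul_eq_mul,
        τ_comm (X i) (S i), hXS, hSS, mul_zero, add_zero, zero_add, mul_one, e1, Complex.add_re,
        Complex.ofReal_re]
    simp only [e, mul_add, Finset.sum_sub_distrib, Finset.sum_add_distrib, Finset.sum_const,
      Finset.card_univ, Fintype.card_fin, nsmul_eq_mul, ← Finset.mul_sum] at b1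
    have e2 : (1 / (1 + s)) ^ 2 * s = 1 / (1 + s) - (1 / (1 + s)) ^ 2 := by
      have : 1 + s ≠ 0 := by linarith
      field_simp
      ring
    rw [e2] at b1
    have b2 : 0 ≤ (n : ℝ) * (1 / (1 + s)) ^ 2 := by positivity
    simp only [hf]
    rw [← mul_one_div (n : ℝ)]
    linarith
  have fm : Measurable f :=
    (measurable_const.div (measurable_const.add measurable_id)).sub
      (fi_measurable X S).ennreal_toReal
  have fi : IntegrableOn f (Set.Ioi 0) :=
    integrable_of_le_of_le fm.aestronglyMeasurable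
      ((ae_restrict_mem measurableSet_Ioi).mono hlow) ((ae_restrict_mem measurableSet_Ioi).mono hup)
      gi (fi_int_sq.const_mul _)
  refine ⟨hfin, fi, ?_⟩
  have h3 := setIntegral_mono_on gi fi measurableSet_Ioi hlow
  rw [hg, integral_add gi1 (k1.const_mul _), integral_const_mul,
    integral_finsetSum _ fun i _ => (fi_int_log (ha i)).1] at h3
  simp only [fun i => (fi_int_log (ha i)).2] at h3
  have h4 := mul_le_mul_of_nonneg_left k2 (Nat.cast_nonneg (α := ℝ) vis.card)
  unfold chiStar
  linarith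

end Crest.Agent.R89
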