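import Crest.Agent.R89.Defs

/-! Row 89: the Schwinger–Dyson equations give freeness and the Catalan moments. -/

set_option autoImplicit false
set_option linter.unusedSectionVars false

namespace Crest.Agent.R89

open Crest.OpAlg Finset

section Cat

/-- The moments of the semicircle law. -/
noncomputable def fsd_g (m : ℕ) : ℂ := if Even m then (catalan (m / 2) : ℂ) else 0

lemma fsd_g_even (k : ℕ) : fsd_g (2 * k) = (catalan k : ℂ) := by
  simp [fsd_g]

lemma fsd_g_odd {m : ℕ} (h : ¬ Even m) : fsd_g m = 0 := by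
  simp [fsd_g, h]

lemma fsd_g_rec (m : ℕ) : fsd_g (m + 2) = ∑ p ∈ antidiagonal m, fsd_g p.1 * fsd_g p.2 := by
  rcases Nat.even_or_odd' m with ⟨k, rfl | rfl⟩
  · rw [show 2 * k + 2 = 2 * (k + 1) by ring, fsd_g_even, catalan_succ']
    push_cast
    refine Finset.sum_of_injOn (fun p : ℕ × ℕ => (2 * p.1, 2 * p.2)) ?_ ?_ ?_ ?_
    · rintro ⟨a, b⟩ _ ⟨a', b'⟩ _ h
      simp only [Prod.mk.injEq] at h ⊢
      omega
    · rintro ⟨a, b⟩ h
      simp only [Finset.mem_coe, HasAntidiagonal.mem_antidiagonal] at h ⊢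
      omega
    · rintro ⟨a, b⟩ h hn
      simp only [HasAntidiagonal.mem_antidiagonal] at h
      by_cases ha : Even a
      · exfalso
        obtain ⟨a', rfl⟩ := ha
        refine hn ⟨(a', k - a'), ?_, ?_⟩
        · simp only [Finset.mem_coe, HasAntidiagonal.mem_antidiagonal]; omega
        · simp only [Prod.mk.injEq]; omega
      · simp [fsd_g_odd ha]
    · rintro ⟨a, b⟩ _
      simp [fsd_g_even]
  · rw [fsd_g_odd (by rw [Nat.even_iff]; omega)]
    symm
    refine Finset.sum_eq_zero ?_
    rintro ⟨a, b⟩ h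
    simp only [HasAntidiagonal.mem_antidiagonal] at h
    by_cases ha : Even a
    · have hb : ¬ Even b := by rw [Nat.even_iff] at ha ⊢; omega
      simp [fsd_g_odd hb]
    · simp [fsd_g_odd ha]

end Cat

section Der
variable {A : Type*} [Ring A] [Algebra ℂ A] {ι : Type*}

lemma fsd_ev_replicate (Y : ι → A) (j : ι) (m : ℕ) : ev Y (List.replicate m j) = Y j ^ m := by
  simp [ev]

lemma fsd_spl_snoc (c : ι → ℂ) (ψ : List ι → ℂ) (j : ι) (u : List ι) : ∀ φ : List ι → ℂ,
    spl c φ ψ (u ++ [j]) = spl c φ (fun b => ψ (b ++ [j])) u + c j * (φ u * ψ []) := by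
  induction u with
  | nil => intro φ; simp [spl_cons]
  | cons i u ih => intro φ; rw [List.cons_append, spl_cons, spl_cons, ih]; ring

/-- `x` is a polynomial in `Y`, and `e y = ∑ τ(y d₁) τ(d₂)` for its derivative `∑ d₁ ⊗ d₂`. -/
inductive fsd_E (τ : A →ₗ[ℂ] ℂ) (Y : ι → A) (c : ι → ℂ) : A → (A →ₗ[ℂ] ℂ) → Prop
  | one : fsd_E τ Y c 1 0
  | gen (j : ι) (x : A) (e : A →ₗ[ℂ] ℂ) : fsd_E τ Y c x e →
      fsd_E τ Y c (Y j * x) ((c j * τ x) • τ + e ∘ₗ LinearMap.mulRight ℂ (Y j))
  | add (x x' : A) (e e' : A →ₗ[ℂ] ℂ) : fsd_E τ Y c x e → fsd_E τ Y c x' e' →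
      fsd_E τ Y c (x + x') (e + e')
  | smul (a : ℂ) (x : A) (e : A →ₗ[ℂ] ℂ) : fsd_E τ Y c x e → fsd_E τ Y c (a • x) (a • e)

variable {τ : A →ₗ[ℂ] ℂ} {Y : ι → A} {c : ι → ℂ}

lemma fsd_E.congr {x x' : A} {e e' : A →ₗ[ℂ] ℂ} (h : fsd_E τ Y c x e) (hx : x = x')
    (he : ∀ y, e y = e' y) : fsd_E τ Y c x' e' := by
  obtain rfl : e = e' := LinearMap.ext he
  exact hx ▸ h

lemma fsd_E.sd {N : A} (hsd : SD τ Y N c) {x : A} {e : A →ₗ[ℂ] ℂ} (h : fsd_E τ Y c x e) :
    ∀ u : List ι, τ (N * (ev Y u * x)) =
      spl c (fun a => τ (ev Y a)) (fun b => τ (ev Y b * x)) u + e (ev Y u) := by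
  induction h with
  | one => intro u; simpa using hsd u
  | gen j x e _ ih =>
    intro u
    have h1 := ih (u ++ [j])
    rw [fsd_spl_snoc] at h1
    simp only [ev_append, ev_cons, ev_nil, mul_one, one_mul, mul_assoc] at h1
    rw [h1]
    simp only [LinearMap.add_apply, LinearMap.smul_apply, LinearMap.comp_apply,
      LinearMap.mulRight_apply, smul_eq_mul]
    ring
  | add x x' e e' _ _ ih ih' =>
    intro u
    rw [mul_add, mul_add, map_add, ih u, ih' u]
    simp only [spl, mul_add, map_add, Finset.sum_add_distrib, LinearMap.add_apply]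
    ring
  | smul a x e _ ih =>
    intro u
    rw [mul_smul_comm, mul_smul_comm, map_smul, ih u]
    simp only [spl, mul_smul_comm, map_smul, smul_eq_mul, LinearMap.smul_apply, mul_add,
      Finset.mul_sum]
    congr 1
    refine Finset.sum_congr rfl fun k _ => by ring

lemma fsd_E.sd_one {N : A} (hsd : SD τ Y N c) {x : A} {e : A →ₗ[ℂ] ℂ} (h : fsd_E τ Y c x e) :
    τ (N * x) = e 1 := by
  simpa using h.sd hsd []

/-- Left multiplication by a polynomial in letters of weight zero. -/
lemma fsd_E.mul_adjoin {s : Set A} (hs : ∀ b ∈ s, ∃ j, Y j = b ∧ c j = 0) {b : A}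
    (hb : b ∈ Algebra.adjoin ℂ s) :
    ∀ {x : A} {e : A →ₗ[ℂ] ℂ}, fsd_E τ Y c x e →
      fsd_E τ Y c (b * x) (e ∘ₗ LinearMap.mulRight ℂ b) := by
  induction hb using Algebra.adjoin_induction with
  | mem b hb =>
    intro x e h
    obtain ⟨j, rfl, hj⟩ := hs b hb
    exact (fsd_E.gen j x e h).congr rfl fun y => by simp [hj]
  | algebraMap a =>
    intro x e h
    exact (fsd_E.smul a x e h).congr (Algebra.smul_def a x) fun y => by
      simp [← Algebra.commutes, ← Algebra.smul_def]
  | add b b' _ _ ih ih' =>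
    intro x e h
    exact (fsd_E.add _ _ _ _ (ih h) (ih' h)).congr (add_mul _ _ _).symm fun y => by
      simp [mul_add]
  | mul b b' _ _ ih ih' =>
    intro x e h
    exact (ih (ih' h)).congr (mul_assoc _ _ _).symm fun y => by simp [mul_assoc]

/-- Shifted Chebyshev polynomials. -/
def fsd_V (s : A) : ℕ → A
  | 0 => 0
  | 1 => 1
  | k + 2 => s * fsd_V s (k + 1) - fsd_V s k

@[simp] lemma fsd_V_zero (s : A) : fsd_V s 0 = 0 := rfl
@[simp] lemma fsd_V_one (s : A) : fsd_V s 1 = 1 := rfl
lemma fsd_V_two (s : A) (k : ℕ) : fsd_V s (k + 2) = s * fsd_V s (k + 1) - fsd_V s k := rfl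

lemma fsd_E.mul_V (j : ι) {x : A} {e : A →ₗ[ℂ] ℂ} (h : fsd_E τ Y c x e) (k : ℕ) :
    ∃ e', fsd_E τ Y c (fsd_V (Y j) k * x) e' ∧ ∀ y, e' y =
      c j * ∑ p ∈ antidiagonal k, τ (y * fsd_V (Y j) p.1) * τ (fsd_V (Y j) p.2 * x) +
        e (y * fsd_V (Y j) k) := by
  induction k using Nat.twoStepInduction with
  | zero => exact ⟨_, (fsd_E.smul 0 x e h).congr (by simp) fun y => rfl, fun y => by simp⟩
  | one =>
    refine ⟨e, h.congr (by simp) fun y => rfl, fun y => ?_⟩
    simp [Finset.Nat.sum_antidiagonal_succ]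
  | more k ih0 ih1 =>
    obtain ⟨e0, h0, he0⟩ := ih0
    obtain ⟨e1, h1, he1⟩ := ih1
    refine ⟨_, (fsd_E.add _ _ _ _ (fsd_E.gen j _ _ h1) (fsd_E.smul (-1) _ _ h0)).congr ?_
      fun y => rfl, fun y => ?_⟩
    · rw [fsd_V_two, sub_mul, mul_assoc, neg_one_smul, sub_eq_add_neg]
    · simp only [LinearMap.add_apply, LinearMap.smul_apply, LinearMap.comp_apply,
        LinearMap.mulRight_apply, smul_eq_mul, he0, he1]
      rw [Finset.Nat.sum_antidiagonal_succ (n := k + 1), Finset.Nat.sum_antidiagonal_succ (n := k),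
        Finset.Nat.sum_antidiagonal_succ (n := k)]
      simp only [fsd_V_zero, fsd_V_one, mul_zero, map_zero, zero_mul, zero_add, mul_one,
        fsd_V_two, mul_sub, map_sub, sub_mul, Finset.sum_sub_distrib, mul_assoc]
      ring

/-- The span of the Chebyshev polynomials contains the powers. -/
lemma fsd_mul_mem (s : A) {x : A} (hx : x ∈ Submodule.span ℂ (Set.range (fsd_V s))) :
    s * x ∈ Submodule.span ℂ (Set.range (fsd_V s)) := by
  induction hx using Submodule.span_induction with
  | mem x hx =>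
    obtain ⟨k, rfl⟩ := hx
    rcases k with _ | k
    · simp
    · have : s * fsd_V s (k + 1) = fsd_V s (k + 2) + fsd_V s k := by rw [fsd_V_two]; abel
      rw [this]
      exact add_mem (Submodule.subset_span ⟨_, rfl⟩) (Submodule.subset_span ⟨_, rfl⟩)
  | zero => simp
  | add x y _ _ hx hy => rw [mul_add]; exact add_mem hx hy
  | smul a x _ hx => rw [mul_smul_comm]; exact Submodule.smul_mem _ _ hx

lemma fsd_polyEval_mem {n : ℕ} (Z : Fin n → A) (W : Submodule ℂ A) (h1 : (1 : A) ∈ W)
    (hm : ∀ i, ∀ x ∈ W, Z i * x ∈ W) (P : NCPoly n) : polyEval Z P ∈ W := by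
  induction P using MonoidAlgebra.induction_on with
  | of w =>
    have : polyEval Z (MonoidAlgebra.of ℂ (FreeMonoid (Fin n)) w) = ev Z (FreeMonoid.toList w) := by
      rw [← wordEval_eq]; simp [polyEval, wordEval]
    rw [this]
    induction FreeMonoid.toList w with
    | nil => simpa using h1
    | cons i l ih => rw [ev_cons]; exact hm i _ ih
  | add P Q hP hQ => simpa [polyEval] using add_mem hP hQ
  | smul a P hP => simpa [polyEval] using W.smul_mem a hP

end Der

variable {A : Type*} [Ring A] [Algebra ℂ A] (τ : A →ₗ[ℂ] ℂ) {n : ℕ} (X S : Fin n → A)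

theorem catalan_of_sd (h1 : τ 1 = 1)
    (hsd : ∀ i, SD τ (Sum.elim X S) (S i) fun z => if z = Sum.inr i then 1 else 0)
    (i : Fin n) (k : ℕ) : τ (S i ^ (2 * k)) = (catalan k : ℂ) ∧ τ (S i ^ (2 * k + 1)) = 0 := by
  have key : ∀ m, τ (S i ^ m) = fsd_g m := by
    intro m
    induction m using Nat.strong_induction_on with
    | _ m ih =>
      match m, ih with
      | 0, _ => simp [h1, fsd_g]
      | 1, _ => simpa [fsd_g] using hsd i []
      | m + 2, ih =>
        have h := hsd i (List.replicate (m + 1) (Sum.inr i))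
        rw [fsd_ev_replicate, Sum.elim_inr, ← pow_succ'] at h
        rw [h, fsd_g_rec, Finset.Nat.sum_antidiagonal_eq_sum_range_succ
          (fun a b => fsd_g a * fsd_g b), spl, List.length_replicate]
        refine Finset.sum_congr rfl fun a ha => ?_
        have ha' : a < m + 1 := Finset.mem_range.1 ha
        rw [List.getElem?_replicate, if_pos ha', List.take_replicate, List.drop_replicate,
          fsd_ev_replicate, fsd_ev_replicate, Sum.elim_inr, ih _ (by omega), ih _ (by omega),
          min_eq_left ha'.le, show m + 1 - (a + 1) = m - a by omega]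
        simp
  exact ⟨by rw [key, fsd_g_even], by rw [key, fsd_g_odd (by rw [Nat.even_iff]; omega)]⟩

/-- Value of an atom. -/
def fsd_val : A ⊕ (Fin n × ℕ) → A
  | .inl x => x
  | .inr p => fsd_V (S p.1) p.2

/-- Type of an atom. -/
def fsd_ty : A ⊕ (Fin n × ℕ) → Option (Fin n)
  | .inl _ => none
  | .inr p => some p.1

/-- Degree of an atom. -/
def fsd_deg : A ⊕ (Fin n × ℕ) → ℕ
  | .inl _ => 0
  | .inr p => p.2

/-- Admissible atoms. -/
def fsd_ok : A ⊕ (Fin n × ℕ) → Prop
  | .inl x => x ∈ Algebra.adjoin ℂ (Set.range X) ∧ τ x = 0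
  | .inr p => 2 ≤ p.2

lemma fsd_rest (i : Fin n) {z : A} (hz : z ∈ Algebra.adjoin ℂ (Set.range X))
    (L : List (A ⊕ (Fin n × ℕ))) (hL : ∀ a ∈ L, fsd_ok τ X a) :
    ∃ e, fsd_E τ (Sum.elim X S) (fun z => if z = Sum.inr i then 1 else 0)
      ((L.map (fsd_val S)).prod * z) e ∧ ∀ y,
      (∀ p m s, L = p ++ Sum.inr (i, m) :: s → ∀ a < m,
        τ (y * ((p.map (fsd_val S)).prod * fsd_V (S i) a)) = 0) → e y = 0 := by
  have hs : ∀ b ∈ Set.range X, ∃ j : Fin n ⊕ Fin n, Sum.elim X S j = b ∧
      (if j = Sum.inr i then (1 : ℂ) else 0) = 0 := by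
    rintro _ ⟨j, rfl⟩
    exact ⟨.inl j, rfl, by simp⟩
  induction L with
  | nil =>
    exact ⟨_, (fsd_E.mul_adjoin hs hz fsd_E.one).congr (by simp) fun y => rfl, fun y _ => by simp⟩
  | cons a L ih =>
    obtain ⟨e, he, hv⟩ := ih fun b hb => hL b (List.mem_cons_of_mem _ hb)
    have ha := hL a List.mem_cons_self
    have hv' : ∀ y, (∀ p m s, a :: L = p ++ Sum.inr (i, m) :: s → ∀ b < m,
        τ (y * ((p.map (fsd_val S)).prod * fsd_V (S i) b)) = 0) → e (y * fsd_val S a) = 0 := by
      intro y hy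
      refine hv _ fun p m s hp b hb => ?_
      have := hy (a :: p) m s (by rw [hp]; rfl) b hb
      simpa [mul_assoc] using this
    rcases a with x | ⟨j, m⟩
    · refine ⟨_, (fsd_E.mul_adjoin hs ha.1 he).congr (by simp [fsd_val, mul_assoc]) fun y => rfl,
        fun y hy => ?_⟩
      exact hv' y hy
    · obtain ⟨e', he', hv''⟩ := he.mul_V (Sum.inr j) m
      refine ⟨e', he'.congr (by simp [fsd_val, mul_assoc]) fun y => rfl, fun y hy => ?_⟩
      rw [hv'']
      have h0 : e (y * fsd_V (Sum.elim X S (Sum.inr j)) m) = 0 := hv' y hy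
      rw [h0, add_zero]
      by_cases hj : j = i
      · subst hj
        rw [Finset.sum_eq_zero, mul_zero]
        rintro ⟨a, b⟩ hab
        simp only [HasAntidiagonal.mem_antidiagonal] at hab
        rcases b with _ | b
        · simp
        · have := hy [] m L rfl a (by omega)
          simp only [List.map_nil, List.prod_nil, one_mul] at this
          simp [this]
      · simp [hj]

lemma fsd_atoms (h1 : τ 1 = 1) (hc : ∀ x y, τ (x * y) = τ (y * x))
    (hsd : ∀ i, SD τ (Sum.elim X S) (S i) fun z => if z = Sum.inr i then 1 else 0) (N : ℕ) :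
    ∀ L : List (A ⊕ (Fin n × ℕ)), (L.map fsd_deg).sum = N → L ≠ [] →
      (L.map fsd_ty).IsChain (· ≠ ·) → (∀ a ∈ L, fsd_ok τ X a) →
      τ (L.map (fsd_val S)).prod = 0 := by
  induction N using Nat.strong_induction_on with
  | _ N ih =>
  have key : ∀ (i : Fin n) (k : ℕ) (L : List (A ⊕ (Fin n × ℕ))) (z : A),
      z ∈ Algebra.adjoin ℂ (Set.range X) → k + 2 + (L.map fsd_deg).sum = N →
      (some i :: L.map fsd_ty).IsChain (· ≠ ·) → (∀ a ∈ L, fsd_ok τ X a) →
      τ (fsd_V (S i) (k + 2) * ((L.map (fsd_val S)).prod * z)) = 0 := by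
    intro i k L z hz hN hch hL
    obtain ⟨e, he, hv⟩ := fsd_rest τ X S i hz L hL
    obtain ⟨e', he', hv'⟩ := he.mul_V (Sum.inr i) (k + 1)
    have h2 := he'.sd_one (hsd i)
    rw [hv'] at h2
    have hV : ∀ a, 2 ≤ a → a < N → τ (fsd_V (S i) a) = 0 := by
      intro a ha haN
      have := ih a haN [Sum.inr (i, a)] (by simp [fsd_deg]) (by simp) (by simp)
        (by simpa [fsd_ok] using ha)
      simpa [fsd_val] using this
    have h3 : e (1 * fsd_V (S i) (k + 1)) = 0 := by
      refine hv _ fun p m s hp a ha => ?_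
      subst hp
      have hp0 : p ≠ [] := by
        rintro rfl
        simp [fsd_ty] at hch
      have hok : ∀ b ∈ p, fsd_ok τ X b := fun b hb => hL b (by simp [hb])
      have hdeg : k + 2 + ((p.map fsd_deg).sum + (m + (s.map fsd_deg).sum)) = N := by
        simpa [fsd_deg] using hN
      have hch2 : (some i :: (p.map fsd_ty ++ [some i])).IsChain (· ≠ ·) := by
        refine List.IsChain.prefix hch ?_
        exact ⟨s.map fsd_ty, by simp [fsd_ty]⟩
      have hch3 : (p.map fsd_ty ++ [some i]).IsChain (· ≠ ·) := hch2.tail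
      have hch4 : (some i :: p.map fsd_ty).IsChain (· ≠ ·) :=
        List.IsChain.prefix hch2 ⟨[some i], by simp⟩
      have hch5 : (p.map fsd_ty).IsChain (· ≠ ·) := hch4.tail
      rcases a with _ | _ | a
      · simp
      · rcases k with _ | k
        · simpa using ih _ (by omega) p rfl hp0 hch5 hok
        · have := ih _ (by simp [fsd_deg]; omega) (Sum.inr (i, k + 2) :: p) rfl (by simp)
            (by simpa [fsd_ty] using hch4) (by simpa [fsd_ok] using hok)
          simpa [fsd_val] using this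
      · rcases k with _ | k
        · have := ih _ (by simp [fsd_deg]; omega) (p ++ [Sum.inr (i, a + 2)]) rfl (by simp)
            (by simpa [fsd_ty] using hch3)
            (by
              intro b hb
              rcases List.mem_append.1 hb with hb | hb
              · exact hok b hb
              · rw [List.mem_singleton.1 hb]; simp [fsd_ok])
          simpa [fsd_val] using this
        · have := ih _ (by simp [fsd_deg]; omega)
            (Sum.inr (i, k + 2) :: (p ++ [Sum.inr (i, a + 2)])) rfl (by simp)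
            (by simpa [fsd_ty] using hch2)
            (by
              intro b hb
              rcases List.mem_cons.1 hb with rfl | hb
              · simp [fsd_ok]
              rcases List.mem_append.1 hb with hb | hb
              · exact hok b hb
              · rw [List.mem_singleton.1 hb]; simp [fsd_ok])
          simpa [fsd_val, mul_assoc] using this
    simp only [Sum.elim_inr, if_true, one_mul] at h2 h3
    rw [h3, add_zero, Finset.Nat.sum_antidiagonal_succ] at h2
    have h4 : ∑ p ∈ antidiagonal k, τ (fsd_V (S i) (p.1 + 1)) *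
        τ (fsd_V (S i) p.2 * ((L.map (fsd_val S)).prod * z)) =
        τ (fsd_V (S i) k * ((L.map (fsd_val S)).prod * z)) := by
      rw [Finset.sum_eq_single (0, k)]
      · simp [h1]
      · rintro ⟨a, b⟩ hab hne
        simp only [HasAntidiagonal.mem_antidiagonal] at hab
        have : a ≠ 0 := by
          rintro rfl
          apply hne
          simp only [zero_add] at hab
          rw [hab]
        rw [hV (a + 1) (by omega) (by omega), zero_mul]
      · intro h; simp at h
    rw [fsd_V_two, sub_mul, map_sub, mul_assoc, h2, h4]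
    simp
  intro L hN hne hch hL
  match L, hN, hne, hch, hL with
  | [Sum.inl x], _, _, _, hL => simpa [fsd_val] using (hL _ List.mem_cons_self).2
  | Sum.inl x :: Sum.inl y :: L, _, _, hch, _ => simp [fsd_ty] at hch
  | Sum.inl x :: Sum.inr (i, m) :: L, hN, _, hch, hL =>
    have hm : 2 ≤ m := hL (Sum.inr (i, m)) (by simp)
    obtain ⟨k, rfl⟩ : ∃ k, m = k + 2 := ⟨m - 2, by omega⟩
    have := key i k L x (hL _ List.mem_cons_self).1 (by simpa [fsd_deg] using hN) hch.tail
      fun a ha => hL a (by simp [ha])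
    rw [List.map_cons, List.prod_cons, hc]
    simpa [fsd_val, mul_assoc] using this
  | Sum.inr (i, m) :: L, hN, _, hch, hL =>
    have hm : 2 ≤ m := hL (Sum.inr (i, m)) (by simp)
    obtain ⟨k, rfl⟩ : ∃ k, m = k + 2 := ⟨m - 2, by omega⟩
    have := key i k L 1 (one_mem _) (by simpa [fsd_deg] using hN) hch
      fun a ha => hL a (by simp [ha])
    simpa [fsd_val] using this

lemma fsd_expand (l : List (Option (Fin n) × A))
    (hl : ∀ e ∈ l, e.2 ∈ Submodule.span ℂ
      (fsd_val S '' {a | fsd_ok τ X a ∧ fsd_ty a = e.1})) :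
    ∀ y : A, (∀ L : List (A ⊕ (Fin n × ℕ)), L.map fsd_ty = l.map Prod.fst →
      (∀ a ∈ L, fsd_ok τ X a) → τ (y * (L.map (fsd_val S)).prod) = 0) →
      τ (y * (l.map Prod.snd).prod) = 0 := by
  induction l with
  | nil => intro y hy; simpa using hy [] rfl (by simp)
  | cons e l ih =>
    intro y hy
    obtain ⟨t, x⟩ := e
    have hx := hl _ List.mem_cons_self
    have ih' := ih fun e he => hl e (List.mem_cons_of_mem _ he)
    simp only [List.map_cons, List.prod_cons] at hx hy ⊢
    clear hl
    induction hx using Submodule.span_induction with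
    | mem x hx =>
      obtain ⟨a, ⟨ha, hat⟩, rfl⟩ := hx
      rw [← mul_assoc]
      refine ih' _ fun L hL hok => ?_
      have := hy (a :: L) (by simp [hat, hL]) (by simpa [ha] using hok)
      simpa [mul_assoc] using this
    | zero => simp
    | add x x' _ _ hx hx' => simp [add_mul, mul_add, hx, hx']
    | smul a x _ hx => simp [hx]

theorem free_of_sd (h1 : τ 1 = 1) (hc : ∀ x y, τ (x * y) = τ (y * x))
    (hsd : ∀ i, SD τ (Sum.elim X S) (S i) fun z => if z = Sum.inr i then 1 else 0) :
    IsFreeFamily τ (withNoise X S) := by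
  intro l hne hch h0
  have hat := fun L => fsd_atoms τ X S h1 hc hsd _ L rfl
  have := fsd_expand τ X S (l.map fun e => (e.1, polyEval (withNoise X S e.1) e.2)) ?_ 1 ?_
  · simpa [Function.comp_def] using this
  · intro e he
    obtain ⟨⟨t, P⟩, hP, rfl⟩ := List.mem_map.1 he
    have hP0 := h0 _ hP
    rcases t with _ | i
    · refine Submodule.subset_span ⟨Sum.inl (polyEval X P), ⟨⟨?_, hP0⟩, rfl⟩, rfl⟩
      exact fsd_polyEval_mem X (Subalgebra.toSubmodule (Algebra.adjoin ℂ (Set.range X)))
        (one_mem (Algebra.adjoin ℂ (Set.range X)))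
        (fun i x hx => (Algebra.adjoin ℂ (Set.range X)).mul_mem
          (Algebra.subset_adjoin ⟨i, rfl⟩) hx) P
    · have hmem : polyEval (withNoise X S (some i)) P ∈
          Submodule.span ℂ (Set.range (fsd_V (S i))) :=
        fsd_polyEval_mem _ _ (Submodule.subset_span (Set.mem_range_self 1)) (fun _ x hx => fsd_mul_mem _ hx) P
      have hgen : ∀ x ∈ Submodule.span ℂ (Set.range (fsd_V (S i))), x - τ x • (1 : A) ∈
          Submodule.span ℂ (fsd_val S '' {a | fsd_ok τ X a ∧ fsd_ty a = some i}) := by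
        intro x hx
        induction hx using Submodule.span_induction with
        | mem x hx =>
          obtain ⟨k, rfl⟩ := hx
          rcases k with _ | _ | k
          · simp
          · simp [h1]
          · have := hat [Sum.inr (i, k + 2)] (by simp) (by simp) (by simp [fsd_ok])
            simp only [List.map_cons, List.map_nil, List.prod_cons, List.prod_nil, mul_one,
              fsd_val] at this
            rw [this, zero_smul, sub_zero]
            exact Submodule.subset_span ⟨Sum.inr (i, k + 2), ⟨by simp [fsd_ok], rfl⟩, rfl⟩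
        | zero => simp
        | add x y _ _ hx hy =>
          convert add_mem hx hy using 1
          rw [map_add, add_smul]; abel
        | smul a x _ hx =>
          convert Submodule.smul_mem _ a hx using 1
          rw [map_smul, smul_sub, smul_smul, smul_eq_mul]
      have := hgen _ hmem
      rwa [hP0, zero_smul, sub_zero] at this
  · intro L hL hok
    rw [one_mul]
    refine hat L ?_ ?_ hok
    · rintro rfl
      simp [hne] at hL
    · rw [hL, List.map_map, List.isChain_map]
      exact hch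

end Crest.Agent.R89
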