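import Crest.Agent.R89.Defs

/-! Row 89: Gaussian integration by parts for polynomials. -/

set_option autoImplicit false

namespace Crest.Agent.R89

open MeasureTheory

variable {σ : Type} [Fintype σ]

open ProbabilityTheory in
private lemma wick_int_pow (k : ℕ) : Integrable (fun x : ℝ => (x : ℂ) ^ k) (gaussianReal 0 1) := by
  have h : Integrable (fun x : ℝ => x ^ k) (gaussianReal 0 1) :=
    integrable_pow_of_mem_interior_integrableExpSet (X := fun x => x) (by simp) k
  simpa using h.ofReal (𝕜 := ℂ)

open ProbabilityTheory in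
private lemma wick_mom (k : ℕ) : ∫ x : ℝ, (x : ℂ) ^ (k + 1) ∂gaussianReal 0 1 =
    k * ∫ x : ℝ, (x : ℂ) ^ (k - 1) ∂gaussianReal 0 1 := by
  have h : ∀ k : ℕ, ∫ x : ℝ, (x : ℂ) ^ k ∂gaussianReal 0 1 =
      ((iteratedDeriv k (fun t : ℝ => Real.exp (t ^ 2 / 2)) 0 : ℝ) : ℂ) := by
    intro k
    have h1 := iteratedDeriv_mgf_zero (X := fun x : ℝ => x) (μ := gaussianReal 0 1) (by simp) k
    rw [mgf_fun_id_gaussianReal] at h1
    simp only [zero_mul, zero_add, NNReal.coe_one, one_mul] at h1
    rw [h1, ← integral_complex_ofReal]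
    simp
  rw [h, h, iteratedDeriv_succ']
  have e : deriv (fun t : ℝ => Real.exp (t ^ 2 / 2)) = fun t => t * Real.exp (t ^ 2 / 2) := by
    funext t
    have := (((hasDerivAt_id t).fun_pow 2).div_const 2).exp
    refine (this.congr_deriv ?_).deriv
    simp [mul_comm]
  rw [e, iteratedDeriv_fun_mul (by fun_prop) (by fun_prop)]
  simp only [iteratedDeriv_fun_id_zero]
  rcases k with _ | k
  · simp
  · rw [Finset.sum_eq_single 1] <;> simp +contextual

private lemma wick_eval_monomial (s : σ →₀ ℕ) (c : ℂ) (ξ : σ → ℝ) :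
    MvPolynomial.eval (fun i => (ξ i : ℂ)) (MvPolynomial.monomial s c) =
      c * ∏ i, (ξ i : ℂ) ^ s i := by
  rw [MvPolynomial.eval_monomial, Finsupp.prod_fintype _ _ (by simp)]

open ProbabilityTheory in
private lemma wick_int_monomial (s : σ →₀ ℕ) (c : ℂ) :
    ∫ ξ : σ → ℝ, MvPolynomial.eval (fun i => (ξ i : ℂ)) (MvPolynomial.monomial s c) ∂gam σ =
      c * ∏ i, ∫ x : ℝ, (x : ℂ) ^ s i ∂gaussianReal 0 1 := by
  simp only [wick_eval_monomial]
  rw [integral_const_mul, gam,
    integral_fintype_prod_eq_prod (fun i (x : ℝ) => (x : ℂ) ^ s i)]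

lemma integrable_eval (f : MvPolynomial σ ℂ) :
    Integrable (fun ξ : σ → ℝ => MvPolynomial.eval (fun i => (ξ i : ℂ)) f) (gam σ) := by
  induction f using MvPolynomial.induction_on' with
  | monomial s c =>
    simp only [wick_eval_monomial]
    exact (Integrable.fintype_prod (f := fun i (x : ℝ) => (x : ℂ) ^ s i)
      fun i => wick_int_pow _).const_mul c
  | add p q hp hq =>
    simp only [map_add]
    exact hp.add hq

lemma wick (a : σ) (f : MvPolynomial σ ℂ) :
    ∫ ξ : σ → ℝ, MvPolynomial.eval (fun i => (ξ i : ℂ)) (MvPolynomial.X a * f) ∂gam σ =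
      ∫ ξ : σ → ℝ, MvPolynomial.eval (fun i => (ξ i : ℂ)) (MvPolynomial.pderiv a f) ∂gam σ := by
  classical
  induction f using MvPolynomial.induction_on' with
  | monomial s c =>
    have e : MvPolynomial.X a * MvPolynomial.monomial s c =
        MvPolynomial.monomial (s + Finsupp.single a 1) c := by
      rw [MvPolynomial.monomial_add_single, pow_one, mul_comm]
    rw [e, MvPolynomial.pderiv_monomial, wick_int_monomial, wick_int_monomial,
      ← Finset.mul_prod_erase _ _ (Finset.mem_univ a),
      ← Finset.mul_prod_erase _ _ (Finset.mem_univ a), Finsupp.add_apply, Finsupp.single_eq_same,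
      wick_mom, Finsupp.tsub_apply, Finsupp.single_eq_same, mul_assoc, mul_assoc]
    congr 3
    refine Finset.prod_congr rfl fun i hi => ?_
    simp [Finsupp.single_eq_of_ne (Finset.ne_of_mem_erase hi)]
  | add p q hp hq =>
    rw [mul_add, map_add (MvPolynomial.pderiv a)]
    simp only [map_add (MvPolynomial.eval _)]
    rw [integral_add (integrable_eval _) (integrable_eval _),
      integral_add (integrable_eval _) (integrable_eval _), hp, hq]

end Crest.Agent.R89
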