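import Crest.Agent.R89.Herm
import Crest.Agent.R89.Wick

/-! Row 89: moments of the matrix model concentrate. -/

set_option autoImplicit false

namespace Crest.Agent.R89

open Crest.OpAlg MeasureTheory
open scoped ComplexConjugate

section poly
open MvPolynomial Matrix
variable {n d : ℕ}

/-- Polynomials in the Gaussian coordinates. -/
abbrev gueR (n d : ℕ) : Type := MvPolynomial (Fin n × (Fin d × Fin d)) ℂ

/-- Constant matrices. -/
noncomputable def gueC (n : ℕ) {d : ℕ} :
    Matrix (Fin d) (Fin d) ℂ →+* Matrix (Fin d) (Fin d) (gueR n d) :=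
  (C : ℂ →+* gueR n d).mapMatrix

/-- The scaled basis. -/
noncomputable def gueE (n : ℕ) {d : ℕ} (p : Fin d × Fin d) : Matrix (Fin d) (Fin d) (gueR n d) :=
  gueC n ((((Real.sqrt d)⁻¹ : ℝ) : ℂ) • eB p)

/-- The letters. -/
noncomputable def gueY (α : Fin n → ℝ) (b : Fin n → Matrix (Fin d) (Fin d) ℂ) :
    Fin n ⊕ Fin n → Matrix (Fin d) (Fin d) (gueR n d)
  | .inl i => gueC n (b i)
  | .inr i => gueC n (b i) + (α i : ℂ) • ∑ p, (X (i, p) : gueR n d) • gueE n p

/-- Normalised trace. -/
noncomputable def gueTr (M : Matrix (Fin d) (Fin d) (gueR n d)) : gueR n d := (d : ℂ)⁻¹ • trace M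

/-- Entrywise derivative. -/
noncomputable def gueD (a : Fin n × (Fin d × Fin d)) (M : Matrix (Fin d) (Fin d) (gueR n d)) :
    Matrix (Fin d) (Fin d) (gueR n d) := M.map (pderiv a)

/-- Expectation. -/
noncomputable def gueEx (n d : ℕ) : gueR n d →ₗ[ℂ] ℂ where
  toFun f := ∫ ξ : Fin n × (Fin d × Fin d) → ℝ, eval (fun i => (ξ i : ℂ)) f ∂gam _
  map_add' f g := by
    simp only [map_add]
    exact integral_add (integrable_eval _) (integrable_eval _)
  map_smul' c f := by
    simp only [smul_eval, RingHom.id_apply, smul_eq_mul]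
    exact integral_const_mul _ _

lemma gueEx_one : gueEx n d 1 = 1 := by simp [gueEx]

lemma gueEx_wick (a : Fin n × (Fin d × Fin d)) (f : gueR n d) :
    gueEx n d (X a * f) = gueEx n d (pderiv a f) := wick a f

lemma gueTr_add (M N : Matrix (Fin d) (Fin d) (gueR n d)) :
    gueTr (M + N) = gueTr M + gueTr N := by simp [gueTr]

lemma gueTr_smul (c : ℂ) (M : Matrix (Fin d) (Fin d) (gueR n d)) :
    gueTr (c • M) = c • gueTr M := by simp [gueTr, smul_comm c]

lemma gueTr_smul' (c : gueR n d) (M : Matrix (Fin d) (Fin d) (gueR n d)) :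
    gueTr (c • M) = c * gueTr M := by simp [gueTr]

lemma gueTr_sum {ι : Type*} (s : Finset ι) (M : ι → Matrix (Fin d) (Fin d) (gueR n d)) :
    gueTr (∑ i ∈ s, M i) = ∑ i ∈ s, gueTr (M i) := by simp [gueTr, Finset.smul_sum]

lemma gueTr_comm (M N : Matrix (Fin d) (Fin d) (gueR n d)) : gueTr (M * N) = gueTr (N * M) := by
  rw [gueTr, gueTr, trace_mul_comm]

lemma gue_eval_tr (x : Fin n × (Fin d × Fin d) → ℂ) (M : Matrix (Fin d) (Fin d) (gueR n d)) :
    eval x (gueTr M) = (d : ℂ)⁻¹ * trace ((eval x).mapMatrix M) := by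
  simp [gueTr, smul_eval, trace]

lemma gue_eval_C (x : Fin n × (Fin d × Fin d) → ℂ) (M : Matrix (Fin d) (Fin d) ℂ) :
    (eval x).mapMatrix (gueC n M) = M := by
  ext i j; simp [gueC]

lemma gue_sqrt (d : ℕ) :
    (((Real.sqrt d)⁻¹ : ℝ) : ℂ) * (((Real.sqrt d)⁻¹ : ℝ) : ℂ) = (d : ℂ)⁻¹ := by
  rw [← Complex.ofReal_mul, ← mul_inv, Real.mul_self_sqrt (Nat.cast_nonneg d)]
  simp

lemma gue_sum_mul (M N : Matrix (Fin d) (Fin d) (gueR n d)) :
    ∑ p, gueTr (gueE n p * M * gueE n p * N) = gueTr M * gueTr N := by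
  refine MvPolynomial.funext fun x => ?_
  simp only [map_sum, map_mul, gue_eval_tr, gueE, gue_eval_C, Matrix.smul_mul, Matrix.mul_smul,
    smul_smul, gue_sqrt, trace_smul, smul_eq_mul, ← Finset.mul_sum, sum_trace_eB_mul]
  ring

lemma gue_sum (M N : Matrix (Fin d) (Fin d) (gueR n d)) :
    ∑ p, gueTr (gueE n p * M) * gueTr (gueE n p * N) = ((d : ℂ)⁻¹ ^ 2) • gueTr (M * N) := by
  refine MvPolynomial.funext fun x => ?_
  simp only [map_sum, map_mul, gue_eval_tr, gueE, gue_eval_C, Matrix.smul_mul, smul_eval,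
    trace_smul, smul_eq_mul]
  rw [← sum_trace_eB, Finset.mul_sum, Finset.mul_sum]
  refine Finset.sum_congr rfl fun p _ => ?_
  linear_combination ((d : ℂ)⁻¹ ^ 2 * trace (eB p * (eval x).mapMatrix M) *
    trace (eB p * (eval x).mapMatrix N)) * gue_sqrt d

lemma gueD_mul (a : Fin n × (Fin d × Fin d)) (M N : Matrix (Fin d) (Fin d) (gueR n d)) :
    gueD a (M * N) = gueD a M * N + M * gueD a N := by
  ext1 i j
  simp only [gueD, map_apply, Matrix.mul_apply, map_sum, pderiv_mul, Matrix.add_apply,
    Finset.sum_add_distrib]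

lemma gueD_C (a : Fin n × (Fin d × Fin d)) (M : Matrix (Fin d) (Fin d) ℂ) :
    gueD a (gueC n M) = 0 := by
  ext1 i j; simp [gueD, gueC]

lemma gueD_tr (a : Fin n × (Fin d × Fin d)) (M : Matrix (Fin d) (Fin d) (gueR n d)) :
    pderiv a (gueTr M) = gueTr (gueD a M) := by
  simp [gueTr, gueD, trace]

/-- The coefficient function of the Schwinger–Dyson equation. -/
noncomputable abbrev gueCo (α : Fin n → ℝ) (i : Fin n) : Fin n ⊕ Fin n → ℂ :=
  fun z => if z = Sum.inr i then (α i : ℂ) else 0

variable (α : Fin n → ℝ) (b : Fin n → Matrix (Fin d) (Fin d) ℂ)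

lemma gueD_Y (i : Fin n) (p : Fin d × Fin d) (z : Fin n ⊕ Fin n) :
    gueD (i, p) (gueY α b z) = gueCo α i z • gueE n p := by
  rcases z with j | j
  · simp [gueY, gueD_C]
  · ext1 k l
    by_cases h : j = i
    · subst h
      simp only [gueY, gueD, gueE, gueC, map_apply, Matrix.add_apply, Matrix.smul_apply,
        Matrix.sum_apply, RingHom.mapMatrix_apply, map_add, pderiv_C, zero_add, smul_eq_mul,
        Derivation.map_smul, map_sum, pderiv_mul, mul_zero, add_zero]
      rw [Finset.sum_eq_single p]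
      · simp
      · intro q _ hq
        rw [pderiv_X_of_ne (by simpa using hq), zero_mul]
      · simp
    · simp only [gueY, gueD, gueE, gueC, map_apply, Matrix.add_apply, Matrix.smul_apply,
        Matrix.sum_apply, RingHom.mapMatrix_apply, map_add, pderiv_C, zero_add, smul_eq_mul,
        Derivation.map_smul, map_sum, pderiv_mul, mul_zero, add_zero, Sum.inr.injEq, h, if_false,
        zero_smul, gueCo]
      rw [Finset.sum_eq_zero, smul_zero]
      intro q _
      rw [pderiv_X_of_ne (by simp [h]), zero_mul]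

lemma gueD_ev (i : Fin n) (p : Fin d × Fin d) (l : List (Fin n ⊕ Fin n)) :
    gueD (i, p) (ev (gueY α b) l) = ∑ k ∈ Finset.range l.length, (l[k]?.elim 0 (gueCo α i)) •
      (ev (gueY α b) (l.take k) * gueE n p * ev (gueY α b) (l.drop (k + 1))) := by
  induction l with
  | nil => simpa using gueD_C (i, p) 1
  | cons z l ih =>
    rw [ev_cons, gueD_mul, gueD_Y, ih, List.length_cons, Finset.sum_range_succ', add_comm,
      Finset.mul_sum]
    simp [Matrix.mul_assoc]

/-- Normalised trace of a word. -/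
noncomputable def gueT (l : List (Fin n ⊕ Fin n)) : gueR n d := gueTr (ev (gueY α b) l)

/-- The cross term. -/
noncomputable def gueG (i : Fin n) (l : List (Fin n ⊕ Fin n)) (f : gueR n d) : gueR n d :=
  ∑ p, gueTr (gueE n p * ev (gueY α b) l) * pderiv (i, p) f

lemma gueG_one (i : Fin n) (l : List (Fin n ⊕ Fin n)) : gueG α b i l 1 = 0 := by simp [gueG]

lemma gueG_mul (i : Fin n) (l : List (Fin n ⊕ Fin n)) (f g : gueR n d) :
    gueG α b i l (f * g) = gueG α b i l f * g + f * gueG α b i l g := by
  simp only [gueG, pderiv_mul, Finset.sum_mul, Finset.mul_sum, ← Finset.sum_add_distrib]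
  exact Finset.sum_congr rfl fun p _ => by ring

lemma gueG_T (i : Fin n) (l v : List (Fin n ⊕ Fin n)) :
    gueG α b i l (gueT α b v) = ∑ k ∈ Finset.range v.length,
      (v[k]?.elim 0 (gueCo α i) * (d : ℂ)⁻¹ ^ 2) • gueT α b (l ++ (v.drop (k + 1) ++ v.take k)) := by
  simp only [gueG, gueT, gueD_tr, gueD_ev, gueTr_sum, gueTr_smul, Finset.mul_sum]
  rw [Finset.sum_comm]
  refine Finset.sum_congr rfl fun k _ => ?_
  rw [ev_append, ev_append, mul_smul, ← gue_sum, Finset.smul_sum]
  refine Finset.sum_congr rfl fun p _ => ?_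
  rw [mul_smul_comm, Matrix.mul_assoc, gueTr_comm (ev _ (v.take k)), Matrix.mul_assoc]

lemma gue_step (i : Fin n) (l : List (Fin n ⊕ Fin n)) (f : gueR n d) :
    gueEx n d (gueT α b (.inr i :: l) * f) = gueEx n d (gueT α b (.inl i :: l) * f) +
      α i * ∑ k ∈ Finset.range l.length, l[k]?.elim 0 (gueCo α i) *
        gueEx n d (gueT α b (l.take k) * (gueT α b (l.drop (k + 1)) * f)) +
      α i * gueEx n d (gueG α b i l f) := by
  have e1 : gueT α b (.inr i :: l) * f = gueT α b (.inl i :: l) * f +
      (α i : ℂ) • ∑ p, X (i, p) * (gueTr (gueE n p * ev (gueY α b) l) * f) := by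
    simp only [gueT, ev_cons, gueY, gueTr_add, gueTr_smul,
      gueTr_sum, gueTr_smul', add_mul, smul_mul_assoc, Finset.sum_mul, mul_assoc]
  have e2 : ∑ p, pderiv (i, p) (gueTr (gueE n p * ev (gueY α b) l)) =
      ∑ k ∈ Finset.range l.length, l[k]?.elim 0 (gueCo α i) •
        (gueT α b (l.take k) * gueT α b (l.drop (k + 1))) := by
    simp only [gueD_tr, gueD_mul, gueD_ev, gueT, ← gue_sum_mul, Finset.smul_sum]
    rw [Finset.sum_comm]
    refine Finset.sum_congr rfl fun p _ => ?_
    rw [gueE, gueD_C, Matrix.zero_mul, zero_add, Matrix.mul_sum, gueTr_sum]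
    refine Finset.sum_congr rfl fun k _ => ?_
    simp only [Matrix.mul_smul, gueTr_smul, Matrix.mul_assoc]
  rw [e1, map_add, map_smul, map_sum, add_assoc, ← mul_add, smul_eq_mul]
  congr 2
  simp only [gueEx_wick, pderiv_mul, map_add, Finset.sum_add_distrib]
  rw [← map_sum, ← map_sum, ← Finset.sum_mul, e2, Finset.sum_mul, map_sum]
  congr 1
  exact Finset.sum_congr rfl fun k _ => by rw [smul_mul_assoc, map_smul, smul_eq_mul, mul_assoc]

lemma gueT_rot (u v : List (Fin n ⊕ Fin n)) : gueT α b (u ++ v) = gueT α b (v ++ u) := by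
  rw [gueT, gueT, ev_append, ev_append, gueTr_comm]

lemma gueT_inl (l : List (Fin n)) :
    gueT α b (l.map .inl) = C ((d : ℂ)⁻¹ * trace (ev b l)) := by
  refine MvPolynomial.funext fun x => ?_
  simp only [gueT, ev_map, gueY, gue_eval_tr, map_ev, gue_eval_C, eval_C]

lemma gue_eval_inr (ξ : Fin n × (Fin d × Fin d) → ℝ) (l : List (Fin n)) :
    eval (fun i => (ξ i : ℂ)) (gueT α b (l.map .inr)) = (d : ℂ)⁻¹ * trace (ev (Zm α b ξ) l) := by
  rw [gueT, ev_map, gue_eval_tr, map_ev]
  congr 3
  funext i
  ext j k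
  simp only [gueY, Zm, Gm, herm_eq_sum, gueE, gueC, RingHom.mapMatrix_apply, map_apply,
    Matrix.add_apply, Matrix.smul_apply, Matrix.sum_apply, map_add, eval_C, smul_eval, map_sum,
    smul_eq_mul, map_mul, eval_X, Finset.mul_sum, div_eq_mul_inv, Complex.ofReal_mul]
  congr 1
  exact Finset.sum_congr rfl fun p _ => by ring

end poly

section small
open Matrix
variable {n : ℕ}

/-- `F = O(d⁻²)` uniformly over the tuples with the right moments up to order `m`. -/
def gueSm (ν : List (Fin n) → ℂ) (m : ℕ)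
    (F : ∀ d : ℕ, (Fin n → Matrix (Fin d) (Fin d) ℂ) → ℂ) : Prop :=
  ∃ K : ℝ, ∀ d : ℕ, 0 < d → ∀ b : Fin n → Matrix (Fin d) (Fin d) ℂ,
    (∀ l : List (Fin n), l.length ≤ m → (d : ℂ)⁻¹ * trace (ev b l) = ν l) → ‖F d b‖ ≤ K / d ^ 2

variable {ν : List (Fin n) → ℂ} {m : ℕ} {F G : ∀ d : ℕ, (Fin n → Matrix (Fin d) (Fin d) ℂ) → ℂ}

lemma gueSm.congr (h : gueSm ν m F) (e : ∀ d : ℕ, 0 < d → ∀ b : Fin n → Matrix (Fin d) (Fin d) ℂ,
    (∀ l : List (Fin n), l.length ≤ m → (d : ℂ)⁻¹ * trace (ev b l) = ν l) → G d b = F d b) :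
    gueSm ν m G := by
  obtain ⟨K, hK⟩ := h
  exact ⟨K, fun d hd b hb => (e d hd b hb).symm ▸ hK d hd b hb⟩

lemma gueSm_zero : gueSm ν m fun _ _ => 0 := ⟨0, fun _ _ _ _ => by simp⟩

lemma gueSm.add (h : gueSm ν m F) (h' : gueSm ν m G) : gueSm ν m fun d b => F d b + G d b := by
  obtain ⟨K, hK⟩ := h
  obtain ⟨K', hK'⟩ := h'
  refine ⟨K + K', fun d hd b hb => (norm_add_le _ _).trans ?_⟩
  rw [add_div]
  exact add_le_add (hK d hd b hb) (hK' d hd b hb)

lemma gueSm.const_mul (c : ℂ) (h : gueSm ν m F) : gueSm ν m fun d b => c * F d b := by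
  obtain ⟨K, hK⟩ := h
  refine ⟨‖c‖ * K, fun d hd b hb => ?_⟩
  rw [norm_mul, mul_div_assoc]
  exact mul_le_mul_of_nonneg_left (hK d hd b hb) (norm_nonneg _)

lemma gueSm_sum {ι : Type*} (s : Finset ι)
    {H : ι → ∀ d : ℕ, (Fin n → Matrix (Fin d) (Fin d) ℂ) → ℂ} (h : ∀ i ∈ s, gueSm ν m (H i)) :
    gueSm ν m fun d b => ∑ i ∈ s, H i d b := by
  classical
  induction s using Finset.induction_on with
  | empty => simpa using gueSm_zero
  | insert a s ha ih =>
    simp only [Finset.sum_insert ha]
    exact (h a (Finset.mem_insert_self _ _)).add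
      (ih fun i hi => h i (Finset.mem_insert_of_mem hi))

lemma gueSm.scale {c : ℂ} (h : gueSm ν m fun d b => F d b - c) :
    gueSm ν m fun d b => (d : ℂ)⁻¹ ^ 2 * F d b := by
  obtain ⟨K, hK⟩ := h
  refine ⟨|K| + ‖c‖, fun d hd b hb => ?_⟩
  have h1 : (1 : ℝ) ≤ (d : ℝ) ^ 2 := one_le_pow₀ (by exact_mod_cast hd)
  have h2 : ‖F d b‖ ≤ |K| + ‖c‖ := by
    have h3 : K / (d : ℝ) ^ 2 ≤ |K| :=
      (div_le_div_of_nonneg_right (le_abs_self K) (by positivity)).trans
        (div_le_self (abs_nonneg K) h1)
    have h4 := norm_sub_norm_le (F d b) c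
    linarith [hK d hd b hb]
  rw [norm_mul, norm_pow, norm_inv, Complex.norm_natCast, inv_pow, mul_comm, div_eq_mul_inv]
  exact mul_le_mul_of_nonneg_right h2 (by positivity)

private lemma gue_count {β : Type*} (q : β → Bool) (l : List β) (k : ℕ) :
    (l.take k).countP q + (l.drop (k + 1)).countP q ≤ l.countP q ∧
      (l.take k).length + (l.drop (k + 1)).length ≤ l.length := by
  constructor
  · conv_rhs => rw [← List.take_append_drop k l, List.countP_append]
    exact Nat.add_le_add_left ((List.drop_sublist_drop_left l (Nat.le_succ k)).countP_le) _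
  · simp only [List.length_take, List.length_drop]
    omega

theorem gue_main (α : Fin n → ℝ) (μ : List (Fin n ⊕ Fin n) → ℂ)
    (h0 : ∀ l : List (Fin n), μ (l.map .inl) = ν l) (hrot : ∀ u v, μ (u ++ v) = μ (v ++ u))
    (hstep : ∀ i l, μ (.inr i :: l) = μ (.inl i :: l) + α i * spl (gueCo α i) μ μ l) (N : ℕ) :
    ∀ ws : List (List (Fin n ⊕ Fin n)), ws.flatten.countP Sum.isRight < N →
      ws.flatten.length ≤ m →
      gueSm ν m fun d b => gueEx n d (ws.map (gueT α b)).prod - (ws.map μ).prod := by
  induction N with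
  | zero => intro ws h; omega
  | succ N ih =>
    intro ws hN hm
    by_cases hz : ∀ w ∈ ws, ∀ z ∈ w, ∀ i, z ≠ Sum.inr i
    · refine gueSm_zero.congr fun d hd b hb => ?_
      have e : ws.map (gueT α b) = ws.map fun w => MvPolynomial.C (μ w) := by
        refine List.map_congr_left fun w hw => ?_
        obtain ⟨l, rfl⟩ : ∃ l : List (Fin n), w = l.map Sum.inl := by
          refine ⟨w.map (Sum.elim id id), ?_⟩
          rw [List.map_map]
          refine (List.map_id w).symm.trans (List.map_congr_left fun z hz' => ?_)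
          rcases z with j | j
          · rfl
          · exact absurd rfl (hz w hw _ hz' j)
        have hl := (List.sublist_flatten_of_mem hw).length_le
        rw [List.length_map] at hl
        rw [gueT_inl, hb l (hl.trans hm), h0]
      have e2 : (ws.map fun w => (MvPolynomial.C (μ w) : gueR n d)).prod = (ws.map μ).prod • 1 := by
        rw [← Algebra.algebraMap_eq_smul_one, map_list_prod, List.map_map]
        rfl
      rw [e, e2, map_smul, gueEx_one, smul_eq_mul, mul_one, sub_self]
    · push Not at hz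
      obtain ⟨w, hw, z, hz, i, rfl⟩ := hz
      obtain ⟨a, c, rfl⟩ := List.append_of_mem hw
      obtain ⟨u, v, rfl⟩ := List.append_of_mem hz
      obtain ⟨l, hl⟩ : ∃ l, l = v ++ u := ⟨_, rfl⟩
      obtain ⟨r, hr⟩ : ∃ r, r = a ++ c := ⟨_, rfl⟩
      have hN' : l.countP Sum.isRight + r.flatten.countP Sum.isRight < N := by
        simp only [List.flatten_append, List.flatten_cons, List.countP_append, hl, hr,
          List.countP_cons, Sum.isRight_inr, if_true] at hN ⊢
        omega
      have hm' : l.length + r.flatten.length < m := by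
        simp only [List.flatten_append, List.flatten_cons, List.length_append, hl, hr,
          List.length_cons] at hm ⊢
        omega
      have cross : ∀ rest pre : List (List (Fin n ⊕ Fin n)),
          l.countP Sum.isRight + pre.flatten.countP Sum.isRight +
            rest.flatten.countP Sum.isRight < N →
          l.length + pre.flatten.length + rest.flatten.length < m →
          gueSm ν m fun d b => gueEx n d ((pre.map (gueT α b)).prod *
            gueG α b i l (rest.map (gueT α b)).prod) := by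
        intro rest
        induction rest with
        | nil => intro pre _ _; simpa [gueG_one] using gueSm_zero
        | cons x rest ih2 =>
          intro pre h1 h2
          simp only [List.flatten_cons, List.countP_append, List.length_append] at h1 h2
          have hA := ih2 (x :: pre)
            (by simp only [List.flatten_cons, List.countP_append]; omega)
            (by simp only [List.flatten_cons, List.length_append]; omega)
          have hB := gueSm_sum (Finset.range x.length) fun k _ =>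
            (ih ((l ++ (x.drop (k + 1) ++ x.take k)) :: (pre ++ rest))
              (by
                have := (gue_count Sum.isRight x k).1
                simp only [List.flatten_cons, List.flatten_append, List.countP_append]; omega)
              (by
                have := (gue_count Sum.isRight x k).2
                simp only [List.flatten_cons, List.flatten_append, List.length_append]
                omega)).scale.const_mul (x[k]?.elim 0 (gueCo α i))
          refine (hB.add hA).congr fun d _ b _ => ?_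
          simp only [List.map_cons, List.prod_cons, List.map_append, List.prod_append, gueG_mul,
            gueG_T, mul_add, map_add, Finset.sum_mul, Finset.mul_sum, map_sum, smul_mul_assoc,
            mul_smul_comm, map_smul, smul_eq_mul]
          congr 1
          · refine Finset.sum_congr rfl fun k _ => ?_
            rw [mul_assoc, mul_left_comm (List.prod _)]
          · rw [← mul_assoc, mul_comm (List.prod _)]
      have h1 := ih ((.inl i :: l) :: r)
        (by simpa only [List.flatten_cons, List.countP_append, List.countP_cons, Sum.isRight_inl,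
          Bool.false_eq_true, if_false, add_zero] using hN')
        (by simp only [List.flatten_cons, List.length_append, List.length_cons]; omega)
      have h2 := (gueSm_sum (Finset.range l.length) fun k _ =>
        (ih (l.take k :: l.drop (k + 1) :: r)
          (by
            have := (gue_count Sum.isRight l k).1
            simp only [List.flatten_cons, List.countP_append]; omega)
          (by
            have := (gue_count Sum.isRight l k).2
            simp only [List.flatten_cons, List.length_append]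
            omega)).const_mul (l[k]?.elim 0 (gueCo α i))).const_mul (α i)
      have h3 := (cross r [] (by simpa using hN') (by simpa using hm')).const_mul (α i)
      refine ((h1.add h2).add h3).congr fun d _ b _ => ?_
      have e1 : ((a ++ (u ++ Sum.inr i :: v) :: c).map (gueT α b)).prod =
          gueT α b (.inr i :: l) * (r.map (gueT α b)).prod := by
        rw [hl, hr, ← List.cons_append, ← gueT_rot]
        simp only [List.map_append, List.prod_append, List.map_cons, List.prod_cons]
        ring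
      have e2 : ((a ++ (u ++ Sum.inr i :: v) :: c).map μ).prod =
          μ (.inr i :: l) * (r.map μ).prod := by
        rw [hl, hr, ← List.cons_append, ← hrot]
        simp only [List.map_append, List.prod_append, List.map_cons, List.prod_cons]
        ring
      rw [e1, e2, gue_step, hstep, spl]
      simp only [List.map_cons, List.prod_cons, List.map_nil, List.prod_nil, one_mul, mul_sub,
        Finset.sum_sub_distrib, add_mul, mul_assoc, Finset.sum_mul]
      ring

private lemma gue_star_ev {A ι : Type*} [Monoid A] [StarMul A] (Y : ι → A)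
    (hY : ∀ i, star (Y i) = Y i) (l : List ι) : star (ev Y l) = ev Y l.reverse := by
  induction l with
  | nil => simp
  | cons i l ih => rw [ev_cons, star_mul, ih, hY, List.reverse_cons, ev_append]; simp

end small

theorem gue_moment {A : Type*} [Ring A] [StarRing A] [Algebra ℂ A] [StarModule ℂ A]
    (τ : A →ₗ[ℂ] ℂ) (hc : ∀ x y, τ (x * y) = τ (y * x)) (hs : ∀ x, τ (star x) = conj (τ x))
    {n : ℕ} (B C : Fin n → A) (α : Fin n → ℝ) (hB : ∀ i, IsSelfAdjoint (B i))
    (hC : ∀ i, IsSelfAdjoint (C i))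
    (hsd : ∀ i, SD τ (Sum.elim B fun k => B k + (α k : ℂ) • C k) (C i)
      fun z => if z = Sum.inr i then (α i : ℂ) else 0) (w : List (Fin n)) :
    ∃ K : ℝ, ∀ d : ℕ, 0 < d → ∀ b : Fin n → Matrix (Fin d) (Fin d) ℂ, (∀ i, (b i).IsHermitian) →
      (∀ l : List (Fin n), l.length ≤ 2 * w.length →
        (d : ℂ)⁻¹ * Matrix.trace (ev b l) = τ (ev B l)) → ∀ ε : ℝ, 0 < ε →
      gam _ {ξ | ε ≤ ‖(d : ℂ)⁻¹ * Matrix.trace (ev (Zm α b ξ) w) -
        τ (ev (fun k => B k + (α k : ℂ) • C k) w)‖} ≤ ENNReal.ofReal (K / (d ^ 2 * ε ^ 2)) := by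
  obtain ⟨Z, hZ⟩ : ∃ Z : Fin n → A, Z = fun k => B k + (α k : ℂ) • C k := ⟨_, rfl⟩
  rw [← hZ] at hsd ⊢
  have key := fun ws => gue_main (ν := fun l => τ (ev B l)) (m := 2 * w.length) α
    (fun l => τ (ev (Sum.elim B Z) l)) (fun l => by rw [ev_map]; rfl)
    (fun u v => by rw [ev_append, ev_append, hc])
    (fun i l => by
      rw [← hsd i l, ev_cons, ev_cons, Sum.elim_inr, Sum.elim_inl, hZ, add_mul, smul_mul_assoc,
        map_add, map_smul, smul_eq_mul]) _ ws (Nat.lt_succ_self _)
  obtain ⟨μ, hμ⟩ : ∃ μ, μ = τ (ev Z w) := ⟨_, rfl⟩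
  rw [← hμ]
  have hμ1 : τ (ev (Sum.elim B Z) (w.map .inr)) = μ := by rw [ev_map, hμ]; rfl
  have hμ2 : τ (ev (Sum.elim B Z) (w.reverse.map .inr)) = conj μ := by
    rw [ev_map, hμ, ← hs, gue_star_ev]
    · rfl
    · intro i
      rw [hZ]
      simp [(hB i).star_eq, (hC i).star_eq]
  obtain ⟨K, hK⟩ := ((key [w.map .inr, w.reverse.map .inr] (by simp; omega)).add
    ((key [w.map .inr] (by simp; omega)).const_mul (-conj μ))).add
    ((key [w.reverse.map .inr] (by simp; omega)).const_mul (-μ))
  refine ⟨K, fun d hd b hb hm ε hε => ?_⟩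
  have h1 := hK d hd b hm
  obtain ⟨P, hP⟩ : ∃ P : gueR n d, P = (gueT α b (w.map .inr) - μ • 1) *
    (gueT α b (w.reverse.map .inr) - conj μ • 1) := ⟨_, rfl⟩
  have h2 : ‖gueEx n d P‖ ≤ K / d ^ 2 := by
    convert h1 using 2
    simp only [hP, List.map_cons, List.prod_cons, List.map_nil, List.prod_nil, mul_one, hμ1, hμ2,
      mul_sub, sub_mul, mul_smul_comm, smul_mul_assoc, one_mul, map_sub, map_smul, gueEx_one,
      smul_eq_mul]
    ring
  have h3 : ∀ ξ : Fin n × (Fin d × Fin d) → ℝ, MvPolynomial.eval (fun i => (ξ i : ℂ)) P =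
      ((‖(d : ℂ)⁻¹ * Matrix.trace (ev (Zm α b ξ) w) - μ‖ ^ 2 : ℝ) : ℂ) := by
    intro ξ
    have e : (d : ℂ)⁻¹ * Matrix.trace (ev (Zm α b ξ) w.reverse) =
        conj ((d : ℂ)⁻¹ * Matrix.trace (ev (Zm α b ξ) w)) := by
      rw [← gue_star_ev, Matrix.star_eq_conjTranspose, Matrix.trace_conjTranspose]
      · simp
      · intro i
        rw [Zm, star_add, star_smul, Matrix.star_eq_conjTranspose, Matrix.star_eq_conjTranspose,
          (hb i).eq, Gm, (herm_isHermitian _).eq]
        simp
    rw [hP, map_mul, map_sub, map_sub, gue_eval_inr, gue_eval_inr, e, MvPolynomial.smul_eval,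
      MvPolynomial.smul_eval, map_one, mul_one, mul_one, ← map_sub, Complex.mul_conj']
    simp
  have h4 : Integrable (fun ξ : Fin n × (Fin d × Fin d) → ℝ =>
      ‖(d : ℂ)⁻¹ * Matrix.trace (ev (Zm α b ξ) w) - μ‖ ^ 2) (gam _) := by
    have := (integrable_eval P).re
    simpa only [h3, RCLike.re_to_complex, Complex.ofReal_re] using this
  have h5 : ∫ ξ : Fin n × (Fin d × Fin d) → ℝ,
      ‖(d : ℂ)⁻¹ * Matrix.trace (ev (Zm α b ξ) w) - μ‖ ^ 2 ∂gam _ ≤ K / d ^ 2 := by
    refine le_trans ?_ h2
    change _ ≤ ‖∫ ξ : Fin n × (Fin d × Fin d) → ℝ, MvPolynomial.eval (fun i => (ξ i : ℂ)) P ∂gam _‖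
    simp only [h3]
    rw [integral_complex_ofReal, Complex.norm_real]
    exact le_abs_self _
  have h6 := mul_meas_ge_le_integral_of_nonneg (ae_of_all _ fun ξ => sq_nonneg _) h4 (ε ^ 2)
  rw [← ofReal_measureReal (measure_ne_top _ _)]
  refine ENNReal.ofReal_le_ofReal ?_
  rw [← div_div, le_div_iff₀ (by positivity), mul_comm]
  refine le_trans (mul_le_mul_of_nonneg_left (measureReal_mono fun ξ hξ => ?_) (sq_nonneg ε))
    (h6.trans h5)
  exact pow_le_pow_left₀ hε.le hξ 2

end Crest.Agent.R89
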