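import Crest.Agent.R89.Defs

/-! Row 89: the coordinates of Hermitian matrices. -/

set_option autoImplicit false

namespace Crest.Agent.R89

open Crest.OpAlg Matrix

variable {d : ℕ}

lemma herm_add (a b : EuclideanSpace ℝ (Fin d × Fin d)) :
    hermitianOfCoords (a + b) = hermitianOfCoords a + hermitianOfCoords b := by
  ext i j
  simp only [hermitianOfCoords, Matrix.add_apply, PiLp.add_apply, Complex.ofReal_add]
  split_ifs <;> ring

lemma herm_smul (r : ℝ) (a : EuclideanSpace ℝ (Fin d × Fin d)) :
    hermitianOfCoords (r • a) = (r : ℂ) • hermitianOfCoords a := by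
  ext i j
  simp only [hermitianOfCoords, Matrix.smul_apply, PiLp.smul_apply, smul_eq_mul,
    Complex.ofReal_mul]
  split_ifs <;> ring

lemma herm_sub (a b : EuclideanSpace ℝ (Fin d × Fin d)) :
    hermitianOfCoords (a - b) = hermitianOfCoords a - hermitianOfCoords b := by
  ext i j
  simp only [hermitianOfCoords, Matrix.sub_apply, PiLp.sub_apply, Complex.ofReal_sub]
  split_ifs <;> ring

lemma herm_isHermitian (a : EuclideanSpace ℝ (Fin d × Fin d)) :
    (hermitianOfCoords a).IsHermitian := by
  ext i j
  rw [conjTranspose_apply]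
  rcases lt_trichotomy i j with h | h | h
  · simp [hermitianOfCoords, h, h.ne, h.ne', h.not_gt]
  · subst h; simp [hermitianOfCoords]
  · simp [hermitianOfCoords, h, h.ne, h.ne', h.not_gt, sub_eq_add_neg]

lemma continuous_herm :
    Continuous (hermitianOfCoords : EuclideanSpace ℝ (Fin d × Fin d) → _) := by
  refine continuous_pi fun i => continuous_pi fun j => ?_
  simp only [hermitianOfCoords]
  split_ifs <;> fun_prop

/-- The coordinates of a Hermitian matrix. -/
noncomputable def coords (M : Matrix (Fin d) (Fin d) ℂ) : EuclideanSpace ℝ (Fin d × Fin d) :=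
  WithLp.toLp 2 fun p => if p.1 = p.2 then (M p.1 p.1).re
    else if p.1 < p.2 then Real.sqrt 2 * (M p.1 p.2).re else Real.sqrt 2 * (M p.2 p.1).im

lemma herm_coords {M : Matrix (Fin d) (Fin d) ℂ} (hM : M.IsHermitian) :
    hermitianOfCoords (coords M) = M := by
  have h2 : (Real.sqrt 2 : ℂ) ≠ 0 := by simp
  ext i j
  rcases lt_trichotomy i j with h | h | h
  · simp only [hermitianOfCoords, coords, h, h.ne, h.ne', h.not_gt, if_true, if_false,
      Complex.ofReal_mul]
    rw [div_eq_iff h2]
    conv_rhs => rw [← Complex.re_add_im (M i j)]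
    ring
  · subst h
    simp only [hermitianOfCoords, coords, if_true]
    exact Complex.conj_eq_iff_re.1 (hM.apply i i)
  · simp only [hermitianOfCoords, coords, h, h.ne, h.ne', h.not_gt, if_true, if_false,
      Complex.ofReal_mul]
    rw [div_eq_iff h2, ← hM.apply i j]
    conv_rhs => rw [← Complex.re_add_im (M j i)]
    simp only [RCLike.star_def, map_add, map_mul, Complex.conj_ofReal, Complex.conj_I]
    ring

lemma continuous_coords : Continuous (coords : Matrix (Fin d) (Fin d) ℂ → _) := by
  refine (PiLp.continuous_toLp 2 _).comp (continuous_pi fun p => ?_)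
  split_ifs <;> fun_prop

lemma coords_zero : coords (0 : Matrix (Fin d) (Fin d) ℂ) = 0 := by
  ext p
  simp [coords]

lemma herm_sum_symm (f g : Fin d → Fin d → ℂ) (h : ∀ i j, f i j + f j i = g i j + g j i) :
    ∑ i, ∑ j, f i j = ∑ i, ∑ j, g i j := by
  have key : ∀ f : Fin d → Fin d → ℂ, ∑ i, ∑ j, (f i j + f j i) = 2 * ∑ i, ∑ j, f i j := by
    intro f
    simp only [Finset.sum_add_distrib]
    rw [Finset.sum_comm (f := fun i j => f j i), two_mul]
  have : 2 * ∑ i, ∑ j, f i j = 2 * ∑ i, ∑ j, g i j := by
    rw [← key, ← key]; simp only [h]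
  exact mul_left_cancel₀ two_ne_zero this

lemma trace_herm_mul (a b : EuclideanSpace ℝ (Fin d × Fin d)) :
    trace (hermitianOfCoords a * hermitianOfCoords b) = ((∑ p, a p * b p : ℝ) : ℂ) := by
  have h2 : (Real.sqrt 2 : ℂ) ≠ 0 := by simp
  have h3 : (Real.sqrt 2 : ℂ) ^ 2 = 2 := by
    rw [← Complex.ofReal_pow, Real.sq_sqrt (by norm_num)]; simp
  simp only [trace, diag, Matrix.mul_apply, Fintype.sum_prod_type, Complex.ofReal_sum,
    Complex.ofReal_mul]
  refine herm_sum_symm _ _ fun i j => ?_
  rcases lt_trichotomy i j with h | h | h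
  · simp only [hermitianOfCoords, h, h.ne, h.ne', h.not_gt, if_true, if_false]
    field_simp
    rw [h3]
    linear_combination (-2 * (a (j, i) : ℂ) * b (j, i)) * Complex.I_sq
  · subst h
    simp only [hermitianOfCoords, if_true]
  · simp only [hermitianOfCoords, h, h.ne, h.ne', h.not_gt, if_true, if_false]
    field_simp
    rw [h3]
    linear_combination (-2 * (a (i, j) : ℂ) * b (i, j)) * Complex.I_sq

/-- The orthonormal basis of the Hermitian matrices. -/
noncomputable def eB (p : Fin d × Fin d) : Matrix (Fin d) (Fin d) ℂ :=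
  hermitianOfCoords (EuclideanSpace.single p 1)

lemma herm_zero : hermitianOfCoords (0 : EuclideanSpace ℝ (Fin d × Fin d)) = 0 := by
  simpa using herm_smul 0 (0 : EuclideanSpace ℝ (Fin d × Fin d))

lemma herm_sum {ι : Type*} (s : Finset ι) (a : ι → EuclideanSpace ℝ (Fin d × Fin d)) :
    hermitianOfCoords (∑ i ∈ s, a i) = ∑ i ∈ s, hermitianOfCoords (a i) := by
  classical
  induction s using Finset.induction_on with
  | empty => simpa using herm_zero
  | insert i s hi ih => rw [Finset.sum_insert hi, Finset.sum_insert hi, herm_add, ih]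

lemma herm_eq_sum (a : EuclideanSpace ℝ (Fin d × Fin d)) :
    hermitianOfCoords a = ∑ p, (a p : ℂ) • eB p := by
  have e : a = ∑ p, a p • EuclideanSpace.single p (1 : ℝ) := by
    ext q
    simp [Pi.single_apply]
  conv_lhs => rw [e]
  rw [herm_sum]
  simp only [herm_smul, eB]

lemma herm_expand {M : Matrix (Fin d) (Fin d) ℂ} (hM : M.IsHermitian) :
    ∑ p, trace (eB p * M) • eB p = M := by
  obtain ⟨a, rfl⟩ : ∃ a, hermitianOfCoords a = M := ⟨_, herm_coords hM⟩
  conv_rhs => rw [herm_eq_sum]
  refine Finset.sum_congr rfl fun p _ => ?_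
  congr 1
  rw [eB, trace_herm_mul]
  simp [Pi.single_apply]

lemma herm_expand' (X : Matrix (Fin d) (Fin d) ℂ) : ∑ p, trace (eB p * X) • eB p = X := by
  have h1 : (X + Xᴴ).IsHermitian := isHermitian_add_transpose_self X
  have h2 : (Complex.I • (X - Xᴴ)).IsHermitian := by
    rw [IsHermitian, conjTranspose_smul, conjTranspose_sub, conjTranspose_conjTranspose]
    simp [smul_sub, sub_eq_neg_add, add_comm]
  have e : X = (1 / 2 : ℂ) • (X + Xᴴ) - (Complex.I / 2) • (Complex.I • (X - Xᴴ)) := by
    rw [smul_smul, show Complex.I / 2 * Complex.I = -(1 / 2) by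
      linear_combination (1 / 2) * Complex.I_mul_I]
    module
  generalize X + Xᴴ = H₁ at h1 e
  generalize Complex.I • (X - Xᴴ) = H₂ at h2 e
  subst e
  conv_rhs => rw [← herm_expand h1, ← herm_expand h2]
  simp only [Matrix.mul_sub, Matrix.mul_smul, trace_sub, trace_smul, sub_smul, smul_eq_mul,
    Finset.sum_sub_distrib, Finset.smul_sum, smul_smul]

lemma sum_trace_eB (X Y : Matrix (Fin d) (Fin d) ℂ) :
    ∑ p, trace (eB p * X) * trace (eB p * Y) = trace (X * Y) := by
  conv_rhs => rw [← herm_expand' X]
  simp only [Matrix.sum_mul, Matrix.smul_mul, trace_sum, trace_smul, smul_eq_mul]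

lemma sum_trace_eB_mul (X Y : Matrix (Fin d) (Fin d) ℂ) :
    ∑ p, trace (eB p * X * eB p * Y) = trace X * trace Y := by
  have h1 : ∀ p, trace (eB p * X * eB p * Y) = ∑ i, ∑ k,
      trace (eB p * (X * single k i 1)) * trace (eB p * (Y * single i k 1)) := by
    intro p
    simp only [← Matrix.mul_assoc, trace_mul_single, MulOpposite.op_one, one_smul]
    rw [Matrix.mul_assoc]
    simp only [trace, diag, Matrix.mul_apply (M := eB p * X)]
  simp only [h1]
  rw [Finset.sum_comm]
  simp only [Finset.sum_comm (s := (Finset.univ : Finset (Fin d × Fin d))), sum_trace_eB]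
  have h2 : ∀ i k : Fin d, trace (X * single k i 1 * (Y * single i k 1)) = Y i i * X k k := by
    intro i k
    rw [Matrix.mul_assoc, ← Matrix.mul_assoc (single k i 1), single_mul_mul_single,
      trace_mul_single]
    simp [mul_comm]
  simp only [h2]
  rw [mul_comm]
  simp only [trace, diag, Finset.sum_mul_sum]

end Crest.Agent.R89
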