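import Crest.Agent.R89.Tree

/-! Row 89: how the cosets of `H` sit in the Cayley tree. -/

set_option autoImplicit false

namespace Crest.Agent.R89

open FreeGroup

/-- The generators. -/
abbrev hy (l : Ln) : Γ := of (.inl l)
abbrev hx (q : Ln) : Γ := of (.inr (.inl q))
abbrev hz (l : Ln) : Γ := of (.inr (.inr l))

/-- The action on the types. -/
noncomputable def hullAct : Γ →* Equiv.Perm (Option (Ln ⊕ Ln)) :=
  FreeGroup.lift (Sum.elim (fun l => Equiv.swap none (some (.inl l)))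
    (Sum.elim (fun _ => Equiv.optionCongr (Equiv.sumComm Ln Ln))
      fun l => Equiv.swap (some (.inr l)) none))

/-- The type of a vertex. -/
noncomputable def hullTy (g : Γ) : Option (Ln ⊕ Ln) := hullAct g⁻¹ none

lemma hull_ty_mul {h : Γ} (hh : h ∈ H) (g : Γ) : hullTy (h * g) = hullTy g := by
  have h1 : H ≤ (MulAction.stabilizer (Equiv.Perm (Option (Ln ⊕ Ln)))
      (none : Option (Ln ⊕ Ln))).comap hullAct := by
    rw [H, Subgroup.closure_le]
    rintro _ ⟨k, rfl⟩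
    simp [gI, hullAct]
  have h2 : hullAct h⁻¹ none = none := h1 (H.inv_mem hh)
  rw [hullTy, mul_inv_rev, hullAct.map_mul, Equiv.Perm.mul_apply, h2, hullTy]

lemma hull_ty_y (l : Ln) : hullTy (hy l) = some (.inl l) := by
  simp [hullTy, hullAct]

lemma hull_ty_yx (l q : Ln) : hullTy (hy l * hx q) = some (.inr l) := by
  simp [hullTy, hullAct, Equiv.Perm.inv_def, Equiv.symm_apply_eq]

lemma hull_gI_mem (k : I) : gI k ∈ H := Subgroup.subset_closure ⟨k, rfl⟩

/-- The edge that ends at `b` joins `s` and `s * of j`. -/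
def hullEd (b s : Γ) (j : J) : Prop :=
  (b = s * of j ∧ b.toWord = s.toWord ++ [(j, true)]) ∨
    (b = s ∧ b.toWord = (s * of j).toWord ++ [(j, false)])

lemma hull_ed_inj {b s s' : Γ} {j j' : J} (h : hullEd b s j) (h' : hullEd b s' j') :
    s = s' ∧ j = j' := by
  rcases h with ⟨h1, h2⟩ | ⟨h1, h2⟩ <;> rcases h' with ⟨h3, h4⟩ | ⟨h3, h4⟩ <;>
    have h5 := (List.append_inj' (h2.symm.trans h4) rfl).2 <;>
    simp only [List.cons.injEq, Prod.mk.injEq, and_true, reduceCtorEq, and_false] at h5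
  · subst h5
    exact ⟨mul_right_cancel (h1.symm.trans h3), rfl⟩
  · exact ⟨h1.symm.trans h3, h5⟩

lemma hull_ed_eq {a b s : Γ} {j : J} (h : hullEd a s j) (h' : hullEd b s j) : a = b := by
  rcases h with ⟨h1, h2⟩ | ⟨h1, h2⟩ <;> rcases h' with ⟨h3, h4⟩ | ⟨h3, h4⟩
  · exact h1.trans h3.symm
  · rw [← h1, h2, ← h3] at h4
    have := congrArg List.length h4
    simp at this
  · rw [← h3, h4, ← h1] at h2
    have := congrArg List.length h2
    simp at this
  · exact h1.trans h3.symm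

lemma hull_ed_parent {a b s : Γ} {j : J} (h : hullEd b s j) (ha : a.toWord = b.toWord.dropLast) :
    a = s ∨ a = s * of j := by
  rcases h with ⟨-, h⟩ | ⟨-, h⟩
  · exact Or.inl (toWord_injective (by rw [ha, h, List.dropLast_concat]))
  · exact Or.inr (toWord_injective (by rw [ha, h, List.dropLast_concat]))

lemma hull_step {b γ : Γ} {k : I} (h : ¬ (side b γ ↔ side b (γ * gI k))) :
    hullEd b γ (.inl k.1) ∨ hullEd b (γ * hy k.1) (.inr (.inl (pt k.1 k.2))) ∨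
      hullEd b (γ * hy k.1 * hx (pt k.1 k.2)) (.inr (.inr k.1)) := by
  by_contra hc
  simp only [not_or] at hc
  have h1 := mt (prefix_step b γ (.inl k.1)) hc.1
  have h2 := mt (prefix_step b _ _) hc.2.1
  have h3 := mt (prefix_step b _ _) hc.2.2
  rw [not_not] at h1 h2 h3
  exact h (by simpa only [side, gI, mul_assoc] using h1.trans (h2.trans h3))

lemma hull_cross {b h : Γ} (hh : h ∈ H) : ∀ p : Γ, ¬ (side b p ↔ side b (p * h)) →
    ∃ (γ : Γ) (k : I), (γ : Γ ⧸ H) = p ∧ ¬ (side b γ ↔ side b (γ * gI k)) := by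
  induction hh using Subgroup.closure_induction with
  | mem x hx =>
    obtain ⟨k, rfl⟩ := hx
    exact fun p hp => ⟨p, k, rfl, hp⟩
  | one => simp
  | mul x y hx _ ihx ihy =>
    intro p hp
    by_cases h1 : side b p ↔ side b (p * x)
    · obtain ⟨γ, k, h2, h3⟩ := ihy (p * x) (by rwa [← h1, mul_assoc])
      exact ⟨γ, k, h2.trans (QuotientGroup.mk_mul_of_mem p hx), h3⟩
    · exact ihx p h1
  | inv x hx ih =>
    intro p hp
    obtain ⟨γ, k, h2, h3⟩ := ih (p * x⁻¹) (by rw [inv_mul_cancel_right]; tauto)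
    exact ⟨γ, k, h2.trans (QuotientGroup.mk_mul_of_mem p (H.inv_mem hx)), h3⟩

/-- The edge from `s` with label `j` lies in the hull of `K`. -/
def hullIn (K : Γ ⧸ H) (s : Γ) : J → Prop
  | .inl _ => (s : Γ ⧸ H) = K
  | .inr (.inl q) => ∃ l x, pt l x = q ∧ ((s * (hy l)⁻¹ : Γ) : Γ ⧸ H) = K
  | .inr (.inr l) => ((s * hz l : Γ) : Γ ⧸ H) = K

lemma hull_in {b p p' : Γ} (h : (p : Γ ⧸ H) = p') (hs : ¬ (side b p ↔ side b p')) :
    ∃ s j, hullEd b s j ∧ hullIn p s j := by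
  obtain ⟨γ, k, h1, h2⟩ := hull_cross (QuotientGroup.eq.1 h) p (by rwa [mul_inv_cancel_left])
  rcases hull_step h2 with h3 | h3 | h3
  · exact ⟨_, _, h3, h1⟩
  · exact ⟨_, _, h3, k.1, k.2, rfl, by rwa [mul_inv_cancel_right]⟩
  · refine ⟨_, _, h3, ((congrArg _ ?_).trans
      (QuotientGroup.mk_mul_of_mem γ (hull_gI_mem k))).trans h1⟩
    simp only [gI, mul_assoc]

lemma hull_xx {a s s' : Γ} {q q' l l' : Ln} (ha : a = s ∨ a = s * hx q)
    (ha' : a = s' ∨ a = s' * hx q')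
    (h : ((s * (hy l)⁻¹ : Γ) : Γ ⧸ H) = (s' * (hy l')⁻¹ : Γ)) : l = l' ∧ (q = q' → s = s') := by
  have h1 := hull_ty_mul (QuotientGroup.eq.1 h)
  have h2 := h1 (hy l')
  have h3 := h1 (hy l' * hx q')
  rw [hull_ty_y] at h2
  rw [hull_ty_yx] at h3
  have h4 := hull_ty_y l
  have h5 := hull_ty_yx l q
  simp only [mul_inv_rev, inv_inv, mul_assoc, inv_mul_cancel_left, inv_mul_cancel, mul_one]
    at h2 h3
  rcases ha with rfl | rfl <;> rcases ha' with h6 | h6
  · rw [← h6, inv_mul_cancel, mul_one, h4] at h2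
    exact ⟨by simpa using h2, fun _ => h6⟩
  · rw [← h6, inv_mul_cancel, mul_one, h4] at h3
    simp at h3
  · rw [← h6, inv_mul_cancel_left, h5] at h2
    simp at h2
  · rw [← h6, inv_mul_cancel_left, h5] at h3
    exact ⟨by simpa using h3, fun h7 => mul_right_cancel (h7 ▸ h6)⟩

lemma hull_line {l m : Ln} {x x' w w' : F29} (h : pt l x = pt m w) (h' : pt l x' = pt m w')
    (hne : pt l x ≠ pt l x') : l = m := by
  have : Fact (Nat.Prime 29) := ⟨by norm_num⟩
  obtain ⟨rfl, h1⟩ := Prod.mk.inj h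
  obtain ⟨rfl, h2⟩ := Prod.mk.inj h'
  have h3 : x - x' ≠ 0 := fun h3 => hne (by rw [sub_eq_zero.1 h3])
  have h4 : l.1 = m.1 := mul_right_cancel₀ h3 (by linear_combination h1 - h2)
  exact Prod.ext h4 (by rw [h4] at h1; exact add_left_cancel h1)

lemma hull_major {a b s s' : Γ} {j j' : J} (ha : a.toWord = b.toWord.dropLast)
    (hb : hullEd b s j) (ha' : hullEd a s' j') {K K' : Γ ⧸ H} (h1 : hullIn K s j)
    (h2 : hullIn K s' j') (h3 : hullIn K' s j) (h4 : hullIn K' s' j') : K = K' := by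
  rcases j with l | q | l
  · exact h1.symm.trans h3
  · rcases j' with l' | q' | l'
    · exact h2.symm.trans h4
    · obtain ⟨l₁, x₁, e₁, h1⟩ := h1
      obtain ⟨l₂, x₂, e₂, h2⟩ := h2
      obtain ⟨l₃, x₃, e₃, h3⟩ := h3
      obtain ⟨l₄, x₄, e₄, h4⟩ := h4
      have h5 := hull_ed_parent hb ha
      have h6 : a = s' ∨ a = s' * hx q' := ha'.symm.imp And.left And.left
      obtain ⟨rfl, h7⟩ := hull_xx h5 h6 (h1.trans h2.symm)
      obtain ⟨rfl, -⟩ := hull_xx h5 h6 (h3.trans h4.symm)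
      have h8 : q ≠ q' := by
        rintro rfl
        obtain rfl := h7 rfl
        rw [hull_ed_eq ha' hb] at ha
        have := congrArg List.length ha
        rcases hb with ⟨-, hb⟩ | ⟨-, hb⟩ <;> simp [hb] at this
      obtain rfl := hull_line (e₁.trans e₃.symm) (e₂.trans e₄.symm) (by rwa [e₁, e₂])
      exact h1.symm.trans h3
    · exact h2.symm.trans h4
  · exact h1.symm.trans h3

lemma hull_not_minor {a b p p' : Γ} (ha : a.toWord = b.toWord.dropLast) (h : (p : Γ ⧸ H) = p')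
    (hs : ¬ (side b p ↔ side b p')) (hm : ¬ minor b p) :
    ∃ s j, hullEd a s j ∧ hullIn p s j := by
  obtain ⟨p₁, p₂, h1, h2, h3, h4⟩ : ∃ p₁ p₂ : Γ, (p₁ : Γ ⧸ H) = p ∧ (p₂ : Γ ⧸ H) = p ∧
      side b p₁ ∧ ¬ side b p₂ := by
    by_cases h1 : side b p
    · exact ⟨p, p', rfl, h.symm, h1, by tauto⟩
    · exact ⟨p', p, h.symm, rfl, by tauto, h1⟩
  obtain ⟨p₀, h5, h6⟩ : ∃ p₀ : Γ, (p₀ : Γ ⧸ H) = p ∧ ¬ b.toWord.dropLast <+: p₀.toWord := by
    by_contra hc
    push Not at hc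
    exact hm ⟨⟨p₁, p₂, h1, h2, h3, h4⟩, hc⟩
  rw [← h1]
  refine hull_in (h1.trans h5.symm) fun h7 => h6 (ha ▸ h7.1 ?_)
  exact (ha ▸ List.dropLast_prefix _ : a.toWord <+: b.toWord).trans h3

lemma hull_word (l q : Ln) : (hy l * hx q).toWord = [(.inl l, true), (.inr (.inl q), true)] := by
  simp [toWord_mul]

/-- A coset is minor for a bounded number of edges. -/
lemma minor_card : ∃ m₀ : ℕ, ∀ K : Γ ⧸ H, ∃ s : Finset Γ, s.card ≤ m₀ ∧ ∀ b, minor b K → b ∈ s := by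
  obtain ⟨U, hU⟩ : ∃ U : Finset (J × Bool), ∀ a, a ∈ U := ⟨Finset.univ, Finset.mem_univ⟩
  refine ⟨U.card, fun K => ?_⟩
  have key : ∀ b b', minor b K → minor b' K →
      b'.toWord.dropLast.length ≤ b.toWord.dropLast.length := by
    rintro b b' ⟨⟨p, p', h1, h2, h3, h4⟩, -⟩ ⟨-, h5⟩
    have : ¬ b.toWord.length ≤ b'.toWord.dropLast.length := fun h =>
      h4 ((List.prefix_of_prefix_length_le h3 (h5 p h1) h).trans (h5 p' h2))
    rw [List.length_dropLast (xs := b.toWord)]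
    omega
  by_cases h : ∃ b₀, minor b₀ K
  · obtain ⟨b₀, h₀⟩ := h
    refine ⟨U.image fun a : J × Bool => mk (b₀.toWord.dropLast ++ [a]),
      Finset.card_image_le, fun b hb => ?_⟩
    have h1 := le_antisymm (key _ _ hb h₀) (key _ _ h₀ hb)
    obtain ⟨⟨p, p', h2, -, -, h3⟩, h4⟩ := hb
    have h5 : b₀.toWord.dropLast = b.toWord.dropLast :=
      (List.prefix_of_prefix_length_le (h₀.2 p h2) (h4 p h2) h1.le).eq_of_length h1
    have h6 : b.toWord ≠ [] := fun h => h3 (by simp [side, h])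
    exact Finset.mem_image.2 ⟨b.toWord.getLast h6, hU _, by
      rw [h5, List.dropLast_append_getLast, mk_toWord]⟩
  · exact ⟨∅, by simp only [Finset.card_empty, Nat.zero_le], fun b hb => absurd ⟨b, hb⟩ h⟩

/-- All cosets that cross an edge but one are minor for it. -/
lemma major_unique (b : Γ) : ∃ K : Γ ⧸ H, ∀ p p' : Γ, (p : Γ ⧸ H) = (p' : Γ ⧸ H) →
    (p : Γ ⧸ H) ≠ K → ¬ (side b p ↔ side b p') → minor b (p : Γ ⧸ H) := by
  have ha : (mk b.toWord.dropLast).toWord = b.toWord.dropLast := by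
    rw [toWord_mk, (isReduced_toWord.infix (List.dropLast_prefix _).isInfix).reduce_eq]
  by_cases h : ∃ p p' : Γ, (p : Γ ⧸ H) = p' ∧ ¬ (side b p ↔ side b p') ∧ ¬ minor b p
  · obtain ⟨q, q', h1, h2, h3⟩ := h
    refine ⟨q, fun p p' h4 h5 h6 => by_contra fun h7 => h5 ?_⟩
    obtain ⟨s₁, j₁, e₁, f₁⟩ := hull_in h1 h2
    obtain ⟨s₂, j₂, e₂, f₂⟩ := hull_not_minor ha h1 h2 h3
    obtain ⟨s₃, j₃, e₃, f₃⟩ := hull_in h4 h6
    obtain ⟨s₄, j₄, e₄, f₄⟩ := hull_not_minor ha h4 h6 h7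
    obtain ⟨rfl, rfl⟩ := hull_ed_inj e₁ e₃
    obtain ⟨rfl, rfl⟩ := hull_ed_inj e₂ e₄
    exact hull_major ha e₁ e₂ f₃ f₄ f₁ f₂
  · exact ⟨(1 : Γ), fun p p' h4 _ h6 => by_contra fun h7 => h ⟨p, p', h4, h6, h7⟩⟩

lemma fj_one (j : I) : fj j 1 = 0 := by
  simp [fj, side, hull_word]

open Classical in
lemma fj_step (j k : I) (γ : Γ) :
    fj j (γ * gI k) - fj j γ = if γ = 1 ∧ k = j then 1 else 0 := by
  split_ifs with h
  · obtain ⟨rfl, rfl⟩ := h
    have : side (hy k.1 * hx (pt k.1 k.2)) (gI k) := by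
      simp [side, gI, toWord_mul]
    rw [fj_one, one_mul, fj, if_pos ⟨hull_gI_mem k, this⟩, sub_zero]
  · rw [sub_eq_zero, fj, fj]
    refine if_congr ?_ rfl rfl
    rw [H.mul_mem_cancel_right (hull_gI_mem k)]
    refine and_congr_right fun hγ => (by_contra fun hc => h ?_ : _ ↔ _).symm
    have h1 : hullEd (hy j.1 * hx (pt j.1 j.2)) (hy j.1) (.inr (.inl (pt j.1 j.2))) :=
      Or.inl ⟨rfl, by simp [hull_word]⟩
    rcases hull_step hc with h2 | h2 | h2
    · simpa using (hull_ed_inj h1 h2).2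
    · obtain ⟨h3, h4⟩ := hull_ed_inj h1 h2
      have h5 := hull_ty_mul hγ (hy k.1)
      rw [← h3, hull_ty_y, hull_ty_y] at h5
      have h6 : j.1 = k.1 := by simpa using h5
      have h7 : pt j.1 j.2 = pt k.1 k.2 := by simpa using h4
      rw [h6] at h3
      exact ⟨by simpa using h3, Prod.ext h6.symm (congrArg Prod.fst h7).symm⟩
    · simpa using (hull_ed_inj h1 h2).2

lemma fj_norm (j : I) {γ γ' : Γ} (hγ : γ ∈ H) (hγ' : γ' ∈ H) (h : fj j γ ≠ fj j γ') :
    γ.norm + γ'.norm ≤ (γ⁻¹ * γ').norm + 4 := by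
  have h1 : (hy j.1 * hx (pt j.1 j.2)).norm = 2 := by simp [FreeGroup.norm, hull_word]
  unfold fj at h
  by_cases h2 : side (hy j.1 * hx (pt j.1 j.2)) γ <;>
    by_cases h3 : side (hy j.1 * hx (pt j.1 j.2)) γ'
  · exact absurd (by rw [if_pos ⟨hγ, h2⟩, if_pos ⟨hγ', h3⟩]) h
  · have := norm_add_le_of_sep _ _ _ h2 h3
    omega
  · have := norm_add_le_of_sep _ _ _ h3 h2
    rw [← norm_inv_eq (x := γ'⁻¹ * γ), mul_inv_rev, inv_inv] at this
    omega
  · exact absurd (by rw [if_neg fun h => h2 h.2, if_neg fun h => h3 h.2]) h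

end Crest.Agent.R89
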