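import Crest.Agent.R89.Defs

/-! Row 89: cumulant-like coefficients of chains. -/

set_option autoImplicit false

namespace Crest.Agent.R89

section sums
variable {X : Type}

/-- Sum over the sublists. -/
def kapSm (f : List X → ℤ) (l : List X) : ℤ := (l.sublists'.map f).sum

@[simp] lemma kapSm_nil (f : List X → ℤ) : kapSm f [] = f [] := by simp [kapSm]

lemma kapSm_cons (f : List X → ℤ) (x : X) (l : List X) :
    kapSm f (x :: l) = kapSm f l + kapSm (fun V => f (x :: V)) l := by
  simp [kapSm, Function.comp_def]

lemma kapSm_add (f g : List X → ℤ) (l : List X) :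
    kapSm (fun V => f V + g V) l = kapSm f l + kapSm g l := List.sum_map_add

lemma kapSm_mul (c : ℤ) (f : List X → ℤ) (l : List X) :
    kapSm (fun V => c * f V) l = c * kapSm f l := List.sum_map_mul_left ..

lemma kapSm_sub (f g : List X → ℤ) (l : List X) :
    kapSm (fun V => f V - g V) l = kapSm f l - kapSm g l := by
  have := kapSm_add (fun V => f V - g V) g l
  simp only [sub_add_cancel] at this
  exact eq_sub_of_add_eq this.symm

lemma kapSm_concat (x : X) (l : List X) : ∀ f : List X → ℤ,
    kapSm f (l ++ [x]) = kapSm f l + kapSm (fun V => f (V ++ [x])) l := by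
  induction l with
  | nil => intro f; simp [kapSm_cons]
  | cons y l ih => intro f; simp only [List.cons_append, kapSm_cons, ih]; ring

lemma kapSm_zero {f : List X → ℤ} {l : List X} (h : ∀ V : List X, V.length ≤ l.length → f V = 0) :
    kapSm f l = 0 :=
  List.sum_eq_zero fun z hz => by
    obtain ⟨V, hV, rfl⟩ := List.mem_map.1 hz
    exact h V (List.mem_sublists'.1 hV).length_le

lemma kapSm_top (l : List X) : ∀ f : List X → ℤ, (∀ V : List X, V.length < l.length → f V = 0) →
    kapSm f l = f l := by
  induction l with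
  | nil => intro f _; simp
  | cons x l ih =>
    intro f h
    rw [kapSm_cons, kapSm_zero fun V hV => h V (Nat.lt_succ_of_le hV),
      ih (fun V => f (x :: V)) fun V hV => h _ (Nat.succ_lt_succ hV), zero_add]

/-- Sum over the splittings. -/
def kapCv (f g : List X → ℤ) (l : List X) : ℤ :=
  ∑ i ∈ Finset.range (l.length + 1), f (l.take i) * g (l.drop i)

@[simp] lemma kapCv_nil (f g : List X → ℤ) : kapCv f g [] = f [] * g [] := by simp [kapCv]

lemma kapCv_cons (f g : List X → ℤ) (x : X) (l : List X) :
    kapCv f g (x :: l) = f [] * g (x :: l) + kapCv (fun V => f (x :: V)) g l := by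
  rw [kapCv, List.length_cons, Finset.sum_range_succ', add_comm]
  rfl

lemma kapCv_add (f f' g : List X → ℤ) (l : List X) :
    kapCv (fun V => f V + f' V) g l = kapCv f g l + kapCv f' g l := by
  simp [kapCv, add_mul, Finset.sum_add_distrib]

lemma kapSm_cv (g : List X → ℤ) (l : List X) : ∀ f : List X → ℤ,
    (∀ A x B, l = A ++ x :: B → kapSm f A = 1 ∨ ∀ U, g (x :: U) = 0) →
    kapSm (kapCv f g) l = kapSm f l * g [] + kapSm g l - g [] := by
  induction l with
  | nil => intro f _; simp
  | cons x l ih =>
    intro f h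
    have h1 := ih (fun V => f V + f (x :: V)) fun A y B e => by
      rw [kapSm_add, ← kapSm_cons]
      exact h (x :: A) y B (by rw [e]; rfl)
    rw [funext (kapCv_add _ _ _), kapSm_add, kapSm_add] at h1
    simp only [kapSm_cons, kapCv_cons, kapSm_add, kapSm_mul]
    rcases h [] x l rfl with h2 | h2
    · rw [kapSm_nil] at h2
      rw [h2]
      linear_combination h1
    · rw [kapSm_zero (f := fun V => g (x :: V)) fun V _ => h2 V]
      linear_combination h1

end sums

variable {P L : Type} (lab : P → L)

open scoped Classical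

/-- The coefficient of an open chain. -/
noncomputable def kapR : List (P × P) → ℤ
  | [] => 1
  | e :: l => kapR l - ∑ i ∈ Finset.range (l.length + 1),
      (if lab (lastT e.2 (l.take i)) = lab e.1 then kapR (l.take i) else 0) * kapR (l.drop i)
termination_by l => l.length
decreasing_by all_goals (simp; try omega)

lemma kapR_nil : kapR lab [] = 1 := by rw [kapR]

lemma kapR_cons (e : P × P) (l : List (P × P)) : kapR lab (e :: l) = kapR lab l -
    ∑ i ∈ Finset.range (l.length + 1), (if lab (lastT e.2 (l.take i)) = lab e.1 then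
      kapR lab (l.take i) else 0) * kapR lab (l.drop i) := by
  rw [kapR]

lemma kapR_bound (l : List (P × P)) : |kapR lab l| ≤ 2 ^ l.length * catalan l.length := by
  induction hn : l.length using Nat.strong_induction_on generalizing l with
  | _ n ih =>
  cases l with
  | nil => subst hn; simp [kapR_nil]
  | cons e l =>
    subst hn
    have h1 : (catalan (l.length + 1) : ℤ) =
        ∑ i ∈ Finset.range (l.length + 1), (catalan i : ℤ) * catalan (l.length - i) := by
      rw [catalan_succ, Finset.sum_range]; push_cast; rfl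
    have h2 : (catalan l.length : ℤ) ≤ catalan (l.length + 1) := by
      simpa [h1] using Finset.single_le_sum (f := fun i => (catalan i : ℤ) * catalan (l.length - i))
        (fun _ _ => by positivity) (Finset.mem_range.2 l.length.succ_pos)
    rw [kapR_cons, List.length_cons, pow_succ, mul_assoc, two_mul, mul_add]
    refine (abs_sub _ _).trans (add_le_add ((ih _ (by simp) l rfl).trans (by gcongr))
      ((Finset.abs_sum_le_sum_abs _ _).trans ?_))
    rw [h1, Finset.mul_sum]
    refine Finset.sum_le_sum fun i hi => ?_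
    have hi := Nat.lt_succ_iff.1 (Finset.mem_range.1 hi)
    have h3 := ih i (by simp; omega) (l.take i) (by simp [hi])
    have h4 := ih (l.length - i) (by simp) (l.drop i) (by simp)
    rw [abs_mul]
    calc _ ≤ (2 : ℤ) ^ i * catalan i * (2 ^ (l.length - i) * catalan (l.length - i)) := by
          gcongr
          split_ifs
          exacts [h3, by simp]
      _ = _ := by rw [mul_mul_mul_comm, ← pow_add, Nat.add_sub_cancel' hi]

lemma kapR_le (l : List (P × P)) : |kapR lab l| ≤ 8 ^ l.length := by
  refine (kapR_bound lab l).trans ?_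
  have h1 : catalan l.length ≤ 2 ^ (2 * l.length) := by
    rw [catalan_eq_centralBinom_div]
    exact (Nat.div_le_self _ _).trans (Nat.choose_le_two_pow _ _)
  calc (2 : ℤ) ^ l.length * catalan l.length ≤ 2 ^ l.length * 2 ^ (2 * l.length) := by
        gcongr; exact_mod_cast h1
    _ = _ := by rw [pow_mul, ← mul_pow]; norm_num

variable {lab}

lemma kap_lastT_append (A B : List (P × P)) : ∀ p, lastT p (A ++ B) = lastT (lastT p A) B := by
  induction A with
  | nil => intro; rfl
  | cons e A ih => intro; exact ih _

lemma kap_jmp_append (A B : List (P × P)) :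
    ∀ p, jmp p (A ++ B) = jmp p A ++ jmp (lastT p A) B := by
  induction A with
  | nil => intro; rfl
  | cons e A ih => intro p; simp only [List.cons_append, jmp, lastT, ih]

lemma kap_ch_last {l : List (P × P)} : ∀ {p : P} {b : L}, Ch lab (lab p) l b →
    lab (lastT p l) = b := by
  induction l with
  | nil => exact id
  | cons e l ih => exact fun h => ih h.2

lemma kap_ch_append {A B : List (P × P)} : ∀ {a b : L},
    Ch lab a (A ++ B) b ↔ ∃ c, Ch lab a A c ∧ Ch lab c B b := by
  induction A with
  | nil => simp [Ch]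
  | cons e A ih => simp [Ch, ih, and_assoc]

lemma kap_ch_split {l : List (P × P)} {p : P} {b : L} (h : Ch lab (lab p) l b) (i : ℕ) :
    Ch lab (lab p) (l.take i) (lab (lastT p (l.take i))) ∧
      Ch lab (lab (lastT p (l.take i))) (l.drop i) b := by
  rw [← l.take_append_drop i] at h
  obtain ⟨c, h1, h2⟩ := kap_ch_append.1 h
  rw [kap_ch_last h1]
  exact ⟨h1, h2⟩

/-- `kapR` vanishes on closed nonempty chains. -/
lemma kapR_closed (l : List (P × P)) : ∀ a, l ≠ [] → Ch lab a l a → kapR lab l = 0 := by
  induction hn : l.length using Nat.strong_induction_on generalizing l with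
  | _ n ih =>
  rintro a hl h
  obtain ⟨e, l, rfl⟩ := List.exists_cons_of_ne_nil hl
  subst hn
  obtain ⟨rfl, h⟩ := h
  rw [kapR_cons, Finset.sum_range_succ, Finset.sum_eq_zero]
  · simp [kap_ch_last h, kapR_nil]
  · intro i hi
    split_ifs with h1
    · rw [ih _ (by simp) (l.drop i) rfl (lab e.1) (by simpa using hi)
        (h1 ▸ (kap_ch_split h i).2), mul_zero]
    · exact zero_mul _

/-- `kapR` on the chains from `a` to `b`. -/
noncomputable def kapC (lab : P → L) (a b : L) (V : List (P × P)) : ℤ :=
  if Ch lab a V b then kapR lab V else 0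

lemma kapC_cons (b : L) (e : P × P) (V : List (P × P)) : kapC lab (lab e.1) b (e :: V) =
    kapC lab (lab e.2) b V - kapCv (kapC lab (lab e.2) (lab e.1)) (kapC lab (lab e.1) b) V := by
  unfold kapC kapCv
  simp only [Ch, true_and]
  split_ifs with h
  · rw [kapR_cons]
    congr 1
    refine Finset.sum_congr rfl fun i _ => ?_
    have h1 := kap_ch_split h i
    by_cases h2 : lab (lastT e.2 (V.take i)) = lab e.1
    · rw [h2] at h1
      rw [if_pos h2, if_pos h1.1, if_pos h1.2]
    · rw [if_neg h2, if_neg fun h3 => h2 (kap_ch_last h3), zero_mul, zero_mul]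
  · rw [Finset.sum_eq_zero, sub_zero]
    intro i _
    split_ifs with h1 h2
    · exact absurd (V.take_append_drop i ▸ kap_ch_append.2 ⟨_, h1, h2⟩) h
    all_goals simp

lemma kap_vis {l : List (P × P)} : ∀ {a b : L}, Ch lab a l b → b = a ∨ ∃ e ∈ l, lab e.2 = b := by
  induction l with
  | nil => exact fun h => Or.inl h.symm
  | cons e l ih => exact fun h => Or.inr (by simpa [eq_comm] using ih h.2)

lemma kap_theta (l : List (P × P)) : ∀ a b b', Ch lab a l b →
    kapSm (kapC lab a b') l = if b' = a ∨ ∃ e ∈ l, lab e.2 = b' then 1 else 0 := by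
  induction hn : l.length using Nat.strong_induction_on generalizing l with
  | _ n ih =>
  intro a b b' h
  cases l with
  | nil => simp [kapC, Ch, kapR_nil, eq_comm]
  | cons e l =>
    subst hn
    obtain ⟨rfl, h⟩ := h
    rw [kapSm_cons, funext (kapC_cons b' e), kapSm_sub, kapSm_cv, ih _ (by simp) l rfl _ _ _ h,
      ih _ (by simp) l rfl _ _ _ h]
    · simp only [kapC, Ch, kapR_nil, List.mem_cons, exists_eq_or_imp, eq_comm (a := lab e.2)]
      by_cases h1 : lab e.1 = b'
      · subst h1
        simp only [true_or, if_true]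
        ring
      · simp [h1, Ne.symm h1]
    · rintro A x B rfl
      obtain ⟨c, h1, rfl, -⟩ := kap_ch_append.1 h
      by_cases h2 : lab x.1 = lab e.1
      · left
        rw [ih _ (by simp) A rfl _ _ _ h1, if_pos (h2 ▸ kap_vis h1)]
      · exact Or.inr fun U => if_neg fun h3 => h2 h3.1

lemma kap_theta' {l : List (P × P)} {a b : L} (h : Ch lab a l b) : kapSm (kapC lab a b) l = 1 := by
  rw [kap_theta l a b b h, if_pos (kap_vis h)]

/-- Left weights. -/
noncomputable def kapL (lab : P → L) (a : L) (F : P → ℤ) : List (P × P) → ℤ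
  | [] => 0
  | e :: V => if Ch lab a (e :: V) a then kapR lab V * F e.1 else 0

/-- Right weights. -/
noncomputable def kapD (lab : P → L) (a : L) (F : P → ℤ) : List (P × P) → ℤ
  | [] => 0
  | e :: V => if Ch lab a (e :: V) a then kapR lab (e :: V).dropLast * F (lastT e.2 V) else 0

lemma kap_left {a : L} {F : P → ℤ} (hF : ∀ p, F p ≠ 0 → lab p = a) {l : List (P × P)} :
    ∀ {c}, Ch lab c l a → kapSm (kapL lab a F) l = (l.map fun e => F e.1).sum := by
  induction l with
  | nil => intro; simp [kapL]
  | cons e l ih =>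
    rintro c ⟨-, h⟩
    have : (fun V => kapL lab a F (e :: V)) = fun V => F e.1 * kapC lab (lab e.2) a V := by
      funext V
      by_cases h1 : F e.1 = 0
      · simp [kapL, h1]
      · simp [kapL, kapC, Ch, hF _ h1, mul_comm]
    rw [kapSm_cons, ih h, this, kapSm_mul, kap_theta' h]
    simp [add_comm]

lemma kap_right {a : L} {F : P → ℤ} (hF : ∀ p, F p ≠ 0 → lab p = a) {l : List (P × P)} :
    ∀ {c}, Ch lab a l c → kapSm (kapD lab a F) l = (l.map fun e => F e.2).sum := by
  induction l using List.reverseRecOn with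
  | nil => intro; simp [kapD]
  | append_singleton l e ih =>
    intro c h
    obtain ⟨_, h, rfl, -⟩ := kap_ch_append.1 h
    have : (fun V => kapD lab a F (V ++ [e])) = fun V => F e.2 * kapC lab a (lab e.1) V := by
      funext V
      have h2 : kapD lab a F (V ++ [e]) =
          if Ch lab a (V ++ [e]) a then kapR lab V * F e.2 else 0 := by
        cases V with
        | nil => simp [kapD, lastT]
        | cons f V =>
          rw [List.cons_append, kapD, kap_lastT_append, ← List.cons_append, List.dropLast_concat]
          rfl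
      by_cases h1 : F e.2 = 0
      · simp [h2, h1]
      · simp [h2, kapC, kap_ch_append, Ch, hF _ h1, mul_comm]
    rw [kapSm_concat, ih h, this, kapSm_mul, kap_theta' h]
    simp

lemma kap_tele (G : L → ℤ) {l : List (P × P)} : ∀ {a b}, Ch lab a l b →
    (l.map fun e => G (lab e.1)).sum - (l.map fun e => G (lab e.2)).sum = G a - G b := by
  induction l with
  | nil => rintro a b rfl; simp
  | cons e l ih =>
    rintro a b ⟨rfl, h⟩
    simp only [List.map_cons, List.sum_cons]
    linear_combination ih h

lemma kap_rot (l : List (P × P)) : ∀ a, Ch lab a l a → kapR lab l.tail = kapR lab l.dropLast := by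
  classical
  induction hn : l.length using Nat.strong_induction_on generalizing l with
  | _ n ih =>
  intro a h
  subst hn
  have hF : ∀ p, (if lab p = a then (1 : ℤ) else 0) ≠ 0 → lab p = a := fun p => by simp
  have h1 := kap_tele (fun c => if c = a then (1 : ℤ) else 0) h
  rw [← kap_left hF h, ← kap_right hF h, ← kapSm_sub, kapSm_top] at h1
  · cases l with
    | nil => rfl
    | cons e l => simpa [kapL, kapD, h, h.1, kap_ch_last h.2, sub_eq_zero] using h1
  · rintro (_ | ⟨e, V⟩) hV
    · simp [kapL, kapD]
    · by_cases h2 : Ch lab a (e :: V) a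
      · simpa [kapL, kapD, h2, h2.1, kap_ch_last h2.2, sub_eq_zero] using ih _ hV _ rfl a h2
      · simp [kapL, kapD, h2]

section K3
variable {sd : P → Prop} {K : L} {K' : L → Prop}

/-- The statement for open chains. -/
def KapQ (lab : P → L) (sd : P → Prop) (K : L) (K' : L → Prop) (l : List (P × P)) : Prop :=
  ∀ p, Ch lab (lab p) l K → kapR lab l ≠ 0 →
    (jmp p l).countP (fun j => lab j.1 = K ∧ ¬ (sd j.1 ↔ sd j.2)) +
      (if ¬ (sd p ↔ sd (lastT p l)) then 1 else 0) ≤
    (jmp p l).countP (fun j => K' (lab j.1)) + l.countP fun s => ¬ (sd s.1 ↔ sd s.2)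

/-- The statement for closed chains. -/
def KapK (lab : P → L) (sd : P → Prop) (K : L) (K' : L → Prop) (w : List (P × P)) : Prop :=
  ∀ a p, Ch lab a w a → kapR lab w.tail ≠ 0 →
    (jmp (lastT p w) w).countP (fun j => lab j.1 = K ∧ ¬ (sd j.1 ↔ sd j.2)) ≤
    (jmp (lastT p w) w).countP (fun j => K' (lab j.1)) + w.countP fun s => ¬ (sd s.1 ↔ sd s.2)

lemma KapK.rot {e : P × P} {l : List (P × P)} (h : KapK lab sd K K' (l ++ [e])) :
    KapK lab sd K K' (e :: l) := by
  rintro a p ⟨rfl, h1⟩ h2
  have h3 : Ch lab (lab e.2) (l ++ [e]) (lab e.2) := kap_ch_append.2 ⟨_, h1, rfl, rfl⟩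
  have := h _ p h3 (by rwa [kap_rot _ _ h3, List.dropLast_concat])
  simp only [kap_lastT_append, kap_jmp_append, lastT, jmp, List.countP_append, List.countP_cons,
    List.countP_nil, zero_add] at this ⊢
  exact this

lemma kap_jmp_mem {l : List (P × P)} : ∀ {p b}, Ch lab (lab p) l b →
    ∀ j ∈ jmp p l, ∃ f ∈ l, lab f.1 = lab j.1 := by
  induction l with
  | nil => simp [jmp]
  | cons e l ih =>
    intro p b h j hj
    rcases List.mem_cons.1 hj with rfl | hj
    · exact ⟨e, List.mem_cons_self, h.1⟩
    · obtain ⟨f, hf, h1⟩ := ih h.2 j hj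
      exact ⟨f, List.mem_cons_of_mem _ hf, h1⟩

lemma kapK_of_Q {n : ℕ} (hQ : ∀ l : List (P × P), l.length ≤ n → KapQ lab sd K K' l)
    (w : List (P × P)) (hw : w.length ≤ n + 1) : KapK lab sd K K' w := by
  have key : ∀ (f : P × P), lab f.1 = K → ∀ A B : List (P × P), (A ++ f :: B).length ≤ n + 1 →
      KapK lab sd K K' (A ++ f :: B) := fun f hf A => by
    induction A with
    | nil =>
      rintro B hB a p ⟨rfl, h1⟩ h2
      have := hQ B (by simpa using hB) f.2 (hf ▸ h1) h2
      simp only [List.nil_append, lastT, jmp, List.countP_cons, decide_eq_true_eq] at this ⊢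
      split_ifs at this ⊢ <;> first | omega | tauto
    | cons e A ih =>
      intro B hB
      refine KapK.rot (l := A ++ f :: B) ?_
      rw [List.append_assoc]
      exact ih _ (by simp at hB ⊢; omega)
  by_cases h : ∃ f ∈ w, lab f.1 = K
  · obtain ⟨f, hf, h⟩ := h
    obtain ⟨A, B, rfl⟩ := List.append_of_mem hf
    exact key f h A B hw
  · intro a p h1 _
    rw [List.countP_eq_zero.2]
    · exact Nat.zero_le _
    · cases w with
      | nil => simp [jmp]
      | cons e l =>
        intro j hj h2
        obtain ⟨f, hf, h3⟩ := kap_jmp_mem (lab := lab) (by rw [lastT, kap_ch_last h1.2]; exact h1) j hj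
        exact h ⟨f, hf, h3.trans (of_decide_eq_true h2).1⟩

lemma kapQ (hK : ∀ p p', lab p = lab p' → lab p ≠ K → ¬ (sd p ↔ sd p') → K' (lab p)) (n : ℕ) :
    ∀ l : List (P × P), l.length ≤ n → KapQ lab sd K K' l := by
  induction n with
  | zero =>
    intro l hl p _ _
    obtain rfl := List.length_eq_zero_iff.1 (Nat.le_zero.1 hl)
    simp [jmp, lastT]
  | succ n ih =>
    rintro (_ | ⟨e, l⟩) hl p h hR
    · simp [jmp, lastT]
    have hp : lab p ≠ K := fun hp => hR (kapR_closed _ K (by simp) (hp ▸ h))
    have hl : l.length ≤ n := by simpa using hl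
    by_cases h1 : kapR lab l = 0
    · rw [kapR_cons, h1, zero_sub, neg_ne_zero] at hR
      obtain ⟨i, -, hi⟩ := Finset.exists_ne_zero_of_sum_ne_zero hR
      obtain ⟨h2, h3⟩ := kap_ch_split h.2 i
      have h4 := left_ne_zero_of_mul hi
      rw [ne_eq, ite_eq_right_iff, Classical.not_imp] at h4
      have h5 := right_ne_zero_of_mul hi
      rw [h4.1] at h2 h3
      have h6 := l.take_append_drop i
      generalize l.take i = A, l.drop i = B at h2 h3 h4 h5 h6
      subst h6
      cases B with
      | nil => exact absurd (h.1.symm.trans h3) hp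
      | cons f B =>
        have h7 := kapK_of_Q ih (e :: A) (by simp at hl ⊢; omega) _ p ⟨rfl, h2⟩ h4.2
        have h8 := ih (f :: B) (by simp at hl ⊢; omega) p (h.1 ▸ h3) h5
        simp only [kap_lastT_append, kap_jmp_append, lastT, jmp, List.countP_append,
          List.countP_cons, h4.1, h.1, hp, false_and, decide_false, Bool.false_eq_true,
          if_false] at h7 h8 ⊢
        split_ifs at h7 h8 ⊢ <;> omega
    · have h2 := ih l hl e.2 h.2 h1
      have h3 := hK p e.1 h.1.symm hp
      simp only [lastT, jmp, List.countP_cons, decide_eq_true_eq, hp, false_and, if_false] at h2 ⊢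
      split_ifs at h2 ⊢ <;> first | omega | tauto

end K3

theorem kappa {P L : Type} (lab : P → L) : ∃ κ : List (P × P) → ℤ,
    (∀ l, |κ l| ≤ 8 ^ l.length) ∧
    (∀ (a : L) (F : P → ℤ), (∀ p, F p ≠ 0 → lab p = a) → ∀ l, Ch lab a l a →
      (l.sublists'.map (ct lab κ a F)).sum = (l.map fun e => F e.1 - F e.2).sum) ∧
    K3 lab κ := by
  refine ⟨fun l => kapR lab l.tail, fun l => (kapR_le lab _).trans ?_, fun a F hF l h => ?_,
    fun sd K K' hK e l h1 h2 => kapK_of_Q (kapQ hK l.length) (e :: l) le_rfl _ e.2 h1 h2⟩
  · exact pow_le_pow_right₀ (by norm_num) (by simp)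
  · have : ct lab (fun l => kapR lab l.tail) a F = fun V => kapL lab a F V - kapD lab a F V := by
      funext V
      cases V with
      | nil => simp [ct, kapL, kapD]
      | cons e V =>
        by_cases h2 : Ch lab a (e :: V) a
        · simp only [ct, kapL, kapD, if_pos h2, ← kap_rot _ a h2, List.tail_cons, mul_sub]
        · simp [ct, kapL, kapD, h2]
    rw [this]
    refine (kapSm_sub _ _ l).trans ?_
    rw [kap_left hF h, kap_right hF h]
    rw [sub_eq_iff_eq_add, ← List.sum_map_add]
    simp

end Crest.Agent.R89
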