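import Crest.Agent.R89.Defs

/-! Row 89: exact matrix models of finite parts of a free group. -/

set_option autoImplicit false

namespace Crest.Agent.R89

open scoped ComplexConjugate

/-- Free groups are residually finite. -/
lemma exists_finite_quot {α : Type} [Fintype α] [DecidableEq α] (L : ℕ) :
    ∃ (G : Type) (_ : Group G) (_ : Fintype G) (φ : FreeGroup α →* G),
      ∀ γ : FreeGroup α, γ.norm ≤ L → φ γ = 1 → γ = 1 := by
  classical
  have hfin : Finite {g : FreeGroup α // g.norm ≤ L} := by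
    have h := (List.finite_length_le (α × Bool) L).to_subtype
    refine Finite.of_injective (fun g : {g : FreeGroup α // g.norm ≤ L} =>
      (⟨g.1.toWord, g.2⟩ : {l : List (α × Bool) | l.length ≤ L})) fun g g' e => ?_
    exact Subtype.ext (FreeGroup.toWord_injective (congrArg Subtype.val e))
  have hex : ∀ j : α, ∃ σ : Equiv.Perm {g : FreeGroup α // g.norm ≤ L},
      ∀ g g' : {g : FreeGroup α // g.norm ≤ L}, g'.1 = FreeGroup.of j * g.1 → σ g = g' := by
    intro j
    obtain ⟨σ, hσ⟩ := Equiv.Perm.exists_extending_pair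
      (α := {g : {g : FreeGroup α // g.norm ≤ L} // (FreeGroup.of j * g.1).norm ≤ L})
      (fun g => g.1) (fun g => ⟨FreeGroup.of j * g.1.1, g.2⟩) Subtype.val_injective
      fun g g' e => Subtype.ext (Subtype.ext (mul_left_cancel (congrArg Subtype.val e)))
    exact ⟨σ, fun g g' e => (hσ ⟨g, e ▸ g'.2⟩).trans (Subtype.ext e.symm)⟩
  choose σ hσ using hex
  have := Fintype.ofFinite {g : FreeGroup α // g.norm ≤ L}
  refine ⟨Equiv.Perm {g : FreeGroup α // g.norm ≤ L}, inferInstance, inferInstance,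
    FreeGroup.lift σ, fun γ hγ h1 => ?_⟩
  have key : ∀ (l : List (α × Bool)) (hl : l.length ≤ L),
      FreeGroup.lift σ (FreeGroup.mk l) ⟨1, by simp⟩ =
        ⟨FreeGroup.mk l, FreeGroup.norm_mk_le.trans hl⟩ := by
    intro l
    induction l with
    | nil => intro _; exact congrArg (fun π : Equiv.Perm _ => π _) (map_one (FreeGroup.lift σ))
    | cons x l ih =>
      intro hl
      have hl' : l.length ≤ L := (Nat.le_succ _).trans hl
      have e : FreeGroup.mk (x :: l) = FreeGroup.mk [x] * FreeGroup.mk l := by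
        rw [FreeGroup.mul_mk]; rfl
      conv_lhs => rw [e, map_mul, Equiv.Perm.mul_apply, ih hl']
      obtain ⟨j, _ | _⟩ := x
      · have e2 : FreeGroup.mk [(j, false)] = (FreeGroup.of j)⁻¹ := rfl
        rw [e2, map_inv, FreeGroup.lift_apply_of, Equiv.Perm.inv_eq_iff_eq]
        refine (hσ j _ _ ?_).symm
        simp only [e, e2, mul_inv_cancel_left]
      · have e2 : FreeGroup.mk [(j, true)] = FreeGroup.of j := rfl
        rw [e2, FreeGroup.lift_apply_of]
        exact hσ j _ _ (by simp only [e, e2])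
  have h2 := key γ.toWord hγ
  simp only [FreeGroup.mk_toWord, h1] at h2
  exact (congrArg Subtype.val h2).symm

open scoped Matrix.Norms.L2Operator in
theorem model {α : Type} [Fintype α] [DecidableEq α] {n : ℕ} (x : Fin n → FreeGroup α)
    (a : Fin n → ℂ) {A : Type*} [Ring A] [Algebra ℂ A] (τ : A →ₗ[ℂ] ℂ) (u : FreeGroup α →* A)
    (hu : ∀ g, τ (u g) = if g = 1 then 1 else 0) (L N : ℕ) :
    ∃ d : ℕ, N ≤ d ∧ ∃ b : Fin n → Matrix (Fin d) (Fin d) ℂ, (∀ i, (b i).IsHermitian) ∧
      (∀ i, ‖Matrix.toEuclideanCLM (n := Fin d) (𝕜 := ℂ) (b i)‖ ≤ 2 * ‖a i‖) ∧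
      ∀ l : List (Fin n), l.length ≤ L → (d : ℂ)⁻¹ * Matrix.trace (ev b l) =
        τ (ev (fun i => a i • u (x i) + conj (a i) • u (x i)⁻¹) l) := by
  classical
  obtain ⟨M, hM⟩ : ∃ M : ℕ, ∀ i, (x i).norm ≤ M :=
    ⟨∑ i, (x i).norm, fun i => Finset.single_le_sum (f := fun i => (x i).norm)
      (fun _ _ => Nat.zero_le _) (Finset.mem_univ i)⟩
  obtain ⟨G, _, _, φ, hφ⟩ := exists_finite_quot (α := α) (L * M)
  obtain ⟨d, hd⟩ : ∃ d, d = Fintype.card (G × Fin (N + 1)) := ⟨_, rfl⟩
  have hNd : N + 1 ≤ d := by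
    rw [hd, Fintype.card_prod, Fintype.card_fin]
    exact Nat.le_mul_of_pos_left _ Fintype.card_pos
  obtain ⟨e⟩ : Nonempty (G × Fin (N + 1) ≃ Fin d) := ⟨Fintype.equivFinOfCardEq hd.symm⟩
  obtain ⟨π, hπ⟩ : ∃ π : G →* Equiv.Perm (Fin d), ∀ g, g ≠ 1 → ∀ k, π g k ≠ k := by
    refine ⟨⟨⟨fun g => e.permCongr ((MulAction.toPerm g).prodCongr (Equiv.refl _)), ?_⟩, ?_⟩, ?_⟩
    · ext k; simp [Prod.map]
    · intro g h; ext k; simp [Prod.map, mul_assoc]
    · intro g hg k h
      obtain ⟨⟨y, z⟩, rfl⟩ := e.surjective k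
      simp [hg] at h
  obtain ⟨ρ, hρ⟩ : ∃ ρ : FreeGroup α →* Matrix (Fin d) (Fin d) ℂ,
      ∀ g, ρ g = (π (φ g))⁻¹.permMatrix ℂ :=
    ⟨Matrix.permMatrixHom.comp (π.comp φ), fun _ => rfl⟩
  have hstar : ∀ g, (ρ g).conjTranspose = ρ g⁻¹ := fun g => by
    rw [hρ, hρ, Matrix.conjTranspose_permMatrix, map_inv, map_inv]
  have hnorm : ∀ g, ‖ρ g‖ ≤ 1 := fun g => by rw [hρ]; exact Matrix.permMatrix_l2_opNorm_le _
  have htr : ∀ g : FreeGroup α, g.norm ≤ L * M → (d : ℂ)⁻¹ * Matrix.trace (ρ g) = τ (u g) := by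
    intro g hg
    rw [hu]
    split_ifs with h
    · have : (d : ℂ) ≠ 0 := by exact_mod_cast (by omega : d ≠ 0)
      simp [h, this]
    · have h1 : (φ g)⁻¹ ≠ 1 := fun h2 => h (hφ g hg (inv_eq_one.1 h2))
      rw [hρ, Matrix.trace_permutation, ← map_inv,
        show Function.fixedPoints (π (φ g)⁻¹) = ∅ from
          Set.eq_empty_of_forall_notMem fun k hk => hπ _ h1 k hk]
      simp
  refine ⟨d, by omega, fun i => a i • ρ (x i) + conj (a i) • ρ (x i)⁻¹, fun i => ?_, fun i => ?_,
    fun l hl => ?_⟩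
  · simp [Matrix.IsHermitian, hstar, add_comm]
  · rw [Matrix.l2_opNorm_toEuclideanCLM]
    refine (norm_add_le _ _).trans ?_
    rw [norm_smul, norm_smul, Complex.norm_conj]
    nlinarith [mul_le_mul_of_nonneg_left (hnorm (x i)) (norm_nonneg (a i)),
      mul_le_mul_of_nonneg_left (hnorm (x i)⁻¹) (norm_nonneg (a i))]
  · have key : ∀ (l : List (Fin n)) (g : FreeGroup α), g.norm + l.length * M ≤ L * M →
        (d : ℂ)⁻¹ * Matrix.trace (ρ g * ev (fun i => a i • ρ (x i) + conj (a i) • ρ (x i)⁻¹) l) =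
          τ (u g * ev (fun i => a i • u (x i) + conj (a i) • u (x i)⁻¹) l) := by
      intro l
      induction l with
      | nil => intro g hg; simpa using htr g (by simpa using hg)
      | cons i l ih =>
        intro g hg
        rw [List.length_cons, add_mul, one_mul] at hg
        have h1 := ih (g * x i) (by have := FreeGroup.norm_mul_le g (x i); have := hM i; omega)
        have h2 := ih (g * (x i)⁻¹) (by
          have := FreeGroup.norm_mul_le g (x i)⁻¹
          have := hM i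
          rw [FreeGroup.norm_inv_eq] at *
          omega)
        simp only [map_mul, mul_assoc] at h1 h2
        simp only [ev_cons, add_mul, mul_add, smul_mul_assoc, mul_smul_comm, Matrix.trace_add,
          Matrix.trace_smul, map_add, map_smul, smul_eq_mul, ← h1, ← h2]
        ring
    simpa using key l 1 (by simpa using Nat.mul_le_mul_right M hl)

end Crest.Agent.R89
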