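import Crest.Agent.R89.Defs

/-! Row 89: a Gaussian integral after a shear. -/

set_option autoImplicit false

namespace Crest.Agent.R89

open MeasureTheory

lemma shear_inv {ι : Type} [Fintype ι] (hid : ι → Prop) (Q : (ι → ℝ) → ι → ℝ)
    (hQ : Measurable Q) (h0 : ∀ a i, hid i → Q a i = 0)
    (hd : ∀ a a', (∀ i, hid i → a i = a' i) → Q a = Q a') (F : (ι → ℝ) → ENNReal)
    (hF : Measurable F) : ∫⁻ a, F (a - Q a) = ∫⁻ a, F a := by
  classical
  set e := MeasurableEquiv.piEquivPiSubtypeProd (fun _ : ι => ℝ) hid with he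
  have hp : MeasurePreserving e.symm :=
    (volume_preserving_piEquivPiSubtypeProd (fun _ : ι => ℝ) hid).symm e
  have hG : Measurable fun a => F (a - Q a) := hF.comp (measurable_id.sub hQ)
  rw [← hp.lintegral_comp hG, ← hp.lintegral_comp hF, Measure.volume_eq_prod,
    lintegral_prod (fun a => F (e.symm a - Q (e.symm a))) (hG.comp e.symm.measurable).aemeasurable,
    lintegral_prod (fun a => F (e.symm a)) (hF.comp e.symm.measurable).aemeasurable]
  refine lintegral_congr fun x => ?_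
  rw [← lintegral_sub_right_eq_self (fun y => F (e.symm (x, y)))
    (fun i => Q (e.symm (x, 0)) i)]
  refine lintegral_congr fun y => ?_
  have ev : ∀ (y : {i // ¬ hid i} → ℝ) i, e.symm (x, y) i =
      if h : hid i then x ⟨i, h⟩ else y ⟨i, h⟩ := fun _ _ => rfl
  have h1 : Q (e.symm (x, y)) = Q (e.symm (x, 0)) :=
    hd _ _ fun i hi => by rw [ev, ev, dif_pos hi, dif_pos hi]
  congr 1
  funext i
  rw [Pi.sub_apply, h1, ev y, ev (y - _)]
  by_cases hi : hid i
  · rw [dif_pos hi, dif_pos hi, h0 _ _ hi, sub_zero]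
  · rw [dif_neg hi, dif_neg hi, Pi.sub_apply]

theorem shear_gauss {ι : Type} [Fintype ι] (hid : ι → Prop) (Q : (ι → ℝ) → ι → ℝ)
    (hQ : Measurable Q) (h0 : ∀ a i, hid i → Q a i = 0)
    (hd : ∀ a a', (∀ i, hid i → a i = a' i) → Q a = Q a') (lam : ι → ℝ) (hl : ∀ i, 0 < lam i) :
    ∫⁻ a : ι → ℝ, ENNReal.ofReal (Real.exp (-∑ i, lam i * (a i - Q a i) ^ 2)) =
      ENNReal.ofReal (∏ i, Real.sqrt (Real.pi / lam i)) := by
  have h1 := shear_inv hid Q hQ h0 hd
    (fun a => ENNReal.ofReal (Real.exp (-∑ i, lam i * a i ^ 2))) (by fun_prop)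
  simp only [Pi.sub_apply] at h1
  rw [h1]
  have e : ∀ a : ι → ℝ, Real.exp (-∑ i, lam i * a i ^ 2) = ∏ i, Real.exp (-lam i * a i ^ 2) := by
    intro a
    rw [← Real.exp_sum, ← Finset.sum_neg_distrib]
    simp only [neg_mul]
  simp only [e]
  rw [volume_pi, ← ofReal_integral_eq_lintegral_ofReal
    (Integrable.fintype_prod (f := fun i x => Real.exp (-lam i * x ^ 2))
      fun i => integrable_exp_neg_mul_sq (hl i))
    (ae_of_all _ fun a => Finset.prod_nonneg fun i _ => (Real.exp_pos _).le)]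
  congr 1
  rw [integral_fintype_prod_eq_prod (fun i x => Real.exp (-lam i * x ^ 2))]
  simp only [integral_gaussian]

end Crest.Agent.R89
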