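import Crest.Agent.R89.Defs

/-! Row 89: the Cayley tree of a free group. -/

set_option autoImplicit false

namespace Crest.Agent.R89

open FreeGroup

variable {α : Type} [DecidableEq α]

lemma tree_step (γ : FreeGroup α) (j : α) : (γ * of j).toWord = γ.toWord ++ [(j, true)] ∨
    γ.toWord = (γ * of j).toWord ++ [(j, false)] := by
  by_cases h : ∃ L, γ.toWord = L ++ [(j, false)]
  · obtain ⟨L, hL⟩ := h
    have h1 : IsReduced L := isReduced_toWord.infix (hL ▸ (List.prefix_append _ _).isInfix)
    have h2 : γ * of j = mk L := by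
      rw [← mk_toWord (x := γ), hL, ← mul_mk, mul_assoc]
      change mk L * ((of j)⁻¹ * of j) = mk L
      simp
    exact Or.inr (by rw [h2, toWord_mk, h1.reduce_eq, hL])
  · refine Or.inl ?_
    rw [toWord_mul, toWord_of]
    refine IsReduced.reduce_eq (List.isChain_append.2 ⟨isReduced_toWord, by simp, ?_⟩)
    rintro ⟨x, b⟩ hx y hy
    obtain rfl : (j, true) = y := by simpa using hy
    rintro rfl
    cases b
    · exact absurd (List.getLast?_eq_some_iff.1 hx) h
    · rfl

omit [DecidableEq α] in
lemma tree_split {β : Type} (P : List β) : ∀ P' : List β, ∃ c u u', P = c ++ u ∧ P' = c ++ u' ∧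
    ∀ x ∈ u.head?, ∀ y ∈ u'.head?, x ≠ y := by
  induction P with
  | nil => exact fun P' => ⟨[], [], P', rfl, rfl, by simp⟩
  | cons a P ih =>
    intro P'
    by_cases h : ∃ Q, P' = a :: Q
    · obtain ⟨Q, rfl⟩ := h
      obtain ⟨c, u, u', rfl, rfl, h⟩ := ih Q
      exact ⟨a :: c, u, u', rfl, rfl, h⟩
    · refine ⟨[], a :: P, P', rfl, rfl, fun x hx y hy hxy => h ?_⟩
      obtain rfl : a = x := by simpa using hx
      subst hxy
      exact List.head?_eq_some_iff.1 hy

/-- The longest common prefix. -/
lemma tree_lcp (p p' : FreeGroup α) : ∃ c : List (α × Bool),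
    (∀ w, w <+: c ↔ w <+: p.toWord ∧ w <+: p'.toWord) ∧
      p.norm + p'.norm = (p⁻¹ * p').norm + 2 * c.length := by
  obtain ⟨c, u, u', h, h', hne⟩ := tree_split p.toWord p'.toWord
  refine ⟨c, fun w => ⟨fun hw => ⟨h ▸ hw.trans (List.prefix_append _ _),
    h' ▸ hw.trans (List.prefix_append _ _)⟩, fun ⟨h1, h2⟩ => ?_⟩, ?_⟩
  · rw [h] at h1
    rw [h'] at h2
    rcases List.prefix_or_prefix_of_prefix h1 (List.prefix_append c u) with h3 | ⟨t, rfl⟩
    · exact h3
    · rw [List.prefix_append_right_inj] at h1 h2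
      cases t with
      | nil => simp
      | cons a t =>
        obtain ⟨v, rfl⟩ := h1
        obtain ⟨v', rfl⟩ := h2
        exact absurd rfl (hne a (by simp) a (by simp))
  · have hu : IsReduced u := isReduced_toWord.infix (h ▸ (List.suffix_append _ _).isInfix)
    have hu' : IsReduced u' := isReduced_toWord.infix (h' ▸ (List.suffix_append _ _).isInfix)
    have h1 : p⁻¹ * p' = mk (invRev u ++ u') := by
      rw [← mk_toWord (x := p), ← mk_toWord (x := p'), h, h', ← mul_mk, ← mul_mk, ← mul_mk,
        ← inv_mk]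
      group
    have h2 : IsReduced (invRev u ++ u') := by
      refine List.isChain_append.2 ⟨IsReduced.of_reduce_eq (by rw [reduce_invRev, hu.reduce_eq]),
        hu', fun x hx y hy hxy => ?_⟩
      cases u with
      | nil => simp at hx
      | cons a u =>
        have h3 := hne a (by simp) y hy
        obtain rfl : (a.1, !a.2) = x := by simpa [invRev] using hx
        obtain ⟨a, b⟩ := a
        obtain ⟨y, b'⟩ := y
        obtain rfl : a = y := hxy
        cases b <;> cases b' <;> simp_all
    simp only [FreeGroup.norm, h1, toWord_mk, h2.reduce_eq, h, h', List.length_append,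
      invRev_length]
    omega

lemma tree_pre {L : List (α × Bool)} (hL : IsReduced L) : ∃ A : Finset (FreeGroup α),
    (∀ b, b ∈ A ↔ b.toWord <+: L) ∧ A.card = L.length + 1 := by
  have h : ∀ i, (mk (L.take i)).toWord = L.take i := fun i => by
    rw [toWord_mk, (hL.infix (List.take_prefix i L).isInfix).reduce_eq]
  refine ⟨(Finset.range (L.length + 1)).image fun i => mk (L.take i), fun b => ?_, ?_⟩
  · simp only [Finset.mem_image, Finset.mem_range]
    constructor
    · rintro ⟨i, -, rfl⟩
      rw [h]
      exact List.take_prefix i L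
    · intro hb
      exact ⟨b.toWord.length, Nat.lt_succ_of_le hb.length_le, by
        rw [← List.prefix_iff_eq_take.1 hb, mk_toWord]⟩
  · rw [Finset.card_image_of_injOn, Finset.card_range]
    intro i hi k hk hik
    have := congrArg (fun g => g.toWord.length) hik
    simp only [h, List.length_take] at this
    simp only [Finset.coe_range, Set.mem_Iio] at hi hk
    omega

/-- A step of the tree changes side only for its own edge. -/
lemma prefix_step (b γ : FreeGroup α) (j : α)
    (h : ¬ (b.toWord <+: γ.toWord ↔ b.toWord <+: (γ * of j).toWord)) :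
    (b = γ * of j ∧ b.toWord = γ.toWord ++ [(j, true)]) ∨
      (b = γ ∧ b.toWord = (γ * of j).toWord ++ [(j, false)]) := by
  rcases tree_step γ j with h1 | h1
  · rw [h1, List.prefix_concat_iff] at h
    have h2 : b.toWord = γ.toWord ++ [(j, true)] := by tauto
    exact Or.inl ⟨toWord_injective (h2.trans h1.symm), h2⟩
  · rw [h1, List.prefix_concat_iff] at h
    have h2 : b.toWord = (γ * of j).toWord ++ [(j, false)] := by tauto
    exact Or.inr ⟨toWord_injective (h2.trans h1.symm), h2⟩

/-- The distance of two points is the number of edges that separate them. -/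
lemma sep_card (p p' : FreeGroup α) : ∃ s : Finset (FreeGroup α),
    (∀ b, b ∈ s ↔ ¬ (b.toWord <+: p.toWord ↔ b.toWord <+: p'.toWord)) ∧
      s.card = (p⁻¹ * p').norm := by
  obtain ⟨c, hc, hn⟩ := tree_lcp p p'
  obtain ⟨A, hA, hA'⟩ := tree_pre (isReduced_toWord (x := p))
  obtain ⟨B, hB, hB'⟩ := tree_pre (isReduced_toWord (x := p'))
  obtain ⟨C, hC, hC'⟩ := tree_pre (isReduced_toWord.infix ((hc c).1 List.prefix_rfl).1.isInfix)
  have h1 : A ∩ B = C := by
    ext b
    rw [Finset.mem_inter, hA, hB, hC, hc]
  refine ⟨A \ B ∪ B \ A, fun b => by simp only [Finset.mem_union, Finset.mem_sdiff, hA, hB]; tauto,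
    ?_⟩
  have h2 := Finset.card_sdiff_add_card_inter A B
  have h3 := Finset.card_sdiff_add_card_inter B A
  rw [Finset.inter_comm] at h3
  rw [Finset.card_union_of_disjoint disjoint_sdiff_sdiff]
  rw [h1] at h2 h3
  simp only [FreeGroup.norm] at hn ⊢
  omega

lemma norm_add_le_of_sep (b γ γ' : FreeGroup α) (h : b.toWord <+: γ.toWord)
    (h' : ¬ b.toWord <+: γ'.toWord) : γ.norm + γ'.norm ≤ (γ⁻¹ * γ').norm + 2 * b.norm := by
  obtain ⟨c, hc, hn⟩ := tree_lcp γ γ'
  have h1 : c.length ≤ b.norm := le_of_not_ge fun h1 =>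
    h' ((hc _).1 (List.prefix_of_prefix_length_le h ((hc c).1 List.prefix_rfl).1 h1)).2
  omega

end Crest.Agent.R89
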