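import Crest.Agent.R89.Herm
import Crest.Agent.R89.Shear

/-! Row 89: upper bound for the microstates entropy. -/

set_option autoImplicit false

namespace Crest.Agent.R89

open Crest.OpAlg MeasureTheory

open Filter Topology in
lemma vu_approx {A : Type*} [Ring A] [Algebra ℂ A] (τ : A →ₗ[ℂ] ℂ) {n : ℕ} (X : Fin n → A)
    (Q : NCPoly n) : ∀ δ : ℝ, 0 < δ → ∀ᶠ q : ℕ × ℝ in atTop ×ˢ 𝓝[>] 0,
      ∀ (d : ℕ) (M : Fin n → Matrix (Fin d) (Fin d) ℂ),
      (∀ w : FreeMonoid (Fin n), (FreeMonoid.toList w).length ≤ q.1 →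
        ‖matrixMoment M w - τ (wordEval X w)‖ < q.2) →
      ‖(d : ℂ)⁻¹ * Matrix.trace (polyEval M Q) - τ (polyEval X Q)‖ ≤ δ := by
  induction Q using MonoidAlgebra.induction_linear with
  | zero => intro δ hδ; simp [polyEval, hδ.le]
  | add P Q hP hQ =>
    intro δ hδ
    filter_upwards [hP _ (half_pos hδ), hQ _ (half_pos hδ)] with q h1 h2 d M h
    have h3 := norm_add_le_of_le (h1 d M h) (h2 d M h)
    rw [add_halves] at h3
    refine le_trans (le_of_eq ?_) h3
    congr 1
    simp only [polyEval, map_add, Matrix.trace_add]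
    ring
  | single w r =>
    intro δ hδ
    have e1 : ∀ᶠ m : ℕ in atTop, (FreeMonoid.toList w).length ≤ m := eventually_ge_atTop _
    have e2 : ∀ᶠ ε : ℝ in 𝓝[>] 0, ε < δ / (‖r‖ + 1) :=
      nhdsWithin_le_nhds (eventually_lt_nhds (by positivity))
    filter_upwards [e1.prod_mk e2] with q hq d M h
    have h1 := (h w hq.1).trans hq.2
    have e : (d : ℂ)⁻¹ * Matrix.trace (polyEval M (MonoidAlgebra.single w r)) -
        τ (polyEval X (MonoidAlgebra.single w r)) = r * (matrixMoment M w - τ (wordEval X w)) := by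
      simp only [polyEval, MonoidAlgebra.lift_single, Matrix.trace_smul, map_smul, smul_eq_mul,
        matrixMoment, wordEval]
      ring
    rw [e, norm_mul]
    rw [lt_div_iff₀ (by positivity)] at h1
    nlinarith [norm_nonneg (matrixMoment M w - τ (wordEval X w))]

lemma vu_continuous {n d : ℕ} (Q : NCPoly n) :
    Continuous fun M : Fin n → Matrix (Fin d) (Fin d) ℂ => polyEval M Q := by
  induction Q using MonoidAlgebra.induction_linear with
  | zero => simpa [polyEval] using continuous_const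
  | add P Q hP hQ =>
    simp only [polyEval, map_add] at hP hQ ⊢
    exact hP.add hQ
  | single w r =>
    simp only [polyEval, MonoidAlgebra.lift_single, FreeMonoid.lift_apply]
    exact (continuous_list_prod _ fun i _ => continuous_apply i).const_smul r

lemma vu_vol {n d : ℕ} (hd0 : 0 < d) (hid : Fin n → Prop) (P : Fin n → NCPoly n)
    (h0 : ∀ i, hid i → P i = 0)
    (hd : ∀ M M' : Fin n → Matrix (Fin d) (Fin d) ℂ, (∀ i, hid i → M i = M' i) →
      ∀ j, polyEval M (P j) = polyEval M' (P j))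
    (hh : ∀ M : Fin n → Matrix (Fin d) (Fin d) ℂ, (∀ i, (M i).IsHermitian) →
      ∀ j, (polyEval M (P j)).IsHermitian)
    (ρ : Fin n → ℝ) (hρ0 : ∀ j, 0 < ρ j) (S : Set (EuclideanSpace ℝ (Fin n × (Fin d × Fin d))))
    (hS : ∀ a ∈ S, ∀ j, ((d : ℂ)⁻¹ * Matrix.trace
      ((matrixTuple a j - polyEval (matrixTuple a) (P j)) *
        (matrixTuple a j - polyEval (matrixTuple a) (P j)))).re ≤ ρ j) :
    volume S ≤ ENNReal.ofReal (Real.exp
      (∑ j, (d : ℝ) ^ 2 * (1 / 2 * Real.log (2 * Real.pi * Real.exp 1 * ρ j / d)))) := by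
  have hd' : (0 : ℝ) < d := by exact_mod_cast hd0
  set Q : (Fin n × (Fin d × Fin d) → ℝ) → Fin n × (Fin d × Fin d) → ℝ :=
    fun a i => coords (polyEval (matrixTuple (WithLp.toLp 2 a)) (P i.1)) i.2 with hQ
  have hQc : Continuous Q := by
    refine continuous_pi fun i => ?_
    have c1 : Continuous fun a : Fin n × (Fin d × Fin d) → ℝ =>
        matrixTuple (WithLp.toLp 2 a) := by
      refine continuous_pi fun l => continuous_herm.comp ?_
      exact (PiLp.continuous_toLp 2 _).comp (continuous_pi fun p => continuous_apply _)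
    exact (PiLp.continuous_apply 2 _ i.2).comp
      (continuous_coords.comp ((vu_continuous (P i.1)).comp c1))
  have key := shear_gauss (fun i : Fin n × (Fin d × Fin d) => hid i.1) Q hQc.measurable
    (fun a i hi => by simp [hQ, h0 _ hi, polyEval, coords_zero])
    (fun a a' h => by
      funext i
      simp only [hQ]
      rw [hd _ (matrixTuple (WithLp.toLp 2 a'))]
      intro l hl
      simp only [matrixTuple]
      congr 2
      funext p
      exact h (l, p) hl)
    (fun i => d / (2 * ρ i.1)) (fun i => by have := hρ0 i.1; positivity)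
  have hm : AEMeasurable (fun a : Fin n × (Fin d × Fin d) → ℝ =>
      ENNReal.ofReal (Real.exp (-∑ i, d / (2 * ρ i.1) * (a i - Q a i) ^ 2))) volume := by
    refine (ENNReal.measurable_ofReal.comp (Continuous.measurable ?_)).aemeasurable
    fun_prop
  have h1 := mul_meas_ge_le_lintegral₀ hm
    (ENNReal.ofReal (Real.exp (-∑ _j : Fin n, (d : ℝ) ^ 2 / 2)))
  rw [key] at h1
  have h2 : volume S ≤ volume {a : Fin n × (Fin d × Fin d) → ℝ |
      ENNReal.ofReal (Real.exp (-∑ _j : Fin n, (d : ℝ) ^ 2 / 2)) ≤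
        ENNReal.ofReal (Real.exp (-∑ i, d / (2 * ρ i.1) * (a i - Q a i) ^ 2))} := by
    rw [← ((EuclideanSpace.volume_preserving_symm_measurableEquiv_toLp
      (Fin n × (Fin d × Fin d))).symm _).measure_preimage_equiv S]
    refine measure_mono fun a ha => ENNReal.ofReal_le_ofReal (Real.exp_le_exp.2 (neg_le_neg ?_))
    rw [Fintype.sum_prod_type]
    refine Finset.sum_le_sum fun j _ => ?_
    have h3 := hS _ ha j
    have h4 := hh (matrixTuple (WithLp.toLp 2 a)) (fun l => herm_isHermitian _) j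
    have e : matrixTuple (WithLp.toLp 2 a) j - polyEval (matrixTuple (WithLp.toLp 2 a)) (P j) =
        hermitianOfCoords (WithLp.toLp 2 fun p => a (j, p) - Q a (j, p)) := by
      rw [← herm_coords h4, matrixTuple, ← herm_sub]
      rfl
    change ((d : ℂ)⁻¹ * Matrix.trace
      ((matrixTuple (WithLp.toLp 2 a) j - polyEval (matrixTuple (WithLp.toLp 2 a)) (P j)) *
        (matrixTuple (WithLp.toLp 2 a) j - polyEval (matrixTuple (WithLp.toLp 2 a)) (P j)))).re
          ≤ ρ j at h3
    rw [e, trace_herm_mul, ← Complex.ofReal_natCast, ← Complex.ofReal_inv, ← Complex.ofReal_mul,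
      Complex.ofReal_re, inv_mul_le_iff₀ hd'] at h3
    have h5 := hρ0 j
    dsimp only
    rw [← Finset.mul_sum]
    simp only [sq]
    calc _ ≤ d / (2 * ρ j) * (d * ρ j) := mul_le_mul_of_nonneg_left h3 (by positivity)
      _ = _ := by field_simp
  have h3 := (mul_le_mul_right h2 _).trans h1
  rw [mul_comm, ← ENNReal.le_div_iff_mul_le (Or.inl (by simp [Real.exp_pos])) (Or.inl (by simp)),
    ← ENNReal.ofReal_div_of_pos (Real.exp_pos _)] at h3
  refine h3.trans (le_of_eq ?_)
  congr 1
  rw [div_eq_iff (Real.exp_pos _).ne', ← Real.exp_add, ← sub_eq_add_neg, ← Finset.sum_sub_distrib,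
    Real.exp_sum, Fintype.prod_prod_type]
  refine Finset.prod_congr rfl fun j _ => ?_
  have h5 := hρ0 j
  have h6 := Real.pi_pos
  have e1 : Real.log (2 * Real.pi * Real.exp 1 * ρ j / d) =
      1 + Real.log (Real.pi / (d / (2 * ρ j))) := by
    rw [show 2 * Real.pi * Real.exp 1 * ρ j / d = Real.exp 1 * (Real.pi / (d / (2 * ρ j))) by
      field_simp, Real.log_mul (by positivity) (by positivity), Real.log_exp]
  dsimp only
  rw [e1, Finset.prod_const, Finset.card_univ, Fintype.card_prod, Fintype.card_fin,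
    ← Real.exp_log (show 0 < Real.sqrt (Real.pi / (d / (2 * ρ j))) by positivity),
    ← Real.exp_nat_mul, Real.log_sqrt (by positivity)]
  congr 1
  push_cast
  ring

theorem chi_le {A : Type*} [Ring A] [Algebra ℂ A] (τ : A →ₗ[ℂ] ℂ) {n : ℕ} (X : Fin n → A)
    (hid : Fin n → Prop) (P : Fin n → NCPoly n) (h0 : ∀ i, hid i → P i = 0)
    (hd : ∀ (d : ℕ) (M M' : Fin n → Matrix (Fin d) (Fin d) ℂ), (∀ i, hid i → M i = M' i) →
      ∀ j, polyEval M (P j) = polyEval M' (P j))
    (hh : ∀ (d : ℕ) (M : Fin n → Matrix (Fin d) (Fin d) ℂ), (∀ i, (M i).IsHermitian) →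
      ∀ j, (polyEval M (P j)).IsHermitian)
    (ρ : Fin n → ℝ) (hρ0 : ∀ j, 0 < ρ j)
    (hρ : ∀ j, (τ ((X j - polyEval X (P j)) * (X j - polyEval X (P j)))).re < ρ j) :
    chi τ X ≤ ((∑ j, 1 / 2 * Real.log (2 * Real.pi * Real.exp 1 * ρ j) : ℝ) : EReal) := by
  set Q : Fin n → NCPoly n := fun j => (MonoidAlgebra.single (FreeMonoid.of j) 1 - P j) *
    (MonoidAlgebra.single (FreeMonoid.of j) 1 - P j) with hQ
  have hev := (Filter.eventually_all.2 fun j => vu_approx τ X (Q j) _ (sub_pos.2 (hρ j))).and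
    ((Filter.Eventually.of_forall (p := fun _ : ℕ => True) fun _ => trivial).prod_mk
      (self_mem_nhdsWithin (a := (0 : ℝ)) (s := Set.Ioi 0)))
  obtain ⟨⟨m, ε⟩, h1, -, hε⟩ := hev.exists
  refine iSup₂_le fun R _ => iInf_le_of_le m (iInf_le_of_le ε (iInf_le_of_le hε ?_))
  refine Filter.limsup_le_of_le (by isBoundedDefault) ?_
  filter_upwards [Filter.eventually_gt_atTop 0] with d hd0
  have hd' : (0 : ℝ) < d := by exact_mod_cast hd0
  have h2 := vu_vol hd0 hid P h0 (hd d) (hh d) ρ hρ0 (microstates τ X R m d ε) fun a ha j => by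
    have h3 := h1 j d (matrixTuple a) ha.2
    have h4 := (Complex.re_le_norm _).trans h3
    simp only [hQ, polyEval, map_mul, map_sub, MonoidAlgebra.lift_single, one_smul,
      FreeMonoid.lift_eval_of, Complex.sub_re] at h4 ⊢
    linarith
  have h3 := ENNReal.log_monotone h2
  rw [ENNReal.log_ofReal_of_pos (Real.exp_pos _), Real.log_exp] at h3
  have h4 := mul_le_mul_of_nonneg_left h3
    (show (0 : EReal) ≤ ((((d : ℝ) ^ 2)⁻¹ : ℝ) : EReal) by exact_mod_cast (by positivity))
  refine (add_le_add h4 le_rfl).trans (le_of_eq ?_)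
  rw [← EReal.coe_mul, ← EReal.coe_add]
  congr 1
  rw [← Finset.mul_sum, inv_mul_cancel_left₀ (by positivity)]
  have h6 := Real.pi_pos
  have e : ∀ j, Real.log (2 * Real.pi * Real.exp 1 * ρ j / d) =
      Real.log (2 * Real.pi * Real.exp 1 * ρ j) - Real.log d := fun j =>
    Real.log_div (by have := hρ0 j; positivity) hd'.ne'
  simp only [e, mul_sub, Finset.sum_sub_distrib, Finset.sum_const, Finset.card_univ,
    Fintype.card_fin, nsmul_eq_mul]
  ring

end Crest.Agent.R89
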